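import Vale.Agent.P159.T1.H934.Cover
import Vale.Agent.P159.H170.Final

/-!
`StmtGV` with the facts about `bCrit` and the helicity modulus inserted.
-/

namespace Vale.Agent.P159.T1.H934

open Vale.Agent.P159 Vale.Agent.P159.T1.D

lemma pos_of_ge (b : ℝ) (hb : bCrit ≤ b) : 0 < b ∧ 2 / Real.pi ≤ helicity b := by
  have h := H170.final.2.2.1.2.2.2 b hb
  exact ⟨H170.bCrit_pos.trans_le hb, h.2.1.trans h.2.2.1⟩

theorem gv' (hV : StmtV) (hUV : StmtUV) (hLat : StmtLat) : StmtGV :=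
  gv (fun b hb => ⟨(pos_of_ge b hb).1,
    le_trans (by have := Real.pi_pos; positivity) (pos_of_ge b hb).2⟩) hV hUV hLat

end Vale.Agent.P159.T1.H934
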