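import Vale.Agent.P159.T1.H934.Mix
import Vale.Agent.P159.R2.H729.Cut
import Vale.Agent.P159.H353.Wgt

/-!
Exploration of the level set `{h = 0}` from the left and the resulting inequality for
partition functions of integer heights on a finite graph.
-/

open MeasureTheory Filter Topology

namespace Vale.Agent.P159.T1.H934

open Vale.Agent.P159 Vale.Agent.P159.H353 Vale.Agent.P159.R2.H254 Vale.Agent.P159.R2.H729

/-- adjacency of the graph with the edges `s e`, `t e` -/
def adjG {V E : Type} (s t : E → V) (a b : V) : Prop :=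
  ∃ e, (s e = a ∧ t e = b) ∨ (s e = b ∧ t e = a)

/-- gradient of a height function -/
def grd {V E : Type} (s t : E → V) : (V → ℤ) →+ (E → ℤ) where
  toFun h := fun e => h (t e) - h (s e)
  map_zero' := by funext e; simp
  map_add' a b := by funext e; simp only [Pi.add_apply]; ring

section expl

variable {V E A : Type} [Fintype V] (s t : E → V) (l : A → V)

open Classical in
/-- the vertices which are reached from the left inside `{h ≠ 0}` -/
noncomputable def Ex (h : V → ℤ) : Finset V :=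
  Finset.univ.filter fun v => Cn (adjG s t) {v | h v ≠ 0} (Set.range l) {v}

/-- the outer boundary of an explored set -/
def Bd (S : Finset V) (v : V) : Prop :=
  v ∉ S ∧ (v ∈ Set.range l ∨ ∃ u ∈ S, adjG s t u v)

/-- a set of vertices each of which is reached from the left inside the set -/
def LC (S : Finset V) : Prop := ∀ v ∈ S, Cn (adjG s t) {u | u ∈ S} (Set.range l) {v}

variable {s t l}

lemma mem_Ex {h : V → ℤ} {v : V} :
    v ∈ Ex s t l h ↔ Cn (adjG s t) {v | h v ≠ 0} (Set.range l) {v} := by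
  unfold Ex
  simp

omit [Fintype V] in
lemma Cn_single {S X : Set V} {adj : V → V → Prop} {v : V} :
    Cn adj S X {v} ↔ ∃ x ∈ S ∩ X, v ∈ S ∧
      Relation.ReflTransGen (fun a b => adj a b ∧ a ∈ S ∧ b ∈ S) x v := by
  constructor
  · rintro ⟨x, hx, y, ⟨hy, rfl⟩, h⟩
    exact ⟨x, hx, hy, h⟩
  · rintro ⟨x, hx, hv, h⟩
    exact ⟨x, hx, v, ⟨hv, rfl⟩, h⟩

omit [Fintype V] in
lemma Cn_step {S X : Set V} {adj : V → V → Prop} {u v : V} (h : Cn adj S X {u})
    (huv : adj u v) (hv : v ∈ S) : Cn adj S X {v} := by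
  rw [Cn_single] at h ⊢
  obtain ⟨x, hx, hu, h1⟩ := h
  exact ⟨x, hx, hv, h1.tail ⟨huv, hu, hv⟩⟩

omit [Fintype V] in
lemma Cn_start {S X : Set V} {adj : V → V → Prop} {v : V} (hX : v ∈ X)
    (hv : v ∈ S) : Cn adj S X {v} := by
  rw [Cn_single]
  exact ⟨v, ⟨hv, hX⟩, hv, .refl⟩

/-- characterisation of the configurations with a given explored set -/
theorem Ex_eq_iff {S : Finset V} {h : V → ℤ} (hS : LC s t l S) :
    Ex s t l h = S ↔ (∀ v ∈ S, h v ≠ 0) ∧ ∀ v, Bd s t l S v → h v = 0 := by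
  constructor
  · rintro rfl
    refine ⟨fun v hv => ?_, fun v hv => ?_⟩
    · rw [mem_Ex, Cn_single] at hv
      obtain ⟨x, hx, h1, h2⟩ := hv
      exact h1
    · by_contra hne
      apply hv.1
      rw [mem_Ex]
      rcases hv.2 with h1 | ⟨u, hu, hadj⟩
      · exact Cn_start h1 hne
      · exact Cn_step (mem_Ex.1 hu) hadj hne
  · rintro ⟨h1, h2⟩
    ext v
    rw [mem_Ex]
    constructor
    · intro hv
      rw [Cn_single] at hv
      obtain ⟨x, ⟨hx, hxl⟩, hv0, h3⟩ := hv
      induction h3 with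
      | refl =>
        by_contra hne
        exact hx (h2 x ⟨hne, Or.inl hxl⟩)
      | @tail a b _ hab ih =>
        have ha := ih hab.2.1
        by_contra hne
        exact hv0 (h2 b ⟨hne, Or.inr ⟨a, ha, hab.1⟩⟩)
    · intro hv
      exact (hS v hv).mono (fun u hu => h1 u hu)

/-- an explored set is connected to the left -/
lemma LC_Ex (h : V → ℤ) : LC s t l (Ex s t l h) := by
  intro v hv
  rw [mem_Ex, Cn_single] at hv
  obtain ⟨x, ⟨hx, hxl⟩, hv0, h3⟩ := hv
  induction h3 with
  | refl => exact Cn_start hxl (by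
      show x ∈ Ex s t l h
      rw [mem_Ex]
      exact Cn_start hxl hx)
  | @tail a b hxa hab ih =>
    have ha := ih hab.2.1
    refine Cn_step ha hab.1 ?_
    show b ∈ Ex s t l h
    rw [mem_Ex, Cn_single]
    exact ⟨x, ⟨hx, hxl⟩, hab.2.2, hxa.tail hab⟩

end expl

section wt

variable {V E A : Type} [Fintype V] [Fintype E] {s t : E → V} {l : A → V}

open Classical in
/-- restriction of a height function to a set -/
noncomputable def rs (S : Finset V) (h : V → ℤ) (v : V) : ℤ := if v ∈ S then h v else 0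

open Classical in
/-- restriction of a height function to the complement of a set -/
noncomputable def rc (S : Finset V) (h : V → ℤ) (v : V) : ℤ := if v ∈ S then 0 else h v

omit [Fintype V] in
lemma W_split {J : E → ℝ} {S : Finset V} {h : V → ℤ} (hB : ∀ v, Bd s t l S v → h v = 0) :
    W (grd s t) J (rs S h) * W (grd s t) J (rc S h) = W (grd s t) J 0 * W (grd s t) J h := by
  unfold W
  rw [← Finset.prod_mul_distrib, ← Finset.prod_mul_distrib]
  refine Finset.prod_congr rfl fun e _ => ?_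
  rw [map_zero]
  show wI (J e) (rs S h (t e) - rs S h (s e)) * wI (J e) (rc S h (t e) - rc S h (s e)) =
    wI (J e) 0 * wI (J e) (h (t e) - h (s e))
  unfold rs rc
  by_cases h1 : s e ∈ S
  · by_cases h2 : t e ∈ S
    · simp only [h1, h2, if_true, sub_zero]
      ring
    · have h3 : h (t e) = 0 := hB _ ⟨h2, Or.inr ⟨s e, h1, e, Or.inl ⟨rfl, rfl⟩⟩⟩
      simp only [h1, h2, if_true, if_false, h3, sub_zero]
      ring
  · by_cases h2 : t e ∈ S
    · have h3 : h (s e) = 0 := hB _ ⟨h1, Or.inr ⟨t e, h2, e, Or.inr ⟨rfl, rfl⟩⟩⟩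
      simp only [h1, h2, if_true, if_false, h3, sub_zero]
      ring
    · simp only [h1, h2, if_false, sub_zero]

lemma wI_zero_left (n : ℤ) : wI 0 n = if n = 0 then 1 else 0 := by
  unfold wI
  rw [neg_zero, Real.exp_zero, one_mul, tsum_eq_single 0]
  · split_ifs with h
    · subst h; simp
    · have : (2 * 0).choose (0 + n.natAbs) = 0 := Nat.choose_eq_zero_of_lt (by omega)
      rw [this]; simp
  · intro k hk
    rw [zero_div, zero_pow hk]
    simp

end wt

section markov

variable {V E A Q : Type} [Fintype V] [Fintype E] {s t : E → V} {l : A → V}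

omit [Fintype V] in
lemma W0_pos {J : E → ℝ} (hJ : ∀ e, 0 ≤ J e) : 0 < W (grd s t) J (0 : V → ℤ) := by
  unfold W
  rw [map_zero]
  exact Finset.prod_pos fun e _ => wI_zero_pos (hJ e)

open Classical in
/-- weight of the explored part -/
noncomputable def US (s t : E → V) (J : E → ℝ) (S : Finset V) (h : V → ℤ) : ℝ :=
  if (∀ v, v ∉ S → h v = 0) ∧ ∀ v ∈ S, h v ≠ 0 then W (grd s t) J h else 0

open Classical in
/-- weight of the unexplored part -/
noncomputable def VS (s t : E → V) (l : A → V) (J : E → ℝ) (S : Finset V)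
    (G : (V → ℤ) → Q → ℝ) (x : (V → ℤ) × Q) : ℝ :=
  if (∀ v ∈ S, x.1 v = 0) ∧ ∀ v, Bd s t l S v → x.1 v = 0 then
    W (grd s t) J x.1 * G x.1 x.2 else 0

lemma US_nonneg {J : E → ℝ} (hJ : ∀ e, 0 ≤ J e) (S : Finset V) (h : V → ℤ) :
    0 ≤ US s t J S h := by
  unfold US
  split_ifs
  · exact W_nonneg hJ _
  · exact le_rfl

lemma VS_nonneg {J : E → ℝ} (hJ : ∀ e, 0 ≤ J e) (S : Finset V) {G : (V → ℤ) → Q → ℝ}
    (hG : ∀ h q, 0 ≤ G h q) (x : (V → ℤ) × Q) : 0 ≤ VS s t l J S G x := by
  unfold VS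
  split_ifs
  · exact mul_nonneg (W_nonneg hJ _) (hG _ _)
  · exact le_rfl

open Classical in
/-- **domain Markov property** of the exploration from the left -/
theorem markov {J : E → ℝ} (hJ : ∀ e, 0 ≤ J e) {S : Finset V} (hS : LC s t l S)
    {G : (V → ℤ) → Q → ℝ} (hG0 : ∀ h q, 0 ≤ G h q)
    (hG : ∀ h h' q, (∀ v, v ∉ S → h v = h' v) → G h q = G h' q)
    (hU : Summable (US s t J S)) (hV : Summable (VS s t l J S G)) :
    HasSum (fun x : (V → ℤ) × Q => if Ex s t l x.1 = S then
      W (grd s t) J x.1 * G x.1 x.2 else 0)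
      ((W (grd s t) J 0)⁻¹ * ((∑' h, US s t J S h) * ∑' x, VS s t l J S G x)) := by
  have h1 : HasSum (fun y : (V → ℤ) × ((V → ℤ) × Q) => US s t J S y.1 * VS s t l J S G y.2)
      ((∑' h, US s t J S h) * ∑' x, VS s t l J S G x) := by
    have h2 : Summable fun y : (V → ℤ) × ((V → ℤ) × Q) =>
        US s t J S y.1 * VS s t l J S G y.2 :=
      hU.mul_of_nonneg hV (US_nonneg hJ S) (VS_nonneg hJ S hG0)
    rw [hU.tsum_mul_tsum hV h2]
    exact h2.hasSum
  set ι : (V → ℤ) × Q → (V → ℤ) × ((V → ℤ) × Q) := fun x => (rs S x.1, (rc S x.1, x.2)) with hι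
  have hinj : Function.Injective ι := by
    rintro ⟨h, q⟩ ⟨h', q'⟩ hx
    simp only [hι, Prod.mk.injEq] at hx
    obtain ⟨h3, h4, h5⟩ := hx
    have h6 : h = h' := by
      funext v
      by_cases hv : v ∈ S
      · have := congrFun h3 v
        simpa [rs, hv] using this
      · have := congrFun h4 v
        simpa [rc, hv] using this
    rw [h6, h5]
  have h7 := (hinj.hasSum_iff (f := fun y : (V → ℤ) × ((V → ℤ) × Q) =>
    US s t J S y.1 * VS s t l J S G y.2) ?_).2 h1
  · have h8 := h7.mul_left (W (grd s t) J 0)⁻¹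
    have e : ∀ x : (V → ℤ) × Q, (W (grd s t) J 0)⁻¹ *
        (US s t J S (rs S x.1) * VS s t l J S G (rc S x.1, x.2)) =
        if Ex s t l x.1 = S then W (grd s t) J x.1 * G x.1 x.2 else 0 := by
      intro x
      have hW0 := (W0_pos (s := s) (t := t) hJ).ne'
      by_cases hE : Ex s t l x.1 = S
      · rw [if_pos hE]
        obtain ⟨h9, h10⟩ := (Ex_eq_iff hS).1 hE
        have c1 : (∀ v, v ∉ S → rs S x.1 v = 0) ∧ ∀ v ∈ S, rs S x.1 v ≠ 0 :=
          ⟨fun v hv => by simp [rs, hv], fun v hv => by simpa [rs, hv] using h9 v hv⟩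
        have c2 : (∀ v ∈ S, rc S x.1 v = 0) ∧ ∀ v, Bd s t l S v → rc S x.1 v = 0 :=
          ⟨fun v hv => by simp [rc, hv], fun v hv => by
            have h11 : v ∉ S := hv.1
            simpa [rc, h11] using h10 v hv⟩
        unfold US VS
        rw [if_pos c1, if_pos c2]
        have h12 : G (rc S x.1) x.2 = G x.1 x.2 := hG _ _ _ fun v hv => by simp [rc, hv]
        rw [h12, ← mul_assoc (W (grd s t) J (rs S x.1)), W_split h10]
        field_simp
      · rw [if_neg hE]
        by_cases c1 : ∀ v ∈ S, x.1 v ≠ 0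
        · have c2 : ¬ ∀ v, Bd s t l S v → x.1 v = 0 := fun h => hE ((Ex_eq_iff hS).2 ⟨c1, h⟩)
          have c3 : ¬ ((∀ v ∈ S, rc S x.1 v = 0) ∧ ∀ v, Bd s t l S v → rc S x.1 v = 0) := by
            rintro ⟨-, h⟩
            apply c2
            intro v hv
            have h11 : v ∉ S := hv.1
            simpa [rc, h11] using h v hv
          unfold VS
          rw [if_neg c3]
          ring
        · have c3 : ¬ ((∀ v, v ∉ S → rs S x.1 v = 0) ∧ ∀ v ∈ S, rs S x.1 v ≠ 0) := by
            rintro ⟨-, h⟩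
            apply c1
            intro v hv
            simpa [rs, hv] using h v hv
          unfold US
          rw [if_neg c3]
          ring
    have h9 : (fun x : (V → ℤ) × Q => if Ex s t l x.1 = S then
        W (grd s t) J x.1 * G x.1 x.2 else 0) = fun x => (W (grd s t) J 0)⁻¹ *
        ((fun y : (V → ℤ) × ((V → ℤ) × Q) => US s t J S y.1 * VS s t l J S G y.2) ∘ ι) x :=
      funext fun x => (e x).symm
    rw [h9]
    exact h8
  · rintro ⟨a, c, q⟩ hy
    by_contra hne
    apply hy
    have n1 : US s t J S a ≠ 0 := left_ne_zero_of_mul hne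
    have n2 : VS s t l J S G (c, q) ≠ 0 := right_ne_zero_of_mul hne
    unfold US at n1
    unfold VS at n2
    rw [ne_eq, ite_eq_right_iff, Classical.not_imp] at n1 n2
    obtain ⟨⟨a1, a2⟩, -⟩ := n1
    obtain ⟨⟨b1, b2⟩, -⟩ := n2
    refine ⟨(a + c, q), ?_⟩
    simp only [hι, Prod.mk.injEq, and_true]
    constructor
    · funext v
      by_cases hv : v ∈ S
      · simp only [rs, hv, if_true, Pi.add_apply]
        have := b1 v hv
        simp only at this
        rw [this, add_zero]
      · simp only [rs, hv, if_false]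
        exact (a1 v hv).symm
    · funext v
      by_cases hv : v ∈ S
      · simp only [rc, hv, if_true]
        exact (b1 v hv).symm
      · simp only [rc, hv, if_false, Pi.add_apply]
        rw [a1 v hv, zero_add]

end markov

section final

variable {V E A B : Type} [Fintype V] [Fintype E] [Fintype A] [Fintype B]
  {s t : E → V} {l : A → V} {r : B → V}

/-- the graph is connected -/
def Conn (s t : E → V) : Prop := ∀ u v, Relation.ReflTransGen (adjG s t) u v

omit [Fintype V] [Fintype E] in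
lemma conn_const (hc : Conn s t) {h : V → ℤ} (h1 : grd s t h = 0) (u v : V) : h u = h v := by
  have h2 := hc u v
  induction h2 with
  | refl => rfl
  | @tail a b _ hab ih =>
    rw [ih]
    obtain ⟨e, he⟩ := hab
    have h3 : h (t e) - h (s e) = 0 := congrFun h1 e
    rcases he with ⟨rfl, rfl⟩ | ⟨rfl, rfl⟩ <;> omega

/-- values of the heights at the vertices `l y` -/
def vals (l : A → V) : (V → ℤ) →+ (A → ℤ) where
  toFun h := fun y => h (l y)
  map_zero' := rfl
  map_add' _ _ := rfl

/-- gradient together with the values at the vertices `l y` -/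
def grdL (s t : E → V) (l : A → V) : (V → ℤ) →+ (E ⊕ A → ℤ) where
  toFun h := Sum.elim (grd s t h) (vals l h)
  map_zero' := by funext x; rcases x with e | y <;> simp
  map_add' a b := by funext x; rcases x with e | y <;> simp

omit [Fintype V] [Fintype E] [Fintype A] in
lemma grdL_inj (hc : Conn s t) (hA : Nonempty A) : Function.Injective (grdL s t l) := by
  rw [injective_iff_map_eq_zero]
  intro h hh
  obtain ⟨y⟩ := hA
  have h1 : grd s t h = 0 := funext fun e => congrFun hh (Sum.inl e)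
  have h2 : h (l y) = 0 := congrFun hh (Sum.inr y)
  funext v
  rw [conn_const hc h1 v (l y), h2]
  rfl

omit [Fintype V] in
lemma W_grdL (J : E → ℝ) (a : A → ℝ) (h : V → ℤ) :
    W (grdL s t l) (Sum.elim J a) h = W (grd s t) J h * Psi (vals l) a h 0 := by
  unfold W Psi
  rw [Fintype.prod_sum_type]
  simp only [sub_zero]
  rfl

open Classical in
/-- the explored set and its boundary -/
def TT (s t : E → V) (l : A → V) (S : Finset V) (v : V) : Prop := v ∈ S ∨ Bd s t l S v

omit [Fintype V] [Fintype E] [Fintype A] in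
lemma zero_on_TT {S : Finset V} (hS : LC s t l S) {h : V → ℤ} (h1 : ∀ y, h (l y) = 0)
    (h2 : ∀ e, TT s t l S (s e) → TT s t l S (t e) → h (t e) - h (s e) = 0) (v : V)
    (hv : TT s t l S v) : h v = 0 := by
  have key : ∀ u v, adjG s t u v → TT s t l S u → TT s t l S v → h u = 0 → h v = 0 := by
    rintro u v ⟨e, ⟨rfl, rfl⟩ | ⟨rfl, rfl⟩⟩ hu hv h0
    · have := h2 e hu hv; omega
    · have := h2 e hv hu; omega
  have hSS : ∀ v ∈ S, h v = 0 := by
    intro v hv
    obtain ⟨x, ⟨hx, y, rfl⟩, _, h3⟩ := Cn_single.1 (hS v hv)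
    induction h3 with
    | refl => exact h1 y
    | @tail a b _ hab ih =>
      exact key a b hab.1 (Or.inl hab.2.1) (Or.inl hab.2.2) (ih hab.2.1 hab.2.1)
  rcases hv with hv | ⟨hv1, ⟨y, rfl⟩ | ⟨u, hu, huv⟩⟩
  · exact hSS v hv
  · exact h1 y
  · exact key u v huv (Or.inl hu) (Or.inr ⟨hv1, Or.inr ⟨u, hu, huv⟩⟩) (hSS u hu)

open Classical in
/-- couplings of the pinned system -/
noncomputable def J1 (s t : E → V) (l : A → V) (J : E → ℝ) (S : Finset V) : E ⊕ A → ℝ :=
  Sum.elim (fun e => if TT s t l S (s e) ∧ TT s t l S (t e) then 0 else J e) 0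

open Classical in
/-- additional couplings -/
noncomputable def K1 (s t : E → V) (l : A → V) (J : E → ℝ) (a : A → ℝ) (S : Finset V) :
    E ⊕ A → ℝ :=
  Sum.elim (fun e => if TT s t l S (s e) ∧ TT s t l S (t e) then J e else 0) a

open Classical in
/-- constant of the pinned system -/
noncomputable def cT (s t : E → V) (l : A → V) (J : E → ℝ) (S : Finset V) : ℝ :=
  ∏ e, if TT s t l S (s e) ∧ TT s t l S (t e) then wI (J e) 0 else 1

omit [Fintype V] [Fintype E] [Fintype A] in
lemma J1_add_K1 (J : E → ℝ) (a : A → ℝ) (S : Finset V) :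
    J1 s t l J S + K1 s t l J a S = Sum.elim J a := by
  funext x
  rcases x with e | y
  · simp only [J1, K1, Pi.add_apply, Sum.elim_inl]
    split_ifs <;> simp
  · simp [J1, K1]

omit [Fintype V] [Fintype E] [Fintype A] in
lemma J1_nonneg {J : E → ℝ} (hJ : ∀ e, 0 ≤ J e) (S : Finset V) (x : E ⊕ A) :
    0 ≤ J1 s t l J S x := by
  rcases x with e | y
  · simp only [J1, Sum.elim_inl]
    split_ifs
    · exact le_rfl
    · exact hJ e
  · simp [J1]

omit [Fintype V] [Fintype E] [Fintype A] in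
lemma K1_nonneg {J : E → ℝ} {a : A → ℝ} (hJ : ∀ e, 0 ≤ J e) (ha : ∀ y, 0 ≤ a y) (S : Finset V)
    (x : E ⊕ A) : 0 ≤ K1 s t l J a S x := by
  rcases x with e | y
  · simp only [K1, Sum.elim_inl]
    split_ifs
    · exact hJ e
    · exact le_rfl
  · simpa [K1] using ha y

open Classical in
/-- the pinned system -/
theorem pinned {J : E → ℝ} {S : Finset V} (hS : LC s t l S) (h : V → ℤ) :
    cT s t l J S * W (grdL s t l) (J1 s t l J S) h =
      if (∀ v ∈ S, h v = 0) ∧ ∀ v, Bd s t l S v → h v = 0 then W (grd s t) J h else 0 := by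
  have hW : W (grdL s t l) (J1 s t l J S) h =
      (∏ e, wI (if TT s t l S (s e) ∧ TT s t l S (t e) then 0 else J e) (h (t e) - h (s e))) *
        ∏ y, wI 0 (h (l y)) := by
    unfold W
    rw [Fintype.prod_sum_type]
    rfl
  rw [hW]
  by_cases hc : (∀ v ∈ S, h v = 0) ∧ ∀ v, Bd s t l S v → h v = 0
  · rw [if_pos hc]
    have hT : ∀ v, TT s t l S v → h v = 0 := fun v hv => hv.elim (hc.1 v) (hc.2 v)
    have h1 : ∏ y, wI 0 (h (l y)) = 1 := by
      refine Finset.prod_eq_one fun y _ => ?_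
      have : h (l y) = 0 := by
        apply hT
        by_cases hy : l y ∈ S
        · exact Or.inl hy
        · exact Or.inr ⟨hy, Or.inl ⟨y, rfl⟩⟩
      rw [this, wI_zero_left, if_pos rfl]
    rw [h1, mul_one]
    unfold cT W
    rw [← Finset.prod_mul_distrib]
    refine Finset.prod_congr rfl fun e _ => ?_
    show _ = wI (J e) (h (t e) - h (s e))
    split_ifs with he
    · rw [hT _ he.1, hT _ he.2, sub_zero, wI_zero_left, if_pos rfl, mul_one]
    · rw [one_mul]
  · rw [if_neg hc]
    by_contra hne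
    apply hc
    have h0 := right_ne_zero_of_mul hne
    have h1 := right_ne_zero_of_mul h0
    have h2 := left_ne_zero_of_mul h0
    rw [Finset.prod_ne_zero_iff] at h1 h2
    have h3 : ∀ y, h (l y) = 0 := by
      intro y
      have := h1 y (Finset.mem_univ y)
      rw [wI_zero_left] at this
      by_contra hn
      exact this (if_neg hn)
    have h4 : ∀ e, TT s t l S (s e) → TT s t l S (t e) → h (t e) - h (s e) = 0 := by
      intro e he1 he2
      have := h2 e (Finset.mem_univ e)
      rw [if_pos ⟨he1, he2⟩, wI_zero_left] at this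
      by_contra hn
      exact this (if_neg hn)
    have h5 := zero_on_TT hS h3 h4
    exact ⟨fun v hv => h5 v (Or.inl hv), fun v hv => h5 v (Or.inr hv)⟩

omit [Fintype V] [Fintype A] in
lemma cT_pos {J : E → ℝ} (hJ : ∀ e, 0 ≤ J e) (S : Finset V) : 0 < cT s t l J S := by
  unfold cT
  refine Finset.prod_pos fun e _ => ?_
  split_ifs
  · exact wI_zero_pos (hJ e)
  · exact one_pos

section summ

/-- heights with a face of height `q` added are summable -/
lemma summable_Psi {H E R : Type} [Fintype E] [Fintype R] {D : H → E → ℤ} {J : E → ℝ}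
    (hJ : ∀ e, 0 ≤ J e) (ρ : H → R → ℤ) {b : R → ℝ} (hb : ∀ y, 0 ≤ b y)
    (hD : Function.Injective D) (hR : Nonempty R) :
    Summable fun x : H × ℤ => W D J x.1 * Psi ρ b x.1 x.2 := by
  set D' : H × ℤ → E ⊕ R → ℤ := fun x => Sum.elim (D x.1) (fun y => ρ x.1 y - x.2) with hD'
  have hinj : Function.Injective D' := by
    rintro ⟨h, q⟩ ⟨h', q'⟩ hx
    have h1 : D h = D h' := funext fun e => congrFun hx (Sum.inl e)
    have h2 : h = h' := hD h1
    subst h2
    obtain ⟨y⟩ := hR
    have h3 : ρ h y - q = ρ h y - q' := congrFun hx (Sum.inr y)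
    have h4 : q = q' := by omega
    rw [h4]
  have h1 := W_summable (D := D') hinj (J := Sum.elim J b) (by rintro (e | y) <;> simp [hJ, hb])
  refine h1.congr fun x => ?_
  unfold W Psi
  rw [Fintype.prod_sum_type]
  rfl

end summ

omit [Fintype V] in
/-- heights which vanish at a given vertex are summable -/
lemma summable_at (hc : Conn s t) {J : E → ℝ} (hJ : ∀ e, 0 ≤ J e) (v : V) :
    Summable fun h : V → ℤ => if h v = 0 then W (grd s t) J h else 0 := by
  have h1 := W_summable (D := grdL s t (fun _ : Unit => v)) (grdL_inj hc ⟨()⟩)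
    (J := Sum.elim J 0) (by rintro (e | y) <;> simp [hJ])
  refine h1.congr fun h => ?_
  rw [W_grdL]
  unfold Psi vals
  simp only [Finset.univ_unique, Finset.prod_singleton, Pi.zero_apply, AddMonoidHom.coe_mk,
    ZeroHom.coe_mk, sub_zero, wI_zero_left]
  split_ifs <;> simp

lemma summable_US (hc : Conn s t) {J : E → ℝ} (hJ : ∀ e, 0 ≤ J e) {S : Finset V} {v : V}
    (hv : v ∉ S) : Summable (US s t J S) := by
  refine Summable.of_nonneg_of_le (US_nonneg hJ S) (fun h => ?_) (summable_at hc hJ v)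
  unfold US
  split_ifs with h1 h2
  · exact le_rfl
  · exact absurd (h1.1 v hv) h2
  · exact W_nonneg hJ _
  · exact le_rfl

lemma VS_eq {Q : Type} {J : E → ℝ} {S : Finset V} (hS : LC s t l S) (G : (V → ℤ) → Q → ℝ)
    (x : (V → ℤ) × Q) : VS s t l J S G x =
      cT s t l J S * (W (grdL s t l) (J1 s t l J S) x.1 * G x.1 x.2) := by
  rw [← mul_assoc, pinned hS]
  unfold VS
  split_ifs
  · rfl
  · rw [zero_mul]

open Classical in
/-- **Exploration inequality.** -/
theorem expl_le (hc : Conn s t) (hA : Nonempty A) (hB : Nonempty B) {J : E → ℝ} {a : A → ℝ}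
    {b : B → ℝ} (hJ : ∀ e, 0 ≤ J e) (ha : ∀ y, 0 ≤ a y) (hb : ∀ y, 0 ≤ b y) (S : Finset V)
    (hS : ∀ y, r y ∉ S) :
    ∃ n1 n2 : ℝ,
      HasSum (fun h : V → ℤ => if Ex s t l h = S then W (grd s t) J h else 0) n1 ∧
      HasSum (fun x : (V → ℤ) × ℤ => if Ex s t l x.1 = S then
        W (grd s t) J x.1 * Psi (vals r) b x.1 x.2 else 0) n2 ∧
      (∑' x : (V → ℤ) × ℤ, W (grd s t) J x.1 * Psi (vals l) a x.1 0 *
        Psi (vals r) b x.1 x.2) * n1 ≤
      (∑' h : V → ℤ, W (grd s t) J h * Psi (vals l) a h 0) * n2 := by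
  by_cases hL : LC s t l S
  · have hinj := grdL_inj (l := l) hc hA
    have hJ1 := J1_nonneg (s := s) (t := t) (l := l) hJ S
    have hK1 := K1_nonneg (s := s) (t := t) (l := l) hJ ha S
    obtain ⟨y0⟩ := hB
    have hU : Summable (US s t J S) := summable_US hc hJ (hS y0)
    have hs1 : Summable (W (grdL s t l) (J1 s t l J S)) := W_summable hinj hJ1
    have hs2 : Summable fun x : (V → ℤ) × ℤ =>
        W (grdL s t l) (J1 s t l J S) x.1 * Psi (vals r) b x.1 x.2 :=
      summable_Psi hJ1 _ hb hinj ⟨y0⟩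
    have hV1 : Summable (VS s t l J S (fun (_ : V → ℤ) (_ : Unit) => (1 : ℝ))) := by
      have h1 := (Equiv.prodPUnit (V → ℤ)).summable_iff.2 (hs1.mul_left (cT s t l J S))
      refine h1.congr fun x => ?_
      rw [VS_eq hL, mul_one]
      rfl
    have hV2 : Summable (VS s t l J S (fun h q => Psi (vals r) b h q)) :=
      (hs2.mul_left (cT s t l J S)).congr fun x => (VS_eq hL _ x).symm
    have m1 := markov hJ hL (G := fun (_ : V → ℤ) (_ : Unit) => (1 : ℝ))
      (fun _ _ => zero_le_one) (fun _ _ _ _ => rfl) hU hV1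
    have m2 := markov hJ hL (G := fun h q => Psi (vals r) b h q)
      (fun h q => Psi_nonneg hb h q) (fun h h' q hh => by
        unfold Psi vals
        refine Finset.prod_congr rfl fun y _ => ?_
        simp only [AddMonoidHom.coe_mk, ZeroHom.coe_mk]
        rw [hh (r y) (hS y)]) hU hV2
    have e1 : ∑' x, VS s t l J S (fun (_ : V → ℤ) (_ : Unit) => (1 : ℝ)) x =
        cT s t l J S * ∑' h, W (grdL s t l) (J1 s t l J S) h := by
      rw [← tsum_mul_left, ← (Equiv.prodPUnit (V → ℤ)).tsum_eq]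
      refine tsum_congr fun x => ?_
      rw [VS_eq hL, mul_one]
      rfl
    have e2 : ∑' x, VS s t l J S (fun h q => Psi (vals r) b h q) x =
        cT s t l J S * ∑' x : (V → ℤ) × ℤ,
          W (grdL s t l) (J1 s t l J S) x.1 * Psi (vals r) b x.1 x.2 := by
      rw [← tsum_mul_left]
      exact tsum_congr fun x => VS_eq hL _ x
    refine ⟨(W (grd s t) J 0)⁻¹ * ((∑' h, US s t J S h) *
      ∑' x, VS s t l J S (fun (_ : V → ℤ) (_ : Unit) => (1 : ℝ)) x), _, ?_, m2, ?_⟩
    · have h2 := (Equiv.prodPUnit (V → ℤ)).symm.hasSum_iff.2 m1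
      have h4 : (fun h : V → ℤ => if Ex s t l h = S then W (grd s t) J h else 0) =
          (fun x : (V → ℤ) × Unit => if Ex s t l x.1 = S then W (grd s t) J x.1 * 1 else 0) ∘
            (Equiv.prodPUnit (V → ℤ)).symm := by
        funext h
        simp only [Function.comp, Equiv.prodPUnit_symm_apply, mul_one]
      rw [h4]
      exact h2
    · rw [e1, e2]
      have hm := mono_Psi hinj hJ1 hK1 (vals r) hb ⟨y0⟩
      rw [J1_add_K1] at hm
      simp only [W_grdL] at hm
      have hu0 : 0 ≤ (W (grd s t) J 0)⁻¹ * (∑' h, US s t J S h) * cT s t l J S :=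
        mul_nonneg (mul_nonneg (inv_nonneg.2 (W_nonneg hJ _)) (tsum_nonneg fun h =>
          US_nonneg hJ S h)) (cT_pos hJ S).le
      have h3 := mul_le_mul_of_nonneg_left hm hu0
      linarith
  · have h0 : ∀ h : V → ℤ, Ex s t l h ≠ S := fun h hE => hL (hE ▸ LC_Ex h)
    refine ⟨0, 0, ?_, ?_, by simp⟩
    · simp only [h0, if_false]
      exact hasSum_zero
    · simp only [h0, if_false]
      exact hasSum_zero

/-- the level `k` separates the left from the right -/
def Sp (s t : E → V) (l : A → V) (r : B → V) (k : ℤ) (h : V → ℤ) : Prop :=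
  ¬ Cn (adjG s t) {v | h v ≠ k} (Set.range l) (Set.range r)

omit [Fintype E] [Fintype A] [Fintype B] in
lemma Sp_iff (h : V → ℤ) : Sp s t l r 0 h ↔ ∀ y, r y ∉ Ex s t l h := by
  unfold Sp
  constructor
  · intro h1 y hy
    rw [mem_Ex] at hy
    obtain ⟨x, hx, z, ⟨hz, rfl⟩, h2⟩ := hy
    exact h1 ⟨x, hx, r y, ⟨hz, y, rfl⟩, h2⟩
  · rintro h1 ⟨x, hx, z, ⟨hz, y, rfl⟩, h2⟩
    apply h1 y
    rw [mem_Ex]
    exact ⟨x, hx, r y, ⟨hz, rfl⟩, h2⟩

open Classical in
/-- **Exploration inequality, summed over the explored sets.** `Z_RR * N_LL ≤ Z_RL * N_LR`. -/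
theorem sep_zero_le (hc : Conn s t) (hA : Nonempty A) (hB : Nonempty B) {J : E → ℝ} {a : A → ℝ}
    {b : B → ℝ} (hJ : ∀ e, 0 ≤ J e) (ha : ∀ y, 0 ≤ a y) (hb : ∀ y, 0 ≤ b y) :
    ∃ n1 n2 : ℝ,
      HasSum (fun h : V → ℤ => if Sp s t l r 0 h then W (grd s t) J h else 0) n1 ∧
      HasSum (fun x : (V → ℤ) × ℤ => if Sp s t l r 0 x.1 then
        W (grd s t) J x.1 * Psi (vals r) b x.1 x.2 else 0) n2 ∧
      (∑' x : (V → ℤ) × ℤ, W (grd s t) J x.1 * Psi (vals l) a x.1 0 *
        Psi (vals r) b x.1 x.2) * n1 ≤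
      (∑' h : V → ℤ, W (grd s t) J h * Psi (vals l) a h 0) * n2 := by
  set F : Finset (Finset V) := Finset.univ.filter fun S => ∀ y, r y ∉ S with hF
  have key : ∀ S : Finset V, ∃ m : ℝ × ℝ, S ∈ F →
      HasSum (fun h : V → ℤ => if Ex s t l h = S then W (grd s t) J h else 0) m.1 ∧
      HasSum (fun x : (V → ℤ) × ℤ => if Ex s t l x.1 = S then
        W (grd s t) J x.1 * Psi (vals r) b x.1 x.2 else 0) m.2 ∧
      (∑' x : (V → ℤ) × ℤ, W (grd s t) J x.1 * Psi (vals l) a x.1 0 *
        Psi (vals r) b x.1 x.2) * m.1 ≤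
      (∑' h : V → ℤ, W (grd s t) J h * Psi (vals l) a h 0) * m.2 := by
    intro S
    by_cases hS : S ∈ F
    · obtain ⟨n1, n2, h⟩ := expl_le (r := r) hc hA hB hJ ha hb S (Finset.mem_filter.1 hS).2
      exact ⟨(n1, n2), fun _ => h⟩
    · exact ⟨0, fun h => absurd h hS⟩
  choose m hm using key
  have sum_ind : ∀ (h : V → ℤ) (c : ℝ),
      ∑ S ∈ F, (if Ex s t l h = S then c else 0) = if Sp s t l r 0 h then c else 0 := by
    intro h c
    rw [Finset.sum_ite_eq]
    refine if_congr ?_ rfl rfl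
    rw [Sp_iff, hF, Finset.mem_filter]
    simp
  have h1 := hasSum_sum (s := F) (f := fun S (h : V → ℤ) =>
    if Ex s t l h = S then W (grd s t) J h else 0) (a := fun S => (m S).1) fun S hS => (hm S hS).1
  have h2 := hasSum_sum (s := F) (f := fun S (x : (V → ℤ) × ℤ) =>
    if Ex s t l x.1 = S then W (grd s t) J x.1 * Psi (vals r) b x.1 x.2 else 0)
    (a := fun S => (m S).2) fun S hS => (hm S hS).2.1
  simp only [sum_ind] at h1 h2
  refine ⟨_, _, h1, h2, ?_⟩
  rw [Finset.mul_sum, Finset.mul_sum]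
  exact Finset.sum_le_sum fun S hS => (hm S hS).2.2

end final

end Vale.Agent.P159.T1.H934
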