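import Vale.Agent.P159.T1.H934.Cosh
import Vale.Agent.P159.T1.H934.Markov

/-!
Heights between two lips: the exploration of the cluster of `{h ≤ 0}` of the left lip and the
Ginibre inequality with charge and imaginary gauge.
-/

open MeasureTheory Filter Topology

namespace Vale.Agent.P159.T1.H934

open Vale.Agent.P159 Vale.Agent.P159.H353 Vale.Agent.P159.R2.H254 Vale.Agent.P159.R2.H729

section sector

variable {H : Type} [AddCommGroup H] {E : Type} [Fintype E]

/-- **Ginibre inequality with charge and imaginary gauge.** -/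
theorem mono_sector {D : H →+ (E → ℤ)} (hD : Function.Injective D) {J K : E → ℝ}
    (hJ : ∀ e, 0 ≤ J e) (hK : ∀ e, 0 ≤ K e) (c : H →+ ℤ) (k : ℤ) (a : E → ℝ) :
    (∑' h, W D J h * (if c h = k then Real.exp (ln D a h) else 0)) *
        (∑' h, W D (J + K) h * (if c h = 0 then 1 else 0)) ≤
      (∑' h, W D (J + K) h * (if c h = k then Real.exp (ln D a h) else 0)) *
        ∑' h, W D J h * (if c h = 0 then 1 else 0) := by
  have hJK : ∀ e, 0 ≤ (J + K) e := fun e => add_nonneg (hJ e) (hK e)
  have b1 : ∀ h : H, |(if c h = k then Real.exp (ln D a h) else 0)| ≤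
      1 * Real.exp |ln D a h| := fun h => by
    split_ifs
    · rw [abs_of_pos (Real.exp_pos _), one_mul]
      exact Real.exp_le_exp.2 (le_abs_self _)
    · rw [abs_zero]; positivity
  have b2 : ∀ h : H, |(if c h = 0 then (1 : ℝ) else 0)| ≤ 1 * Real.exp |ln D a h| := fun h => by
    have : 1 ≤ Real.exp |ln D a h| := Real.one_le_exp (abs_nonneg _)
    split_ifs
    · rw [abs_one]; linarith
    · rw [abs_zero]; linarith
  have b3 : ∀ h : H, |(if c h = k then Real.exp (ln D a h / 2) else 0)| ≤
      1 * Real.exp |ln D a h| := fun h => by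
    split_ifs
    · rw [abs_of_pos (Real.exp_pos _), one_mul]
      apply Real.exp_le_exp.2
      linarith [abs_nonneg (ln D a h), le_abs_self (ln D a h)]
    · rw [abs_zero]; positivity
  have h0 := dup_gen (D := D) hD hJ hK
    (g := fun h => if c h = k then Real.exp (ln D a h / 2) else 0) (C := 1)
    (one_le_rho a) (growth zero_le_one b3) (-1) (by simp)
  have h1 := (hasSum_mul_pair (summable_growth (D := D) hD hJK a b1)
    (summable_growth (D := D) hD hJ a b2)).sub
    (hasSum_mul_pair (summable_growth (D := D) hD hJ a b1)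
      (summable_growth (D := D) hD hJK a b2))
  have e : ∀ x : H × H, (W D (J + K) x.1 * W D J x.2 + -1 * (W D J x.1 * W D (J + K) x.2)) *
      ((if c (x.1 + x.2) = k then Real.exp (ln D a (x.1 + x.2) / 2) else 0) *
        (if c (x.1 - x.2) = k then Real.exp (ln D a (x.1 - x.2) / 2) else 0)) =
      W D (J + K) x.1 * (if c x.1 = k then Real.exp (ln D a x.1) else 0) *
        (W D J x.2 * (if c x.2 = 0 then 1 else 0)) -
      W D J x.1 * (if c x.1 = k then Real.exp (ln D a x.1) else 0) *
        (W D (J + K) x.2 * (if c x.2 = 0 then 1 else 0)) := by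
    intro x
    have h3 : ((if c (x.1 + x.2) = k then Real.exp (ln D a (x.1 + x.2) / 2) else 0) *
        (if c (x.1 - x.2) = k then Real.exp (ln D a (x.1 - x.2) / 2) else 0) : ℝ) =
        (if c x.1 = k then Real.exp (ln D a x.1) else 0) * (if c x.2 = 0 then 1 else 0) := by
      rw [map_add, map_sub]
      by_cases h4 : c x.1 = k
      · by_cases h5 : c x.2 = 0
        · simp only [h4, h5, add_zero, sub_zero, if_true, mul_one]
          rw [← Real.exp_add, ln_add, ln_sub]
          congr 1
          ring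
        · have : ¬ (c x.1 + c x.2 = k) := by omega
          simp [this, h5]
      · by_cases h5 : c x.1 + c x.2 = k
        · have : ¬ (c x.1 - c x.2 = k) := by omega
          simp [this, h4]
        · simp [h5, h4]
    rw [h3]
    ring
  rw [tsum_congr e, h1.tsum_eq] at h0
  linarith

end sector

section markovF

variable {V E A : Type} [Fintype V] [Fintype E] {s t : E → V} {l : A → V}

open Classical in
/-- domain Markov property with an observable `F` of the explored part -/
theorem markovF {J : E → ℝ} (hJ : ∀ e, 0 ≤ J e) {S : Finset V} (hS : LC s t l S)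
    {F G : (V → ℤ) → ℝ} (hF0 : ∀ h, 0 ≤ F h) (hG0 : ∀ h, 0 ≤ G h)
    (hF : ∀ h h', (∀ v, v ∈ S → h v = h' v) → F h = F h')
    (hG : ∀ h h', (∀ v, v ∉ S → h v = h' v) → G h = G h')
    (hU : Summable fun h => US s t J S h * F h)
    (hV : Summable fun h : V → ℤ => if (∀ v ∈ S, h v = 0) ∧ ∀ v, Bd s t l S v → h v = 0 then
      W (grd s t) J h * G h else 0) :
    HasSum (fun h : V → ℤ => if Ex s t l h = S then W (grd s t) J h * (F h * G h) else 0)
      ((W (grd s t) J 0)⁻¹ * ((∑' h, US s t J S h * F h) *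
        ∑' h : V → ℤ, if (∀ v ∈ S, h v = 0) ∧ ∀ v, Bd s t l S v → h v = 0 then
          W (grd s t) J h * G h else 0)) := by
  set UF : (V → ℤ) → ℝ := fun h => US s t J S h * F h with hUF
  set VG : (V → ℤ) → ℝ := fun h => if (∀ v ∈ S, h v = 0) ∧ ∀ v, Bd s t l S v → h v = 0 then
    W (grd s t) J h * G h else 0 with hVG
  have hUF0 : ∀ h, 0 ≤ UF h := fun h => mul_nonneg (US_nonneg hJ S h) (hF0 h)
  have hVG0 : ∀ h, 0 ≤ VG h := fun h => by
    simp only [hVG]
    split_ifs
    · exact mul_nonneg (W_nonneg hJ _) (hG0 _)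
    · exact le_rfl
  have h1 : HasSum (fun y : (V → ℤ) × (V → ℤ) => UF y.1 * VG y.2)
      ((∑' h, UF h) * ∑' h, VG h) := by
    have h2 : Summable fun y : (V → ℤ) × (V → ℤ) => UF y.1 * VG y.2 :=
      hU.mul_of_nonneg hV hUF0 hVG0
    rw [hU.tsum_mul_tsum hV h2]
    exact h2.hasSum
  set ι : (V → ℤ) → (V → ℤ) × (V → ℤ) := fun h => (rs S h, rc S h) with hι
  have hinj : Function.Injective ι := by
    intro h h' hx
    simp only [hι, Prod.mk.injEq] at hx
    obtain ⟨h3, h4⟩ := hx
    funext v
    by_cases hv : v ∈ S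
    · have := congrFun h3 v
      simpa [rs, hv] using this
    · have := congrFun h4 v
      simpa [rc, hv] using this
  have h7 := (hinj.hasSum_iff (f := fun y : (V → ℤ) × (V → ℤ) => UF y.1 * VG y.2) ?_).2 h1
  · have h8 := h7.mul_left (W (grd s t) J 0)⁻¹
    have e : ∀ h : V → ℤ, (W (grd s t) J 0)⁻¹ * (UF (rs S h) * VG (rc S h)) =
        if Ex s t l h = S then W (grd s t) J h * (F h * G h) else 0 := by
      intro h
      have hW0 := (W0_pos (s := s) (t := t) hJ).ne'
      by_cases hE : Ex s t l h = S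
      · rw [if_pos hE]
        obtain ⟨h9, h10⟩ := (Ex_eq_iff hS).1 hE
        have c1 : (∀ v, v ∉ S → rs S h v = 0) ∧ ∀ v ∈ S, rs S h v ≠ 0 :=
          ⟨fun v hv => by simp [rs, hv], fun v hv => by simpa [rs, hv] using h9 v hv⟩
        have c2 : (∀ v ∈ S, rc S h v = 0) ∧ ∀ v, Bd s t l S v → rc S h v = 0 :=
          ⟨fun v hv => by simp [rc, hv], fun v hv => by
            have h11 : v ∉ S := hv.1
            simpa [rc, h11] using h10 v hv⟩
        simp only [hUF, hVG]
        unfold US
        rw [if_pos c1, if_pos c2]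
        have h12 : G (rc S h) = G h := hG _ _ fun v hv => by simp [rc, hv]
        have h13 : F (rs S h) = F h := hF _ _ fun v hv => by simp [rs, hv]
        rw [h12, h13]
        have h14 := W_split (J := J) h10
        calc (W (grd s t) J 0)⁻¹ * (W (grd s t) J (rs S h) * F h *
              (W (grd s t) J (rc S h) * G h)) =
            (W (grd s t) J 0)⁻¹ * ((W (grd s t) J (rs S h) * W (grd s t) J (rc S h)) *
              (F h * G h)) := by ring
          _ = _ := by rw [h14]; field_simp
      · rw [if_neg hE]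
        by_cases c1 : ∀ v ∈ S, h v ≠ 0
        · have c2 : ¬ ∀ v, Bd s t l S v → h v = 0 := fun h' => hE ((Ex_eq_iff hS).2 ⟨c1, h'⟩)
          have c3 : ¬ ((∀ v ∈ S, rc S h v = 0) ∧ ∀ v, Bd s t l S v → rc S h v = 0) := by
            rintro ⟨-, h'⟩
            apply c2
            intro v hv
            have h11 : v ∉ S := hv.1
            simpa [rc, h11] using h' v hv
          simp only [hVG]
          rw [if_neg c3]
          ring
        · have c3 : ¬ ((∀ v, v ∉ S → rs S h v = 0) ∧ ∀ v ∈ S, rs S h v ≠ 0) := by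
            rintro ⟨-, h'⟩
            apply c1
            intro v hv
            simpa [rs, hv] using h' v hv
          simp only [hUF]
          unfold US
          rw [if_neg c3]
          ring
    have h9 : (fun h : V → ℤ => if Ex s t l h = S then
        W (grd s t) J h * (F h * G h) else 0) = fun h => (W (grd s t) J 0)⁻¹ *
        ((fun y : (V → ℤ) × (V → ℤ) => UF y.1 * VG y.2) ∘ ι) h :=
      funext fun h => (e h).symm
    rw [h9]
    exact h8
  · rintro ⟨a, c⟩ hy
    by_contra hne
    apply hy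
    have n1 : UF a ≠ 0 := left_ne_zero_of_mul hne
    have n2 : VG c ≠ 0 := right_ne_zero_of_mul hne
    have n1' : US s t J S a ≠ 0 := left_ne_zero_of_mul n1
    unfold US at n1'
    simp only [hVG] at n2
    rw [ne_eq, ite_eq_right_iff, Classical.not_imp] at n1' n2
    obtain ⟨⟨a1, a2⟩, -⟩ := n1'
    obtain ⟨⟨b1, b2⟩, -⟩ := n2
    refine ⟨a + c, ?_⟩
    simp only [hι, Prod.mk.injEq]
    constructor
    · funext v
      by_cases hv : v ∈ S
      · simp only [rs, hv, if_true, Pi.add_apply]
        rw [b1 v hv, add_zero]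
      · simp only [rs, hv, if_false]
        exact (a1 v hv).symm
    · funext v
      by_cases hv : v ∈ S
      · simp only [rc, hv, if_true]
        exact (b1 v hv).symm
      · simp only [rc, hv, if_false, Pi.add_apply]
        rw [a1 v hv, zero_add]

end markovF

section flow

variable {V E : Type} [Fintype E] {s t : E → V}

/-- differences of heights are linear functionals of the gradient -/
lemma exists_flow (hc : Conn s t) (x v : V) :
    ∃ f : E → ℝ, ∀ h : V → ℤ, ((h v - h x : ℤ) : ℝ) = ∑ e, f e * (grd s t h e : ℝ) := by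
  classical
  have h1 := hc x v
  induction h1 with
  | refl => exact ⟨0, fun h => by simp⟩
  | @tail a b _ hab ih =>
    obtain ⟨f, hf⟩ := ih
    obtain ⟨e, he⟩ := hab
    have key : ∀ (σ : ℝ) (h : V → ℤ), ∑ e', (f e' + (if e' = e then σ else 0)) *
        (grd s t h e' : ℝ) = ((h a - h x : ℤ) : ℝ) + σ * ((h (t e) - h (s e) : ℤ) : ℝ) := by
      intro σ h
      rw [hf h]
      simp only [add_mul, Finset.sum_add_distrib, ite_mul, zero_mul, Finset.sum_ite_eq',
        Finset.mem_univ, if_true]
      rfl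
    rcases he with ⟨rfl, rfl⟩ | ⟨rfl, rfl⟩
    · refine ⟨fun e' => f e' + if e' = e then 1 else 0, fun h => ?_⟩
      rw [key 1 h]
      push_cast
      ring
    · refine ⟨fun e' => f e' + if e' = e then -1 else 0, fun h => ?_⟩
      rw [key (-1) h]
      push_cast
      ring

/-- linear functionals of the heights -/
lemma exists_lin [Fintype V] (hc : Conn s t) (x : V) (ρ : V → ℝ) :
    ∃ f : E → ℝ, ∀ h : V → ℤ, h x = 0 →
      ∑ v, ρ v * (h v : ℝ) = ∑ e, f e * (grd s t h e : ℝ) := by
  choose f hf using fun v => exists_flow hc x v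
  refine ⟨fun e => ∑ v, ρ v * f v e, fun h h0 => ?_⟩
  simp only [Finset.sum_mul]
  rw [Finset.sum_comm]
  refine Finset.sum_congr rfl fun v _ => ?_
  have h1 := hf v h
  rw [h0, sub_zero] at h1
  rw [h1, Finset.mul_sum]
  exact Finset.sum_congr rfl fun e _ => by ring

end flow

section amp

variable {V E : Type} [Fintype V] [Fintype E] {s t : E → V}

/-- linear functional of the heights in terms of the gradient and the value at `x` -/
lemma exists_ln (hc : Conn s t) (x : V) (ρ : V → ℝ) :
    ∃ a : E ⊕ Unit → ℝ, ∀ h : V → ℤ,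
      ∑ v, ρ v * (h v : ℝ) = ln (grdL s t (fun _ : Unit => x)) a h := by
  choose f hf using fun v => exists_flow hc x v
  refine ⟨Sum.elim (fun e => ∑ v, ρ v * f v e) (fun _ => ∑ v, ρ v), fun h => ?_⟩
  unfold ln
  rw [Fintype.sum_sum_type]
  simp only [Sum.elim_inl, Sum.elim_inr, Finset.univ_unique, Finset.sum_singleton]
  have h1 : ∑ e, (∑ v, ρ v * f v e) * ((grdL s t (fun _ : Unit => x) h (Sum.inl e) : ℤ) : ℝ) =
      ∑ v, ρ v * ((h v - h x : ℤ) : ℝ) := by
    simp only [Finset.sum_mul]
    rw [Finset.sum_comm]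
    refine Finset.sum_congr rfl fun v _ => ?_
    rw [hf v h, Finset.mul_sum]
    exact Finset.sum_congr rfl fun e _ => by
      show ρ v * f v e * (grd s t h e : ℝ) = _
      ring
  have h2 : ((grdL s t (fun _ : Unit => x) h (Sum.inr default) : ℤ) : ℝ) = (h x : ℝ) := rfl
  rw [h1, h2, Finset.sum_mul, ← Finset.sum_add_distrib]
  refine Finset.sum_congr rfl fun v _ => ?_
  push_cast
  ring

open Classical in
/-- partition function with heights `p` at `xl`, `q` at `xr` and tilt `ρ` -/
noncomputable def Zt (s t : E → V) (J : E → ℝ) (xl xr : V) (ρ : V → ℝ) (p q : ℤ) : ℝ :=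
  ∑' h : V → ℤ, if h xl = p ∧ h xr = q then
    W (grd s t) J h * Real.exp (∑ v, ρ v * (h v : ℝ)) else 0

omit [Fintype V] in
lemma W_add_const (J : E → ℝ) (h : V → ℤ) (c : ℤ) :
    W (grd s t) J (h + fun _ => c) = W (grd s t) J h := by
  unfold W
  refine Finset.prod_congr rfl fun e _ => ?_
  show wI (J e) (h (t e) + c - (h (s e) + c)) = wI (J e) (h (t e) - h (s e))
  congr 1
  ring

lemma Zt_shift (J : E → ℝ) (xl xr : V) (ρ : V → ℝ) (p q c : ℤ) :
    Zt s t J xl xr ρ (p + c) (q + c) =
      Real.exp (∑ v, ρ v * (c : ℝ)) * Zt s t J xl xr ρ p q := by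
  have key : ∀ F : (V → ℤ) → ℝ, ∑' h, F (h + fun _ => c) = ∑' h, F h := fun F =>
    (Equiv.addRight (fun _ : V => c)).tsum_eq F
  unfold Zt
  rw [← tsum_mul_left, ← key]
  refine tsum_congr fun h => ?_
  rw [W_add_const]
  have e1 : ∑ v, ρ v * (((h + fun _ => c : V → ℤ) v : ℤ) : ℝ) = ∑ v, ρ v * (c : ℝ) +
      ∑ v, ρ v * (h v : ℝ) := by
    rw [← Finset.sum_add_distrib]
    refine Finset.sum_congr rfl fun v _ => ?_
    simp only [Pi.add_apply]
    push_cast
    ring
  rw [e1, Real.exp_add]
  have e2 : ((h + fun _ => c : V → ℤ) xl = p + c ∧ (h + fun _ => c : V → ℤ) xr = q + c) ↔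
      (h xl = p ∧ h xr = q) := by
    simp only [Pi.add_apply]
    omega
  by_cases h3 : h xl = p ∧ h xr = q
  · rw [if_pos (e2.2 h3), if_pos h3]
    ring
  · rw [if_neg (fun h4 => h3 (e2.1 h4)), if_neg h3, mul_zero]

/-- the pinned vertex -/
def px (x : V) : Unit → V := fun _ => x

open Classical in
omit [Fintype V] in
lemma W_px (J : E → ℝ) (x : V) (h : V → ℤ) :
    W (grdL s t (px x)) (Sum.elim J 0) h = if h x = 0 then W (grd s t) J h else 0 := by
  rw [W_grdL]
  unfold Psi vals px
  simp only [Finset.univ_unique, Finset.prod_singleton, Pi.zero_apply, AddMonoidHom.coe_mk,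
    ZeroHom.coe_mk, sub_zero, wI_zero_left]
  split_ifs <;> simp

/-- the value at a vertex as a homomorphism -/
def ev (x : V) : (V → ℤ) →+ ℤ where
  toFun h := h x
  map_zero' := rfl
  map_add' _ _ := rfl

open Classical in
/-- the pinned partition functions -/
theorem pin_le (hc : Conn s t) {J : E → ℝ} (hJ : ∀ e, 0 ≤ J e) (xl xr : V) (ρ : V → ℝ)
    {S : Finset V} (hS : LC s t (px xl) S) (k : ℤ) :
    (Summable fun h : V → ℤ => if (∀ v ∈ S, h v = 0) ∧ ∀ v, Bd s t (px xl) S v → h v = 0 then
      W (grd s t) J h * (if h xr = k then Real.exp (∑ v, ρ v * (h v : ℝ)) else 0) else 0) ∧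
    (Summable fun h : V → ℤ => if (∀ v ∈ S, h v = 0) ∧ ∀ v, Bd s t (px xl) S v → h v = 0 then
      W (grd s t) J h * (if h xr = 0 then 1 else 0) else 0) ∧
    (∑' h : V → ℤ, if (∀ v ∈ S, h v = 0) ∧ ∀ v, Bd s t (px xl) S v → h v = 0 then
      W (grd s t) J h * (if h xr = k then Real.exp (∑ v, ρ v * (h v : ℝ)) else 0) else 0) *
      Zt s t J xl xr 0 0 0 ≤
    Zt s t J xl xr ρ 0 k *
    ∑' h : V → ℤ, if (∀ v ∈ S, h v = 0) ∧ ∀ v, Bd s t (px xl) S v → h v = 0 then
      W (grd s t) J h * (if h xr = 0 then 1 else 0) else 0 := by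
  obtain ⟨a, ha⟩ := exists_ln hc xl ρ
  have hD := grdL_inj (l := px xl) hc ⟨()⟩
  have hJ1 := J1_nonneg (s := s) (t := t) (l := px xl) hJ S
  have hK1 := K1_nonneg (s := s) (t := t) (l := px xl) (a := 0) hJ (fun _ => le_rfl) S
  have hm := mono_sector hD hJ1 hK1 (ev xr) k a
  rw [J1_add_K1] at hm
  have hln : ∀ h : V → ℤ, ln (grdL s t (px xl)) a h = ∑ v, ρ v * (h v : ℝ) := fun h => (ha h).symm
  simp only [hln, W_px] at hm
  have e1 : ∀ (f : (V → ℤ) → ℝ) (h : V → ℤ),
      (if (∀ v ∈ S, h v = 0) ∧ ∀ v, Bd s t (px xl) S v → h v = 0 then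
      W (grd s t) J h * f h else 0) = cT s t (px xl) J S *
        (W (grdL s t (px xl)) (J1 s t (px xl) J S) h * f h) := by
    intro f h
    rw [← mul_assoc, pinned hS]
    split_ifs
    · rfl
    · rw [zero_mul]
  have g1 : ∀ h : V → ℤ, |(if h xr = k then Real.exp (∑ v, ρ v * (h v : ℝ)) else 0)| ≤
      1 * Real.exp |ln (grdL s t (px xl)) a h| := fun h => by
    rw [hln]
    split_ifs
    · rw [abs_of_pos (Real.exp_pos _), one_mul]
      exact Real.exp_le_exp.2 (le_abs_self _)
    · rw [abs_zero]; positivity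
  have g2 : ∀ h : V → ℤ, |(if h xr = 0 then (1 : ℝ) else 0)| ≤
      1 * Real.exp |ln (grdL s t (px xl)) a h| := fun h => by
    have : 1 ≤ Real.exp |ln (grdL s t (px xl)) a h| := Real.one_le_exp (abs_nonneg _)
    split_ifs
    · rw [abs_one]; linarith
    · rw [abs_zero]; linarith
  have s1 := (summable_growth hD hJ1 a g1).of_abs.mul_left (cT s t (px xl) J S)
  have s2 := (summable_growth hD hJ1 a g2).of_abs.mul_left (cT s t (px xl) J S)
  refine ⟨s1.congr fun h => (e1 (fun h => if h xr = k then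
    Real.exp (∑ v, ρ v * (h v : ℝ)) else 0) h).symm, s2.congr fun h =>
    (e1 (fun h => if h xr = 0 then 1 else 0) h).symm, ?_⟩
  rw [tsum_congr (e1 (fun h => if h xr = k then Real.exp (∑ v, ρ v * (h v : ℝ)) else 0)),
    tsum_congr (e1 (fun h => if h xr = 0 then 1 else 0)), tsum_mul_left, tsum_mul_left]
  have z0 : Zt s t J xl xr 0 0 0 =
      ∑' h : V → ℤ, (if h xl = 0 then W (grd s t) J h else 0) *
        (if ev xr h = 0 then 1 else 0) := by
    unfold Zt
    refine tsum_congr fun h => ?_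
    simp only [Pi.zero_apply, zero_mul, Finset.sum_const_zero, Real.exp_zero, mul_one]
    show _ = (if h xl = 0 then W (grd s t) J h else 0) * (if h xr = 0 then 1 else 0)
    by_cases h1 : h xl = 0 <;> by_cases h2 : h xr = 0 <;> simp [h1, h2]
  have z1 : Zt s t J xl xr ρ 0 k =
      ∑' h : V → ℤ, (if h xl = 0 then W (grd s t) J h else 0) *
        (if ev xr h = k then Real.exp (∑ v, ρ v * (h v : ℝ)) else 0) := by
    unfold Zt
    refine tsum_congr fun h => ?_
    show _ = (if h xl = 0 then W (grd s t) J h else 0) *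
      (if h xr = k then Real.exp (∑ v, ρ v * (h v : ℝ)) else 0)
    by_cases h1 : h xl = 0 <;> by_cases h2 : h xr = k <;> simp [h1, h2]
  rw [z0, z1]
  have h3 := mul_le_mul_of_nonneg_left hm (cT_pos (s := s) (t := t) (l := px xl) hJ S).le
  calc _ = cT s t (px xl) J S * ((∑' h : V → ℤ, W (grdL s t (px xl)) (J1 s t (px xl) J S) h *
          (if ev xr h = k then Real.exp (∑ v, ρ v * (h v : ℝ)) else 0)) *
          ∑' h : V → ℤ, (if h xl = 0 then W (grd s t) J h else 0) *
            (if ev xr h = 0 then 1 else 0)) := by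
        rw [mul_assoc]
        rfl
    _ ≤ _ := h3
    _ = _ := by
        rw [← mul_assoc, mul_comm (cT s t (px xl) J S), mul_assoc]
        rfl

/-- there is a set of vertices with heights `≤ 0` which contains the left lip and not the right lip,
all outer neighbours of which have height exactly `1` -/
def Good (s t : E → V) (xl xr : V) (h : V → ℤ) : Prop :=
  ∃ S : Finset V, xl ∈ S ∧ xr ∉ S ∧ (∀ v ∈ S, h v ≤ 0) ∧
    ∀ u ∈ S, ∀ v, v ∉ S → adjG s t u v → h v = 1

omit [Fintype E] in
lemma Ex_sub {xl : V} {S : Finset V} (hx : xl ∈ S) {h : V → ℤ}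
    (h1 : ∀ u ∈ S, ∀ v, v ∉ S → adjG s t u v → h v = 0) : Ex s t (px xl) h ⊆ S := by
  intro v hv
  rw [mem_Ex, Cn_single] at hv
  obtain ⟨x, ⟨hx0, y, rfl⟩, hv0, h3⟩ := hv
  induction h3 with
  | refl => exact hx
  | @tail a b _ hab ih =>
    have ha := ih hab.2.1
    by_contra hb
    exact hab.2.2 (h1 a ha b hb hab.1)

open Classical in
/-- **Exploration of the cluster of `{h ≤ 0}` of the left lip.** -/
theorem amp_le (hc : Conn s t) {J : E → ℝ} (hJ : ∀ e, 0 ≤ J e) (xl xr : V) {ρ : V → ℝ}
    (hρ : ∀ v, 0 ≤ ρ v) :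
    (∑' h : V → ℤ, if (h xl = 0 ∧ h xr = 0) ∧ Good s t xl xr h then
      W (grd s t) J h * Real.exp (∑ v, ρ v * (h v : ℝ)) else 0) * Zt s t J xl xr 0 0 0 ≤
    Zt s t J xl xr 0 0 1 * Zt s t J xl xr ρ 1 0 := by
  set Fam : Finset (Finset V) := Finset.univ.filter fun S => xr ∉ S with hFam
  -- observables
  set F : Finset V → (V → ℤ) → ℝ := fun S h =>
    if (∀ v ∈ S, h v < 0) ∧ (xl ∈ S ∧ h xl = -1) then 1 else 0 with hF
  set G1 : Finset V → (V → ℤ) → ℝ := fun S h =>
    if h xr = -1 then Real.exp (∑ v, if v ∈ S then 0 else ρ v * ((h v : ℝ) + 1)) else 0 with hG1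
  set G2 : Finset V → (V → ℤ) → ℝ := fun S h => if h xr = 0 then 1 else 0 with hG2
  have hF0 : ∀ S h, 0 ≤ F S h := fun S h => by
    simp only [hF]; split_ifs <;> norm_num
  have hF1 : ∀ S h, F S h ≤ 1 := fun S h => by
    simp only [hF]; split_ifs <;> norm_num
  have hG10 : ∀ S h, 0 ≤ G1 S h := fun S h => by
    simp only [hG1]
    split_ifs
    · positivity
    · exact le_rfl
  have hG20 : ∀ S h, 0 ≤ G2 S h := fun S h => by
    simp only [hG2]; split_ifs <;> norm_num
  have hZ0 : 0 ≤ Zt s t J xl xr 0 0 0 := tsum_nonneg fun h => by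
    split_ifs
    · exact mul_nonneg (W_nonneg hJ _) (Real.exp_pos _).le
    · exact le_rfl
  have hZρ : 0 ≤ Zt s t J xl xr ρ 1 0 := tsum_nonneg fun h => by
    split_ifs
    · exact mul_nonneg (W_nonneg hJ _) (Real.exp_pos _).le
    · exact le_rfl
  have key : ∀ S : Finset V, ∃ m : ℝ × ℝ, S ∈ Fam →
      HasSum (fun h : V → ℤ => if Ex s t (px xl) h = S then
        W (grd s t) J h * (F S h * G1 S h) else 0) m.1 ∧
      HasSum (fun h : V → ℤ => if Ex s t (px xl) h = S then
        W (grd s t) J h * (F S h * G2 S h) else 0) m.2 ∧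
      m.1 * Zt s t J xl xr 0 0 0 ≤ m.2 * Zt s t J xl xr ρ 1 0 := by
    intro S
    by_cases hSF : S ∈ Fam
    swap
    · exact ⟨0, fun h => absurd h hSF⟩
    have hxr : xr ∉ S := (Finset.mem_filter.1 hSF).2
    by_cases hL : LC s t (px xl) S
    swap
    · have h0 : ∀ h : V → ℤ, Ex s t (px xl) h ≠ S := fun h hE => hL (hE ▸ LC_Ex h)
      refine ⟨(0, 0), fun _ => ⟨?_, ?_, by simp⟩⟩
      · simp only [h0, if_false]; exact hasSum_zero
      · simp only [h0, if_false]; exact hasSum_zero
    obtain ⟨p1, p2, p3⟩ := pin_le hc hJ xl xr ρ hL (-1)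
    have hU : Summable fun h => US s t J S h * F S h := by
      refine Summable.of_nonneg_of_le (fun h => mul_nonneg (US_nonneg hJ S h) (hF0 S h))
        (fun h => ?_) (summable_US hc hJ hxr)
      exact mul_le_of_le_one_right (US_nonneg hJ S h) (hF1 S h)
    -- comparison of the tilts
    have tilt : ∀ h : V → ℤ, (∀ v ∈ S, h v = 0) →
        G1 S h ≤ Real.exp (∑ v, ρ v) *
          (if h xr = -1 then Real.exp (∑ v, ρ v * (h v : ℝ)) else 0) := by
      intro h h0
      simp only [hG1]
      split_ifs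
      · rw [← Real.exp_add, ← Finset.sum_add_distrib]
        apply Real.exp_le_exp.2
        refine Finset.sum_le_sum fun v _ => ?_
        split_ifs with hv
        · rw [h0 v hv]
          simp only [Int.cast_zero, mul_zero, add_zero]
          exact hρ v
        · linarith
      · simp
    have v1le : ∀ h : V → ℤ, (if (∀ v ∈ S, h v = 0) ∧ ∀ v, Bd s t (px xl) S v → h v = 0 then
        W (grd s t) J h * G1 S h else 0) ≤ Real.exp (∑ v, ρ v) *
        (if (∀ v ∈ S, h v = 0) ∧ ∀ v, Bd s t (px xl) S v → h v = 0 then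
          W (grd s t) J h * (if h xr = -1 then Real.exp (∑ v, ρ v * (h v : ℝ)) else 0) else 0) := by
      intro h
      by_cases h1 : (∀ v ∈ S, h v = 0) ∧ ∀ v, Bd s t (px xl) S v → h v = 0
      · rw [if_pos h1, if_pos h1]
        refine (mul_le_mul_of_nonneg_left (tilt h h1.1) (W_nonneg hJ h)).trans (le_of_eq ?_)
        ring
      · rw [if_neg h1, if_neg h1, mul_zero]
    have hV1 : Summable fun h : V → ℤ => if (∀ v ∈ S, h v = 0) ∧
        ∀ v, Bd s t (px xl) S v → h v = 0 then W (grd s t) J h * G1 S h else 0 := by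
      refine Summable.of_nonneg_of_le (fun h => ?_) v1le (p1.mul_left _)
      by_cases h1 : (∀ v ∈ S, h v = 0) ∧ ∀ v, Bd s t (px xl) S v → h v = 0
      · rw [if_pos h1]; exact mul_nonneg (W_nonneg hJ h) (hG10 S h)
      · rw [if_neg h1]
    have dF : ∀ h h' : V → ℤ, (∀ v, v ∈ S → h v = h' v) → F S h = F S h' := by
      intro h h' hh
      simp only [hF]
      refine if_congr ?_ rfl rfl
      constructor
      · rintro ⟨a1, a2, a3⟩
        exact ⟨fun v hv => by rw [← hh v hv]; exact a1 v hv, a2, by rw [← hh xl a2]; exact a3⟩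
      · rintro ⟨a1, a2, a3⟩
        exact ⟨fun v hv => by rw [hh v hv]; exact a1 v hv, a2, by rw [hh xl a2]; exact a3⟩
    have dG1 : ∀ h h' : V → ℤ, (∀ v, v ∉ S → h v = h' v) → G1 S h = G1 S h' := by
      intro h h' hh
      simp only [hG1]
      rw [hh xr hxr]
      have : ∑ v, (if v ∈ S then 0 else ρ v * ((h v : ℝ) + 1)) =
          ∑ v, (if v ∈ S then 0 else ρ v * ((h' v : ℝ) + 1)) := by
        refine Finset.sum_congr rfl fun v _ => ?_
        by_cases hv : v ∈ S
        · rw [if_pos hv, if_pos hv]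
        · rw [if_neg hv, if_neg hv, hh v hv]
      rw [this]
    have dG2 : ∀ h h' : V → ℤ, (∀ v, v ∉ S → h v = h' v) → G2 S h = G2 S h' := by
      intro h h' hh
      simp only [hG2]
      rw [hh xr hxr]
    have m1 := markovF hJ hL (hF0 S) (hG10 S) dF dG1 hU hV1
    have m2 := markovF hJ hL (hF0 S) (hG20 S) dF dG2 hU p2
    refine ⟨(_, _), fun _ => ⟨m1, m2, ?_⟩⟩
    have hV1le : (∑' h : V → ℤ, if (∀ v ∈ S, h v = 0) ∧ ∀ v, Bd s t (px xl) S v → h v = 0 then
        W (grd s t) J h * G1 S h else 0) ≤ Real.exp (∑ v, ρ v) *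
        (∑' h : V → ℤ, if (∀ v ∈ S, h v = 0) ∧ ∀ v, Bd s t (px xl) S v → h v = 0 then
          W (grd s t) J h * (if h xr = -1 then Real.exp (∑ v, ρ v * (h v : ℝ)) else 0) else 0) := by
      rw [← tsum_mul_left]
      exact hV1.tsum_le_tsum v1le (p1.mul_left _)
    have hsh := Zt_shift (s := s) (t := t) J xl xr ρ 0 (-1) 1
    simp only [Int.cast_one, mul_one, zero_add, neg_add_cancel] at hsh
    have hc0 : 0 ≤ (W (grd s t) J 0)⁻¹ * ∑' h, US s t J S h * F S h :=
      mul_nonneg (inv_nonneg.2 (W_nonneg hJ _)) (tsum_nonneg fun h =>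
        mul_nonneg (US_nonneg hJ S h) (hF0 S h))
    have hmain : (∑' h : V → ℤ, if (∀ v ∈ S, h v = 0) ∧ ∀ v, Bd s t (px xl) S v → h v = 0 then
        W (grd s t) J h * G1 S h else 0) * Zt s t J xl xr 0 0 0 ≤
        (∑' h : V → ℤ, if (∀ v ∈ S, h v = 0) ∧ ∀ v, Bd s t (px xl) S v → h v = 0 then
          W (grd s t) J h * G2 S h else 0) * Zt s t J xl xr ρ 1 0 := by
      have a1 := mul_le_mul_of_nonneg_right hV1le hZ0
      have a2 := mul_le_mul_of_nonneg_left p3 (Real.exp_pos (∑ v, ρ v)).le
      refine a1.trans ?_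
      rw [mul_assoc]
      refine a2.trans (le_of_eq ?_)
      rw [hsh]
      ring
    have h9 := mul_le_mul_of_nonneg_left hmain hc0
    refine le_trans (le_of_eq ?_) (h9.trans (le_of_eq ?_)) <;> ring
  choose m hm using key
  have h1 := hasSum_sum (s := Fam) (f := fun S (h : V → ℤ) =>
    if Ex s t (px xl) h = S then W (grd s t) J h * (F S h * G1 S h) else 0)
    (a := fun S => (m S).1) fun S hS => (hm S hS).1
  have h2 := hasSum_sum (s := Fam) (f := fun S (h : V → ℤ) =>
    if Ex s t (px xl) h = S then W (grd s t) J h * (F S h * G2 S h) else 0)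
    (a := fun S => (m S).2) fun S hS => (hm S hS).2.1
  -- the left hand side
  have hL : (∑' h : V → ℤ, if (h xl = 0 ∧ h xr = 0) ∧ Good s t xl xr h then
      W (grd s t) J h * Real.exp (∑ v, ρ v * (h v : ℝ)) else 0) ≤ ∑ S ∈ Fam, (m S).1 := by
    have key2 : ∀ f : (V → ℤ) → ℝ, ∑' h : V → ℤ, f (h + fun _ : V => (1 : ℤ)) = ∑' h, f h :=
      fun f => (Equiv.addRight (fun _ : V => (1 : ℤ))).tsum_eq f
    rw [← key2, ← h1.tsum_eq]
    have hle : ∀ h : V → ℤ, (if ((h + fun _ => 1 : V → ℤ) xl = 0 ∧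
        (h + fun _ => 1 : V → ℤ) xr = 0) ∧ Good s t xl xr (h + fun _ => 1) then
        W (grd s t) J (h + fun _ => 1) *
          Real.exp (∑ v, ρ v * (((h + fun _ => 1 : V → ℤ) v : ℤ) : ℝ)) else 0) ≤
        ∑ S ∈ Fam, (if Ex s t (px xl) h = S then W (grd s t) J h * (F S h * G1 S h) else 0) := by
      intro h
      rw [Finset.sum_ite_eq]
      by_cases hg : ((h + fun _ => 1 : V → ℤ) xl = 0 ∧
        (h + fun _ => 1 : V → ℤ) xr = 0) ∧ Good s t xl xr (h + fun _ => 1)
      · rw [if_pos hg, W_add_const]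
        obtain ⟨⟨g1, g2⟩, S0, g3, g4, g5, g6⟩ := hg
        simp only [Pi.add_apply] at g1 g2 g5 g6
        have hsub : Ex s t (px xl) h ⊆ S0 := Ex_sub g3 fun u hu v hv huv => by
          have := g6 u hu v hv huv
          omega
        have hS : Ex s t (px xl) h ∈ Fam := by
          rw [hFam, Finset.mem_filter]
          exact ⟨Finset.mem_univ _, fun h' => g4 (hsub h')⟩
        rw [if_pos hS]
        refine mul_le_mul_of_nonneg_left ?_ (W_nonneg hJ h)
        have c1 : (∀ v ∈ Ex s t (px xl) h, h v < 0) ∧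
            (xl ∈ Ex s t (px xl) h ∧ h xl = -1) := by
          refine ⟨fun v hv => ?_, ?_, by omega⟩
          · have := g5 v (hsub hv)
            omega
          · rw [mem_Ex]
            exact Cn_start ⟨(), rfl⟩ (by
              show h xl ≠ 0
              omega)
        have c2 : h xr = -1 := by omega
        simp only [hF, hG1]
        rw [if_pos c1, if_pos c2, one_mul]
        apply Real.exp_le_exp.2
        refine Finset.sum_le_sum fun v _ => ?_
        have e3 : (((h + fun _ => 1 : V → ℤ) v : ℤ) : ℝ) = (h v : ℝ) + 1 := by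
          simp only [Pi.add_apply]
          push_cast
          ring
        rw [e3]
        by_cases hv : v ∈ Ex s t (px xl) h
        · rw [if_pos hv]
          have h5 := c1.1 v hv
          have h6 : (h v : ℝ) + 1 ≤ 0 := by
            have : h v + 1 ≤ 0 := by omega
            exact_mod_cast this
          exact mul_nonpos_of_nonneg_of_nonpos (hρ v) h6
        · rw [if_neg hv]
      · rw [if_neg hg]
        split_ifs
        · exact mul_nonneg (W_nonneg hJ h) (mul_nonneg (hF0 _ _) (hG10 _ _))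
        · exact le_rfl
    refine Summable.tsum_le_tsum hle (Summable.of_nonneg_of_le (fun h => ?_) hle h1.summable)
      h1.summable
    split_ifs
    · exact mul_nonneg (W_nonneg hJ _) (Real.exp_pos _).le
    · exact le_rfl
  -- the right hand side
  have hR : ∑ S ∈ Fam, (m S).2 ≤ Zt s t J xl xr 0 0 1 := by
    have hsh := Zt_shift (s := s) (t := t) J xl xr 0 (-1) 0 1
    simp only [Pi.zero_apply, zero_mul, Finset.sum_const_zero, Real.exp_zero, one_mul, zero_add,
      neg_add_cancel] at hsh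
    rw [hsh, ← h2.tsum_eq]
    unfold Zt
    have hle : ∀ h : V → ℤ, ∑ S ∈ Fam, (if Ex s t (px xl) h = S then
        W (grd s t) J h * (F S h * G2 S h) else 0) ≤
        if h xl = -1 ∧ h xr = 0 then W (grd s t) J h *
          Real.exp (∑ v, (0 : V → ℝ) v * (h v : ℝ)) else 0 := by
      intro h
      rw [Finset.sum_ite_eq]
      simp only [Pi.zero_apply, zero_mul, Finset.sum_const_zero, Real.exp_zero, mul_one]
      by_cases hh : h xl = -1 ∧ h xr = 0
      · rw [if_pos hh]
        split_ifs
        · refine mul_le_of_le_one_right (W_nonneg hJ h) ?_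
          refine mul_le_one₀ (hF1 _ _) (hG20 (Ex s t (px xl) h) h) ?_
          simp only [hG2]
          split_ifs <;> norm_num
        · exact W_nonneg hJ h
      · rw [if_neg hh]
        split_ifs
        · by_cases h3 : h xr = 0
          · have h4 : F (Ex s t (px xl) h) h = 0 := by
              simp only [hF]
              rw [if_neg]
              rintro ⟨-, -, h5⟩
              exact hh ⟨h5, h3⟩
            rw [h4]
            simp
          · have h4 : G2 (Ex s t (px xl) h) h = 0 := by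
              simp only [hG2]
              rw [if_neg h3]
            rw [h4]
            simp
        · exact le_rfl
    refine Summable.tsum_le_tsum hle h2.summable ?_
    have h3 := summable_at hc hJ xr
    refine Summable.of_nonneg_of_le (fun h => ?_) (fun h => ?_) h3
    · split_ifs
      · exact mul_nonneg (W_nonneg hJ _) (Real.exp_pos _).le
      · exact le_rfl
    · simp only [Pi.zero_apply, zero_mul, Finset.sum_const_zero, Real.exp_zero, mul_one]
      by_cases h4 : h xl = -1 ∧ h xr = 0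
      · rw [if_pos h4, if_pos h4.2]
      · rw [if_neg h4]
        split_ifs
        · exact W_nonneg hJ _
        · exact le_rfl
  calc _ ≤ (∑ S ∈ Fam, (m S).1) * Zt s t J xl xr 0 0 0 := mul_le_mul_of_nonneg_right hL hZ0
    _ = ∑ S ∈ Fam, (m S).1 * Zt s t J xl xr 0 0 0 := Finset.sum_mul _ _ _
    _ ≤ ∑ S ∈ Fam, (m S).2 * Zt s t J xl xr ρ 1 0 :=
        Finset.sum_le_sum fun S hS => (hm S hS).2.2
    _ = (∑ S ∈ Fam, (m S).2) * Zt s t J xl xr ρ 1 0 := (Finset.sum_mul _ _ _).symm
    _ ≤ _ := mul_le_mul_of_nonneg_right hR hZρ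

end amp

end Vale.Agent.P159.T1.H934
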