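import Vale.Agent.P159.T1.D.Stmts

/-!
Statements used for lower bounds of the variance in domains covered by quarter planes
(P159, plan 115): `StmtLat` (lattice samples of a smooth function) and `StmtGV`.
-/

open Filter Topology MeasureTheory

namespace Vale.Agent.P159.T1.D

/-- the sample of `ψ` at scale `n`, shifted by `t` -/
noncomputable def smp (ψ : ℝ × ℝ → ℝ) (n : ℕ) (t : ℝ × ℝ) (f : Z2) : ℝ :=
  ψ (((f.1 : ℝ) + t.1) / n, ((f.2 : ℝ) + t.2) / n)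

/-- the bonds with first end point in `[-Ln, Ln]²` -/
noncomputable def Sb (L n : ℕ) : Finset Bnd :=
  (Finset.Icc (-((L * n : ℕ) : ℤ)) ((L * n : ℕ) : ℤ) ×ˢ
    Finset.Icc (-((L * n : ℕ) : ℤ)) ((L * n : ℕ) : ℤ)) ×ˢ Finset.univ

/-- LAT: lattice samples of a smooth function, uniformly in a bounded shift -/
def StmtLat : Prop :=
  ∀ ψ : ℝ × ℝ → ℝ, ContDiff ℝ 2 ψ → HasCompactSupport ψ → ∀ T : ℝ, ∃ L0 : ℕ, ∀ L ≥ L0,
    ∀ (l : ℕ) (ε : ℝ), 0 < ε → ∃ n0 : ℕ, ∀ n ≥ n0, ∀ t : ℝ × ℝ, |t.1| ≤ T → |t.2| ≤ T →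
      (∀ e, e ∉ Sb L n → dr (smp ψ n t) e = 0) ∧
      |∑ e ∈ Sb L n, dr (smp ψ n t) e ^ 2 - Dir ψ| ≤ ε ∧
      osc l (Sb L n) (dr (smp ψ n t)) ≤ ε ∧
      ∑ e ∈ Sb L n, (dr (smp ψ n t) e - dr (smp ψ n 0) e) ^ 2 ≤ ε

/-- the isometries of `D.iso` in the continuum -/
def isoR (v : ℝ × ℝ) (x y z : Bool) (p : ℝ × ℝ) : ℝ × ℝ :=
  let g : ℝ × ℝ := if z then (p.2, p.1) else p
  (v.1 + (if x then g.1 else -g.1), v.2 + (if y then g.2 else -g.2))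

/-- GV: lower bound of the variance for a sum of functions, each supported in a quarter plane box
of the domain -/
def StmtGV : Prop :=
  ∀ b : ℝ, bCrit ≤ b → ∃ (C c : ℝ), 0 < C ∧ 0 < c ∧
    ∀ (m : ℕ) (ψ : Fin m → ℝ × ℝ → ℝ) (v : Fin m → ℝ × ℝ) (x y z : Fin m → Bool) (a R : ℕ),
      1 ≤ a → a ≤ R → (∀ i, ContDiff ℝ 2 (ψ i)) → (∀ i, HasCompactSupport (ψ i)) →
      (∀ i, ∀ p ∈ tsupport (ψ i), ∃ q : ℝ × ℝ, 0 < q.1 ∧ q.1 ≤ a ∧ 0 < q.2 ∧ q.2 ≤ a ∧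
        isoR (v i) (x i) (y i) (z i) q = p) →
      ∀ (T ε : ℝ), 0 < ε → ∃ n0 : ℕ, ∀ n ≥ n0, ∀ u : Fin m → Z2,
        (∀ i, |((u i).1 : ℝ) - n * (v i).1| ≤ T ∧ |((u i).2 : ℝ) - n * (v i).2| ≤ T) →
        ∀ U : Finset Z2, (∀ i, ∀ f : Z2, 0 ≤ f.1 → f.1 < n * R → 0 ≤ f.2 → f.2 < n * R →
          iso (u i) (x i) (y i) (z i) f ∈ U) →
        ∀ t : ℝ × ℝ, |t.1| ≤ T → |t.2| ≤ T →
          helicity b * Dir (fun p => ∑ i, ψ i p) -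
              m * (helicity b * C * ((a : ℝ) / R) ^ c * ∑ i, Dir (ψ i)) - ε ≤
            Vr b U (dr fun f => ∑ i, smp (ψ i) n t f)

end Vale.Agent.P159.T1.D
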