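import Vale.Agent.P159.R2.H254.Laurent

/-!
Duplication of the weights `I_n`: the product `I_n(J + K) I_m(J)` is a sum with nonnegative
coefficients of products `phi (n + m) * phi (n - m)`.
-/

open MeasureTheory Filter Topology

namespace Vale.Agent.P159.T1.H934

open Vale.Agent.P159 Vale.Agent.P159.H353 Vale.Agent.P159.R2.H254

/-- uniqueness of the coefficients of an absolutely convergent Laurent series on the circle -/
lemma coef_unique {a : ℤ → ℂ} (ha : Summable a)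
    (h : ∀ z : ℂ, ‖z‖ = 1 → ∑' n, a n * z ^ n = 0) (m : ℤ) : a m = 0 := by
  have h1 : ∀ x : T, ∑' n, a n * (fourier (n - m) x : ℂ) = 0 := by
    intro x
    have h2 := h (fourier 1 x) (fourier_norm_one 1 x)
    have h3 : ∀ n : ℤ, a n * (fourier (n - m) x : ℂ) =
        (a n * (fourier 1 x : ℂ) ^ n) * (fourier 1 x : ℂ) ^ (-m) := by
      intro n
      rw [fourier_zpow (n - m), mul_assoc, ← zpow_add₀ (fourier_one_ne x), sub_eq_add_neg]
    rw [tsum_congr h3, tsum_mul_right, h2, zero_mul]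
  have hint : ∀ n : ℤ, Integrable (fun x : T => a n * (fourier (n - m) x : ℂ))
      AddCircle.haarAddCircle := by
    intro n
    exact ((fourier (n - m)).continuous.const_mul _ |>.integrable_of_hasCompactSupport
      (HasCompactSupport.of_compactSpace _)) |> fun h => by simpa using h
  have hn : ∀ n : ℤ, ∫ x : T, ‖a n * (fourier (n - m) x : ℂ)‖ ∂AddCircle.haarAddCircle = ‖a n‖ := by
    intro n
    have : ∀ x : T, ‖a n * (fourier (n - m) x : ℂ)‖ = ‖a n‖ := fun x => by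
      rw [norm_mul, fourier_norm_one, mul_one]
    simp only [this]
    simp
  have h4 := integral_tsum_of_summable_integral_norm hint
    (by simp only [hn]; exact ha.norm)
  have h5 : ∀ n : ℤ, ∫ x : T, a n * (fourier (n - m) x : ℂ) ∂AddCircle.haarAddCircle =
      if n = m then a m else 0 := by
    intro n
    rw [integral_const_mul, integral_fourier]
    by_cases hnm : n = m
    · subst hnm
      simp
    · rw [if_neg (by omega), if_neg hnm, mul_zero]
  rw [tsum_congr h5, tsum_ite_eq] at h4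
  rw [h4]
  simp only [h1]
  simp

/-- uniqueness of the coefficients in two variables -/
lemma coef_unique2 {a : ℤ × ℤ → ℂ} (ha : Summable a)
    (h : ∀ z w : ℂ, ‖z‖ = 1 → ‖w‖ = 1 → ∑' p : ℤ × ℤ, a p * (z ^ p.1 * w ^ p.2) = 0)
    (m : ℤ × ℤ) : a m = 0 := by
  obtain ⟨m1, m2⟩ := m
  have hs : ∀ z w : ℂ, ‖z‖ = 1 → ‖w‖ = 1 →
      Summable fun p : ℤ × ℤ => a p * (z ^ p.1 * w ^ p.2) := by
    intro z w hz hw
    refine Summable.of_norm (ha.norm.congr fun p => ?_)
    rw [norm_mul, norm_mul, norm_zpow, norm_zpow, hz, hw, one_zpow, one_zpow, mul_one, mul_one]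
  have key : ∀ w : ℂ, ‖w‖ = 1 → ∀ p : ℤ, ∑' q : ℤ, a (p, q) * w ^ q = 0 := by
    intro w hw p
    refine coef_unique (a := fun p => ∑' q : ℤ, a (p, q) * w ^ q) ?_ ?_ p
    · have h1 := (hs 1 w (by simp) hw).prod
      simpa using h1
    · intro z hz
      have h1 := h z w hz hw
      rw [(hs z w hz hw).tsum_prod] at h1
      rw [← h1]
      refine tsum_congr fun n => ?_
      rw [← tsum_mul_right]
      exact tsum_congr fun q => by ring
  exact coef_unique (a := fun q => a (m1, q)) (ha.prod_factor m1) (fun z hz => key z hz m1) m2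

/-- coefficients of `(z - 1/z)^a` -/
noncomputable def psi : ℕ → ℤ → ℝ
  | 0 => fun p => if p = 0 then 1 else 0
  | a + 1 => fun p => psi a (p - 1) - psi a (p + 1)

/-- coefficients of `(z + 1/z)^k (z - 1/z)^a` -/
noncomputable def phi (a : ℕ) : ℕ → ℤ → ℝ
  | 0 => psi a
  | k + 1 => fun p => phi a k (p - 1) + phi a k (p + 1)

lemma psi_neg (a : ℕ) (p : ℤ) : psi a (-p) = (-1) ^ a * psi a p := by
  induction a generalizing p with
  | zero => simp [psi]
  | succ a ih =>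
    simp only [psi]
    rw [show -p - 1 = -(p + 1) by ring, show -p + 1 = -(p - 1) by ring, ih, ih]
    ring

lemma phi_neg (a k : ℕ) (p : ℤ) : phi a k (-p) = (-1) ^ a * phi a k p := by
  induction k generalizing p with
  | zero => exact psi_neg a p
  | succ k ih =>
    simp only [phi]
    rw [show -p - 1 = -(p + 1) by ring, show -p + 1 = -(p - 1) by ring, ih, ih]
    ring

lemma shift_hasSum {f : ℤ → ℝ} {z : ℂ} (hz : z ≠ 0) {g : ℂ}
    (h : HasSum (fun p : ℤ => (f p : ℂ) * z ^ p) g) (s : ℝ) :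
    HasSum (fun p : ℤ => ((f (p - 1) + s * f (p + 1) : ℝ) : ℂ) * z ^ p) (g * (z + s * z⁻¹)) := by
  have h1 : HasSum (fun p : ℤ => (f (p - 1) : ℂ) * z ^ p) (g * z) := by
    have := ((Equiv.subRight (1 : ℤ)).hasSum_iff.2 h).mul_right z
    refine hs_congr this fun n => ?_
    simp only [Function.comp, Equiv.subRight_apply]
    rw [mul_assoc, ← zpow_add_one₀ hz]
    congr 2
    ring
  have h2 : HasSum (fun p : ℤ => (f (p + 1) : ℂ) * z ^ p) (g * z⁻¹) := by
    have := ((Equiv.addRight (1 : ℤ)).hasSum_iff.2 h).mul_right z⁻¹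
    refine hs_congr this fun n => ?_
    simp only [Function.comp, Equiv.coe_addRight]
    rw [mul_assoc, ← zpow_sub_one₀ hz]
    congr 2
    ring
  have h3 := h1.add (h2.mul_left (s : ℂ))
  have e : g * z + s * (g * z⁻¹) = g * (z + s * z⁻¹) := by ring
  rw [e] at h3
  refine hs_congr h3 fun n => ?_
  push_cast
  ring

lemma psi_hasSum (a : ℕ) {z : ℂ} (hz : z ≠ 0) :
    HasSum (fun p : ℤ => (psi a p : ℂ) * z ^ p) ((z - z⁻¹) ^ a) := by
  induction a with
  | zero =>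
    have h := hasSum_ite_eq (0 : ℤ) (1 : ℂ)
    simp only [pow_zero]
    refine hs_congr h fun n => ?_
    simp only [psi]
    split_ifs with h0
    · subst h0; simp
    · simp
  | succ a ih =>
    have h := shift_hasSum hz ih (-1)
    have e : (z - z⁻¹) ^ a * (z + ((-1 : ℝ) : ℂ) * z⁻¹) = (z - z⁻¹) ^ (a + 1) := by
      push_cast; ring
    rw [e] at h
    refine hs_congr h fun n => ?_
    simp only [psi]
    push_cast
    ring

lemma phi_hasSum (a k : ℕ) {z : ℂ} (hz : z ≠ 0) :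
    HasSum (fun p : ℤ => (phi a k p : ℂ) * z ^ p) ((z + z⁻¹) ^ k * (z - z⁻¹) ^ a) := by
  induction k with
  | zero => simpa [phi] using psi_hasSum a hz
  | succ k ih =>
    have h := shift_hasSum hz ih 1
    have e : (z + z⁻¹) ^ k * (z - z⁻¹) ^ a * (z + ((1 : ℝ) : ℂ) * z⁻¹) =
        (z + z⁻¹) ^ (k + 1) * (z - z⁻¹) ^ a := by
      push_cast; ring
    rw [e] at h
    refine hs_congr h fun n => ?_
    simp only [phi]
    push_cast
    ring

lemma shift_abs {f : ℤ → ℝ} {C : ℝ} (hf : Summable fun p => |f p|) (hC : ∑' p, |f p| ≤ C)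
    {s : ℝ} (hs : |s| ≤ 1) :
    (Summable fun p : ℤ => |f (p - 1) + s * f (p + 1)|) ∧
      ∑' p : ℤ, |f (p - 1) + s * f (p + 1)| ≤ 2 * C := by
  have h1 : Summable fun p : ℤ => |f (p - 1)| := (Equiv.subRight (1 : ℤ)).summable_iff.2 hf
  have h2 : Summable fun p : ℤ => |f (p + 1)| := (Equiv.addRight (1 : ℤ)).summable_iff.2 hf
  have e1 : ∑' p : ℤ, |f (p - 1)| = ∑' p, |f p| := (Equiv.subRight (1 : ℤ)).tsum_eq fun p => |f p|
  have e2 : ∑' p : ℤ, |f (p + 1)| = ∑' p, |f p| := (Equiv.addRight (1 : ℤ)).tsum_eq fun p => |f p|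
  have hle : ∀ p : ℤ, |f (p - 1) + s * f (p + 1)| ≤ |f (p - 1)| + |f (p + 1)| := by
    intro p
    refine (abs_add_le _ _).trans (add_le_add le_rfl ?_)
    rw [abs_mul]
    calc |s| * |f (p + 1)| ≤ 1 * |f (p + 1)| := mul_le_mul_of_nonneg_right hs (abs_nonneg _)
      _ = _ := one_mul _
  have h3 : Summable fun p : ℤ => |f (p - 1) + s * f (p + 1)| :=
    Summable.of_nonneg_of_le (fun _ => abs_nonneg _) hle (h1.add h2)
  refine ⟨h3, ?_⟩
  calc ∑' p : ℤ, |f (p - 1) + s * f (p + 1)| ≤ ∑' p : ℤ, (|f (p - 1)| + |f (p + 1)|) :=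
        h3.tsum_le_tsum hle (h1.add h2)
    _ = ∑' p, |f p| + ∑' p, |f p| := by rw [h1.tsum_add h2, e1, e2]
    _ ≤ 2 * C := by linarith

lemma psi_abs (a : ℕ) : (Summable fun p => |psi a p|) ∧ ∑' p, |psi a p| ≤ 2 ^ a := by
  induction a with
  | zero =>
    have h : ∀ p : ℤ, |psi 0 p| = if p = 0 then 1 else 0 := by
      intro p
      simp only [psi]
      split_ifs <;> simp
    simp only [h]
    exact ⟨(hasSum_ite_eq (0 : ℤ) (1 : ℝ)).summable, by rw [tsum_ite_eq]; simp⟩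
  | succ a ih =>
    have h := shift_abs ih.1 ih.2 (s := -1) (by simp)
    have e : ∀ p : ℤ, |psi a (p - 1) + -1 * psi a (p + 1)| = |psi (a + 1) p| := by
      intro p
      simp only [psi]
      congr 1
      ring
    simp only [e] at h
    refine ⟨h.1, h.2.trans ?_⟩
    rw [pow_succ]
    linarith

lemma phi_abs (a k : ℕ) : (Summable fun p => |phi a k p|) ∧ ∑' p, |phi a k p| ≤ 2 ^ (k + a) := by
  induction k with
  | zero => simpa [phi] using psi_abs a
  | succ k ih =>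
    have h := shift_abs ih.1 ih.2 (s := 1) (by simp)
    have e : ∀ p : ℤ, |phi a k (p - 1) + 1 * phi a k (p + 1)| = |phi a (k + 1) p| := by
      intro p
      simp only [phi]
      congr 1
      ring
    simp only [e] at h
    refine ⟨h.1, h.2.trans ?_⟩
    rw [show k + 1 + a = (k + a) + 1 by ring, pow_succ]
    linarith

/-- coefficients of the duplicated kernel, index `(k, a)` -/
noncomputable def cc (J K : ℝ) (i : ℕ × ℕ) : ℝ :=
  ((2 * J + K) / 4) ^ i.1 / (i.1.factorial : ℝ) * ((K / 4) ^ i.2 / (i.2.factorial : ℝ))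

lemma cc_nonneg {J K : ℝ} (hJ : 0 ≤ J) (hK : 0 ≤ K) (i : ℕ × ℕ) : 0 ≤ cc J K i := by
  unfold cc; positivity

/-- one term of the duplicated kernel, index `(i, (p, q))` -/
noncomputable def kt (J K : ℝ) (x : (ℕ × ℕ) × (ℤ × ℤ)) : ℝ :=
  cc J K x.1 * (phi x.1.2 x.1.1 x.2.1 * phi x.1.2 x.1.1 x.2.2)

lemma summable_cc4 {J K : ℝ} (hJ : 0 ≤ J) (hK : 0 ≤ K) :
    Summable fun i : ℕ × ℕ => cc J K i * 4 ^ (i.1 + i.2) := by
  have h1 := Real.summable_pow_div_factorial (2 * J + K)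
  have h2 := Real.summable_pow_div_factorial K
  have h3 := h1.mul_of_nonneg h2 (fun n => by positivity) (fun n => by positivity)
  refine h3.congr fun i => ?_
  unfold cc
  rw [pow_add, div_pow, div_pow]
  have h4 : (4 : ℝ) ^ i.1 ≠ 0 := by positivity
  have h5 : (4 : ℝ) ^ i.2 ≠ 0 := by positivity
  field_simp

lemma summable_kt {J K : ℝ} (hJ : 0 ≤ J) (hK : 0 ≤ K) : Summable fun x => |kt J K x| := by
  have e : ∀ x, |kt J K x| =
      cc J K x.1 * (|phi x.1.2 x.1.1 x.2.1| * |phi x.1.2 x.1.1 x.2.2|) := by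
    intro x
    unfold kt
    rw [abs_mul, abs_mul, abs_of_nonneg (cc_nonneg hJ hK _)]
  simp only [e]
  have hrow : ∀ i : ℕ × ℕ, HasSum (fun y : ℤ × ℤ => cc J K i *
      (|phi i.2 i.1 y.1| * |phi i.2 i.1 y.2|))
      (cc J K i * ((∑' p, |phi i.2 i.1 p|) * ∑' p, |phi i.2 i.1 p|)) := by
    intro i
    have h := (phi_abs i.2 i.1).1
    have hs : Summable fun y : ℤ × ℤ => |phi i.2 i.1 y.1| * |phi i.2 i.1 y.2| :=
      h.mul_of_nonneg h (fun _ => abs_nonneg _) (fun _ => abs_nonneg _)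
    have h2 : HasSum (fun y : ℤ × ℤ => |phi i.2 i.1 y.1| * |phi i.2 i.1 y.2|)
        ((∑' p, |phi i.2 i.1 p|) * ∑' p, |phi i.2 i.1 p|) := by
      rw [h.tsum_mul_tsum h hs]
      exact hs.hasSum
    exact h2.mul_left _
  refine (summable_prod_of_nonneg (fun x => mul_nonneg (cc_nonneg hJ hK _)
    (mul_nonneg (abs_nonneg _) (abs_nonneg _)))).2 ⟨fun i => (hrow i).summable, ?_⟩
  refine Summable.of_nonneg_of_le (fun i => tsum_nonneg fun y => mul_nonneg (cc_nonneg hJ hK _)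
    (mul_nonneg (abs_nonneg _) (abs_nonneg _))) (fun i => ?_) (summable_cc4 hJ hK)
  rw [(hrow i).tsum_eq]
  refine mul_le_mul_of_nonneg_left ?_ (cc_nonneg hJ hK i)
  have h := (phi_abs i.2 i.1).2
  have h0 : 0 ≤ ∑' p, |phi i.2 i.1 p| := tsum_nonneg fun _ => abs_nonneg _
  calc (∑' p, |phi i.2 i.1 p|) * ∑' p, |phi i.2 i.1 p| ≤ 2 ^ (i.1 + i.2) * 2 ^ (i.1 + i.2) :=
        mul_le_mul h h h0 (by positivity)
    _ = 4 ^ (i.1 + i.2) := by rw [← mul_pow]; norm_num

lemma norm_ne {z : ℂ} (hz : ‖z‖ = 1) : z ≠ 0 := by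
  rintro rfl
  simp at hz

/-- the duplicated kernel -/
noncomputable def kB (J K : ℝ) (y : ℤ × ℤ) : ℝ := ∑' i : ℕ × ℕ, kt J K (i, y)

lemma kt_z_summable {J K : ℝ} (hJ : 0 ≤ J) (hK : 0 ≤ K) {z w : ℂ} (hz : ‖z‖ = 1) (hw : ‖w‖ = 1) :
    Summable fun x : (ℕ × ℕ) × (ℤ × ℤ) => (kt J K x : ℂ) * (z ^ x.2.1 * w ^ x.2.2) := by
  refine Summable.of_norm ((summable_kt hJ hK).congr fun x => ?_)
  rw [norm_mul, norm_mul, norm_zpow, norm_zpow, hz, hw, one_zpow, one_zpow, mul_one, mul_one,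
    Complex.norm_real, Real.norm_eq_abs]

lemma kt_sum {J K : ℝ} (hJ : 0 ≤ J) (hK : 0 ≤ K) {z w : ℂ} (hz : ‖z‖ = 1) (hw : ‖w‖ = 1) :
    ∑' x : (ℕ × ℕ) × (ℤ × ℤ), (kt J K x : ℂ) * (z ^ x.2.1 * w ^ x.2.2) =
      Complex.exp ((2 * J + K) / 4 * ((z + z⁻¹) * (w + w⁻¹)) +
        K / 4 * ((z - z⁻¹) * (w - w⁻¹))) := by
  rw [(kt_z_summable hJ hK hz hw).tsum_prod]
  have hz0 := norm_ne hz
  have hw0 := norm_ne hw
  have e1 : ∀ i : ℕ × ℕ, ∑' y : ℤ × ℤ, (kt J K (i, y) : ℂ) * (z ^ y.1 * w ^ y.2) =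
      (((2 * J + K) / 4 * ((z + z⁻¹) * (w + w⁻¹))) ^ i.1 / (i.1.factorial : ℂ)) *
        ((K / 4 * ((z - z⁻¹) * (w - w⁻¹))) ^ i.2 / (i.2.factorial : ℂ)) := by
    intro i
    have h1 := phi_hasSum i.2 i.1 hz0
    have h2 := phi_hasSum i.2 i.1 hw0
    have h3 := tsum_mul_tsum_of_summable_norm (f := fun p : ℤ => (phi i.2 i.1 p : ℂ) * z ^ p)
      (g := fun p : ℤ => (phi i.2 i.1 p : ℂ) * w ^ p) ?_ ?_
    · rw [h1.tsum_eq, h2.tsum_eq] at h3
      have h4 : ∑' y : ℤ × ℤ, (kt J K (i, y) : ℂ) * (z ^ y.1 * w ^ y.2) =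
          (cc J K i : ℂ) * ∑' y : ℤ × ℤ, (phi i.2 i.1 y.1 : ℂ) * z ^ y.1 *
            ((phi i.2 i.1 y.2 : ℂ) * w ^ y.2) := by
        rw [← tsum_mul_left]
        refine tsum_congr fun y => ?_
        unfold kt
        push_cast
        ring
      rw [h4, ← h3]
      have pw : ∀ (x y t : ℂ) (n : ℕ), (x * (y * t)) ^ n = x ^ n * (y ^ n * t ^ n) := by
        intro x y t n
        rw [mul_pow, mul_pow]
      rw [pw, pw]
      unfold cc
      push_cast
      ring
    · refine (phi_abs i.2 i.1).1.congr fun p => ?_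
      rw [norm_mul, norm_zpow, hz, one_zpow, mul_one, Complex.norm_real, Real.norm_eq_abs]
    · refine (phi_abs i.2 i.1).1.congr fun p => ?_
      rw [norm_mul, norm_zpow, hw, one_zpow, mul_one, Complex.norm_real, Real.norm_eq_abs]
  rw [tsum_congr e1, Complex.exp_add]
  have hn : ∀ u : ℂ, Summable fun n : ℕ => ‖u ^ n / (n.factorial : ℂ)‖ := fun u =>
    NormedSpace.norm_expSeries_div_summable u
  rw [← tsum_mul_tsum_of_summable_norm (hn _) (hn _)]
  rw [Complex.exp_eq_exp_ℂ, NormedSpace.exp_eq_tsum_div]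

lemma wI_sum_z {b : ℝ} (hb : 0 ≤ b) {z : ℂ} (hz : ‖z‖ = 1) :
    (Summable fun n : ℤ => ‖(wI b n : ℂ) * z ^ n‖) ∧
      ∑' n : ℤ, (wI b n : ℂ) * z ^ n = Complex.exp (b * ((z + z⁻¹) / 2)) := by
  refine ⟨(summable_wI hb).congr fun n => ?_, (laurent hb (norm_ne hz)).tsum_eq⟩
  rw [norm_mul, norm_zpow, hz, one_zpow, mul_one, Complex.norm_real, Real.norm_eq_abs,
    abs_of_nonneg (wI_nonneg hb n)]

/-- the change of variables `(n, m) ↦ (n + m, n - m)` -/
def rt2 (y : ℤ × ℤ) : ℤ × ℤ := (y.1 + y.2, y.1 - y.2)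

lemma rt2_inj : Function.Injective rt2 := by
  rintro ⟨a, b⟩ ⟨c, d⟩ h
  simp only [rt2, Prod.mk.injEq] at h
  ext <;> simp only <;> omega

/-- duplication of the weights -/
theorem kernel {J K : ℝ} (hJ : 0 ≤ J) (hK : 0 ≤ K) (n m : ℤ) :
    HasSum (fun i : ℕ × ℕ => kt J K (i, (n + m, n - m))) (wI (J + K) n * wI J m) := by
  have hsk := Summable.of_norm (f := kt J K) (by simpa using summable_kt hJ hK)
  have hsw : Summable fun x : (ℤ × ℤ) × (ℕ × ℕ) => kt J K (x.2, x.1) := hsk.prod_symm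
  have hB : Summable (kB J K) := hsw.prod
  set A : ℤ × ℤ → ℝ := Function.extend rt2 (fun y => wI (J + K) y.1 * wI J y.2) 0 with hA
  have hJK : 0 ≤ J + K := add_nonneg hJ hK
  have hAs : Summable A := by
    have h1 : Summable fun y : ℤ × ℤ => wI (J + K) y.1 * wI J y.2 :=
      (summable_wI hJK).mul_of_nonneg (summable_wI hJ) (wI_nonneg hJK) (wI_nonneg hJ)
    refine (rt2_inj.summable_iff (f := A) ?_).1 (h1.congr fun y => ?_)
    · intro y hy
      exact Function.extend_apply' _ _ _ (by simpa [Set.mem_range] using hy)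
    · exact (rt2_inj.extend_apply (fun y : ℤ × ℤ => wI (J + K) y.1 * wI J y.2) 0 y).symm
  have key := coef_unique2 (a := fun y => ((kB J K y - A y : ℝ) : ℂ))
    (Complex.ofRealCLM.summable (hB.sub hAs)) ?_ (n + m, n - m)
  · have h1 : A (n + m, n - m) = wI (J + K) n * wI J m :=
      rt2_inj.extend_apply (fun y : ℤ × ℤ => wI (J + K) y.1 * wI J y.2) 0 (n, m)
    have h2 : kB J K (n + m, n - m) = wI (J + K) n * wI J m := by
      have := Complex.ofReal_eq_zero.1 key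
      rw [← h1]
      linarith
    rw [← h2]
    exact (hsw.prod_factor (n + m, n - m)).hasSum
  · intro z w hz hw
    have hz0 := norm_ne hz
    have hw0 := norm_ne hw
    -- the side of the duplicated kernel
    have hS := kt_z_summable hJ hK hz hw
    have hSs : Summable fun x : (ℤ × ℤ) × (ℕ × ℕ) =>
        (kt J K (x.2, x.1) : ℂ) * (z ^ x.1.1 * w ^ x.1.2) := hS.prod_symm
    have eB : ∀ y : ℤ × ℤ, ∑' i : ℕ × ℕ, (kt J K (i, y) : ℂ) * (z ^ y.1 * w ^ y.2) =
        (kB J K y : ℂ) * (z ^ y.1 * w ^ y.2) := by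
      intro y
      rw [tsum_mul_right]
      unfold kB
      rw [Complex.ofReal_tsum]
    have hB1 : HasSum (fun y : ℤ × ℤ => (kB J K y : ℂ) * (z ^ y.1 * w ^ y.2))
        (Complex.exp ((2 * J + K) / 4 * ((z + z⁻¹) * (w + w⁻¹)) +
        K / 4 * ((z - z⁻¹) * (w - w⁻¹)))) := by
      rw [← kt_sum hJ hK hz hw, ← (Equiv.prodComm (ℤ × ℤ) (ℕ × ℕ)).tsum_eq]
      have h3 := hSs.prod.hasSum
      have h4 := hSs.tsum_prod
      simp only [Equiv.prodComm_apply, Prod.swap]
      rw [h4]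
      exact hs_congr h3 fun y => eB y
    -- the side of the weights
    have hzw : ‖z * w‖ = 1 := by rw [norm_mul, hz, hw, one_mul]
    have hzw' : ‖z * w⁻¹‖ = 1 := by rw [norm_mul, norm_inv, hz, hw, inv_one, one_mul]
    obtain ⟨s1, t1⟩ := wI_sum_z hJK hzw
    obtain ⟨s2, t2⟩ := wI_sum_z hJ hzw'
    have hA0 : HasSum (fun y : ℤ × ℤ => (wI (J + K) y.1 : ℂ) * (z * w) ^ y.1 *
        ((wI J y.2 : ℂ) * (z * w⁻¹) ^ y.2))
        (Complex.exp (((J + K : ℝ) : ℂ) * ((z * w + (z * w)⁻¹) / 2)) *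
          Complex.exp (J * ((z * w⁻¹ + (z * w⁻¹)⁻¹) / 2))) := by
      have h3 := tsum_mul_tsum_of_summable_norm s1 s2
      rw [t1, t2] at h3
      rw [h3]
      exact (summable_mul_of_summable_norm s1 s2).hasSum
    have hA1 : HasSum (fun y : ℤ × ℤ => (A y : ℂ) * (z ^ y.1 * w ^ y.2))
        (Complex.exp (((J + K : ℝ) : ℂ) * ((z * w + (z * w)⁻¹) / 2)) *
          Complex.exp (J * ((z * w⁻¹ + (z * w⁻¹)⁻¹) / 2))) := by
      refine (rt2_inj.hasSum_iff ?_).1 (hs_congr hA0 fun y => ?_)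
      · intro y hy
        have : A y = 0 := Function.extend_apply' _ _ _ (by simpa [Set.mem_range] using hy)
        rw [this]
        simp
      · have h5 : A (rt2 y) = wI (J + K) y.1 * wI J y.2 :=
          rt2_inj.extend_apply (fun y : ℤ × ℤ => wI (J + K) y.1 * wI J y.2) 0 y
        simp only [Function.comp]
        rw [h5]
        simp only [rt2]
        rw [zpow_add₀ hz0, zpow_sub₀ hw0, mul_zpow, mul_zpow, inv_zpow]
        push_cast
        field_simp
    have e : Complex.exp (((J + K : ℝ) : ℂ) * ((z * w + (z * w)⁻¹) / 2)) *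
          Complex.exp (J * ((z * w⁻¹ + (z * w⁻¹)⁻¹) / 2)) =
        Complex.exp ((2 * J + K) / 4 * ((z + z⁻¹) * (w + w⁻¹)) +
        K / 4 * ((z - z⁻¹) * (w - w⁻¹))) := by
      rw [← Complex.exp_add]
      congr 1
      push_cast
      field_simp
      ring
    rw [e] at hA1
    have h6 := hB1.sub hA1
    rw [sub_self] at h6
    have h7 : HasSum (fun y : ℤ × ℤ => ((kB J K y - A y : ℝ) : ℂ) * (z ^ y.1 * w ^ y.2)) 0 := by
      refine hs_congr h6 fun y => ?_
      push_cast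
      ring
    exact h7.tsum_eq

/-- the exchanged weights -/
theorem kernel_swap {J K : ℝ} (hJ : 0 ≤ J) (hK : 0 ≤ K) (n m : ℤ) :
    HasSum (fun i : ℕ × ℕ => (-1) ^ i.2 * kt J K (i, (n + m, n - m))) (wI J n * wI (J + K) m) := by
  have h := kernel hJ hK m n
  rw [mul_comm (wI J n)]
  have e : (fun i : ℕ × ℕ => (-1) ^ i.2 * kt J K (i, (n + m, n - m))) =
      fun i : ℕ × ℕ => kt J K (i, (m + n, m - n)) := by
    funext i
    unfold kt
    simp only
    rw [show m - n = -(n - m) by ring, phi_neg, add_comm m n]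
    ring
  rw [e]
  exact h

end Vale.Agent.P159.T1.H934
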