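import Vale.Agent.P159.T1.H934.Mix
import Vale.Agent.P159.H353.Wgt

/-!
Exponential moments of integer heights: they increase with the couplings, and
`E[exp L] ^ 4 ≤ E[exp (2 L)]`.
-/

open MeasureTheory Filter Topology

namespace Vale.Agent.P159.T1.H934

open Vale.Agent.P159 Vale.Agent.P159.H353 Vale.Agent.P159.R2.H254

section weighted

lemma shift_pt {f : ℤ → ℝ} {ρ : ℝ} (hρ : 1 ≤ ρ) {s : ℝ} (hs : |s| ≤ 1) (p : ℤ) :
    |f (p - 1) + s * f (p + 1)| * ρ ^ p.natAbs ≤
      ρ * (|f (p - 1)| * ρ ^ (p - 1).natAbs) + ρ * (|f (p + 1)| * ρ ^ (p + 1).natAbs) := by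
  have h0 : 0 ≤ ρ := by linarith
  have pw : ∀ m n : ℕ, m ≤ n + 1 → ρ ^ m ≤ ρ * ρ ^ n := by
    intro m n hmn
    rw [← pow_succ']
    exact pow_le_pow_right₀ hρ hmn
  have a1 : |f (p - 1) + s * f (p + 1)| ≤ |f (p - 1)| + |f (p + 1)| := by
    refine (abs_add_le _ _).trans (add_le_add le_rfl ?_)
    rw [abs_mul]
    exact mul_le_of_le_one_left (abs_nonneg _) hs
  have a2 := mul_le_mul_of_nonneg_left (pw p.natAbs (p - 1).natAbs (by omega))
    (abs_nonneg (f (p - 1)))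
  have a3 := mul_le_mul_of_nonneg_left (pw p.natAbs (p + 1).natAbs (by omega))
    (abs_nonneg (f (p + 1)))
  have a4 := mul_le_mul_of_nonneg_right a1 (pow_nonneg h0 p.natAbs)
  rw [add_mul] at a4
  linarith

lemma shift_abs_w {f : ℤ → ℝ} {C ρ : ℝ} (hρ : 1 ≤ ρ) (hf : Summable fun p => |f p| * ρ ^ p.natAbs)
    (hC : ∑' p, |f p| * ρ ^ p.natAbs ≤ C) {s : ℝ} (hs : |s| ≤ 1) :
    (Summable fun p : ℤ => |f (p - 1) + s * f (p + 1)| * ρ ^ p.natAbs) ∧
      ∑' p : ℤ, |f (p - 1) + s * f (p + 1)| * ρ ^ p.natAbs ≤ 2 * ρ * C := by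
  have h0 : 0 ≤ ρ := by linarith
  set F : ℤ → ℝ := fun p => |f p| * ρ ^ p.natAbs with hF
  have h1 : Summable fun p : ℤ => ρ * F (p - 1) :=
    ((Equiv.subRight (1 : ℤ)).summable_iff.2 hf).mul_left ρ
  have h2 : Summable fun p : ℤ => ρ * F (p + 1) :=
    ((Equiv.addRight (1 : ℤ)).summable_iff.2 hf).mul_left ρ
  have e1 : ∑' p : ℤ, F (p - 1) = ∑' p, F p := (Equiv.subRight (1 : ℤ)).tsum_eq F
  have e2 : ∑' p : ℤ, F (p + 1) = ∑' p, F p := (Equiv.addRight (1 : ℤ)).tsum_eq F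
  have hle : ∀ p : ℤ, |f (p - 1) + s * f (p + 1)| * ρ ^ p.natAbs ≤
      ρ * F (p - 1) + ρ * F (p + 1) := fun p => shift_pt hρ hs p
  have h3 : Summable fun p : ℤ => |f (p - 1) + s * f (p + 1)| * ρ ^ p.natAbs :=
    Summable.of_nonneg_of_le (fun p => mul_nonneg (abs_nonneg _) (pow_nonneg h0 _)) hle (h1.add h2)
  refine ⟨h3, ?_⟩
  have h4 := h3.tsum_le_tsum hle (h1.add h2)
  rw [h1.tsum_add h2, tsum_mul_left, tsum_mul_left, e1, e2] at h4
  have h5 := mul_le_mul_of_nonneg_left hC h0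
  linarith

lemma psi_abs_w {ρ : ℝ} (hρ : 1 ≤ ρ) (a : ℕ) : (Summable fun p => |psi a p| * ρ ^ p.natAbs) ∧
    ∑' p, |psi a p| * ρ ^ p.natAbs ≤ (2 * ρ) ^ a := by
  induction a with
  | zero =>
    have h : ∀ p : ℤ, |psi 0 p| * ρ ^ p.natAbs = if p = 0 then 1 else 0 := by
      intro p
      simp only [psi]
      split_ifs with h0
      · subst h0; simp
      · simp
    simp only [h]
    exact ⟨(hasSum_ite_eq (0 : ℤ) (1 : ℝ)).summable, by rw [tsum_ite_eq]; simp⟩
  | succ a ih =>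
    have h := shift_abs_w hρ ih.1 ih.2 (s := -1) (by simp)
    have e : ∀ p : ℤ, |psi a (p - 1) + -1 * psi a (p + 1)| * ρ ^ p.natAbs =
        |psi (a + 1) p| * ρ ^ p.natAbs := by
      intro p
      simp only [psi]
      congr 2
      ring
    simp only [e] at h
    refine ⟨h.1, h.2.trans ?_⟩
    rw [pow_succ]
    linarith

lemma phi_abs_w {ρ : ℝ} (hρ : 1 ≤ ρ) (a k : ℕ) :
    (Summable fun p => |phi a k p| * ρ ^ p.natAbs) ∧
      ∑' p, |phi a k p| * ρ ^ p.natAbs ≤ (2 * ρ) ^ (k + a) := by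
  induction k with
  | zero => simpa [phi] using psi_abs_w hρ a
  | succ k ih =>
    have h := shift_abs_w hρ ih.1 ih.2 (s := 1) (by simp)
    have e : ∀ p : ℤ, |phi a k (p - 1) + 1 * phi a k (p + 1)| * ρ ^ p.natAbs =
        |phi a (k + 1) p| * ρ ^ p.natAbs := by
      intro p
      simp only [phi]
      congr 2
      ring
    simp only [e] at h
    refine ⟨h.1, h.2.trans ?_⟩
    rw [show k + 1 + a = (k + a) + 1 by ring, pow_succ]
    linarith

lemma summable_kt_w {J K ρ : ℝ} (hJ : 0 ≤ J) (hK : 0 ≤ K) (hρ : 1 ≤ ρ) :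
    Summable fun x : (ℕ × ℕ) × (ℤ × ℤ) =>
      |kt J K x * (ρ ^ x.2.1.natAbs * ρ ^ x.2.2.natAbs)| := by
  have h0 : 0 < ρ := by linarith
  have e : ∀ x : (ℕ × ℕ) × (ℤ × ℤ), |kt J K x * (ρ ^ x.2.1.natAbs * ρ ^ x.2.2.natAbs)| =
      cc J K x.1 * ((|phi x.1.2 x.1.1 x.2.1| * ρ ^ x.2.1.natAbs) *
        (|phi x.1.2 x.1.1 x.2.2| * ρ ^ x.2.2.natAbs)) := by
    intro x
    unfold kt
    rw [abs_mul, abs_mul, abs_mul, abs_mul, abs_of_nonneg (cc_nonneg hJ hK _), abs_pow, abs_pow,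
      abs_of_pos h0]
    ring
  simp only [e]
  have hrow : ∀ i : ℕ × ℕ, HasSum (fun y : ℤ × ℤ => cc J K i *
      ((|phi i.2 i.1 y.1| * ρ ^ y.1.natAbs) * (|phi i.2 i.1 y.2| * ρ ^ y.2.natAbs)))
      (cc J K i * ((∑' p, |phi i.2 i.1 p| * ρ ^ p.natAbs) *
        ∑' p, |phi i.2 i.1 p| * ρ ^ p.natAbs)) := by
    intro i
    have h := (phi_abs_w hρ i.2 i.1).1
    have hs : Summable fun y : ℤ × ℤ => (|phi i.2 i.1 y.1| * ρ ^ y.1.natAbs) *
        (|phi i.2 i.1 y.2| * ρ ^ y.2.natAbs) :=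
      h.mul_of_nonneg h (fun _ => by positivity) (fun _ => by positivity)
    rw [h.tsum_mul_tsum h hs]
    exact hs.hasSum.mul_left _
  refine (summable_prod_of_nonneg (fun x => mul_nonneg (cc_nonneg hJ hK _)
    (by positivity))).2 ⟨fun i => (hrow i).summable, ?_⟩
  have hs4 : Summable fun i : ℕ × ℕ => cc J K i * ((2 * ρ) ^ (i.1 + i.2) *
      (2 * ρ) ^ (i.1 + i.2)) := by
    have h1 := Real.summable_pow_div_factorial ((2 * J + K) / 4 * (2 * ρ) ^ 2)
    have h2 := Real.summable_pow_div_factorial (K / 4 * (2 * ρ) ^ 2)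
    have h3 := h1.mul_of_nonneg h2 (fun n => by positivity) (fun n => by positivity)
    refine h3.congr fun i => ?_
    unfold cc
    rw [mul_pow ((2 * J + K) / 4), mul_pow (K / 4), ← pow_mul, ← pow_mul, ← pow_add,
      show i.1 + i.2 + (i.1 + i.2) = 2 * i.1 + 2 * i.2 by ring, pow_add]
    ring
  refine Summable.of_nonneg_of_le (fun i => tsum_nonneg fun y => mul_nonneg (cc_nonneg hJ hK _)
    (by positivity)) (fun i => ?_) hs4
  rw [(hrow i).tsum_eq]
  refine mul_le_mul_of_nonneg_left ?_ (cc_nonneg hJ hK i)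
  have h := (phi_abs_w hρ i.2 i.1).2
  have h0 : 0 ≤ ∑' p, |phi i.2 i.1 p| * ρ ^ p.natAbs := tsum_nonneg fun _ => by positivity
  exact mul_le_mul h h h0 (by positivity)

lemma summable_wI_w {b ρ : ℝ} (hb : 0 ≤ b) (hρ : 1 ≤ ρ) :
    Summable fun n : ℤ => |wI b n * ρ ^ n.natAbs| := by
  have h0 : 0 < ρ := by linarith
  have hz : ((ρ : ℝ) : ℂ) ≠ 0 := by exact_mod_cast h0.ne'
  have hz' : ((ρ⁻¹ : ℝ) : ℂ) ≠ 0 := by exact_mod_cast (inv_pos.2 h0).ne'
  have key : ∀ {r : ℝ}, ((r : ℝ) : ℂ) ≠ 0 → 0 < r → Summable fun n : ℤ => wI b n * r ^ n := by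
    intro r hr hr0
    have h1 := Complex.hasSum_re (laurent hb hr).summable.hasSum
    refine h1.summable.congr fun n => ?_
    rw [← Complex.ofReal_zpow, ← Complex.ofReal_mul, Complex.ofReal_re]
  refine Summable.of_nonneg_of_le (fun _ => abs_nonneg _) (fun n => ?_)
    ((key hz h0).add (key hz' (inv_pos.2 h0)))
  rw [abs_mul, abs_of_nonneg (wI_nonneg hb n), abs_pow, abs_of_pos h0, ← mul_add]
  refine mul_le_mul_of_nonneg_left ?_ (wI_nonneg hb n)
  have p1 : 0 < ρ ^ n := zpow_pos h0 n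
  have p2 : 0 < ρ⁻¹ ^ n := zpow_pos (inv_pos.2 h0) n
  rcases le_total 0 n with hn | hn
  · have : ρ ^ n.natAbs = ρ ^ n := by
      rw [← zpow_natCast, Int.natCast_natAbs, abs_of_nonneg hn]
    rw [this]; linarith
  · have : ρ ^ n.natAbs = ρ⁻¹ ^ n := by
      rw [← zpow_natCast, Int.natCast_natAbs, abs_of_nonpos hn, inv_zpow']
    rw [this]; linarith

end weighted

section dupw

variable {H : Type} [AddCommGroup H] {E : Type} [Fintype E]

/-- product weight `ρ ^ ∑ |n e|` -/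
noncomputable def gw (ρ : ℝ) (n : E → ℤ) : ℝ := ∏ e, ρ ^ (n e).natAbs

lemma gw_pos {ρ : ℝ} (hρ : 1 ≤ ρ) (n : E → ℤ) : 0 < gw ρ n :=
  Finset.prod_pos fun e _ => pow_pos (by linarith) _

omit [AddCommGroup H] in
lemma W_summable_w {D : H → E → ℤ} (hD : Function.Injective D) {J : E → ℝ} (hJ : ∀ e, 0 ≤ J e)
    {ρ : ℝ} (hρ : 1 ≤ ρ) : Summable fun h => W D J h * gw ρ (D h) := by
  have h := (prod_real (a := fun e n => wI (J e) n * ρ ^ n.natAbs)
    (fun e => summable_wI_w (hJ e) hρ)).1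
  have h2 := h.comp_injective hD
  refine h2.congr fun x => ?_
  simp only [Function.comp]
  rw [abs_of_nonneg (Finset.prod_nonneg fun e _ => mul_nonneg (wI_nonneg (hJ e) _)
    (pow_nonneg (by linarith) _)), Finset.prod_mul_distrib]
  rfl

omit [AddCommGroup H] in
lemma tm_summable_w {D : H → E → ℤ} (hD : Function.Injective D) {J K : E → ℝ}
    (hJ : ∀ e, 0 ≤ J e) (hK : ∀ e, 0 ≤ K e) {ρ : ℝ} (hρ : 1 ≤ ρ) :
    Summable fun y : (E → ℕ × ℕ) × (H × H) => |tm D J K y.1 y.2| *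
      (gw ρ (fun e => D y.2.1 e + D y.2.2 e) * gw ρ (fun e => D y.2.1 e - D y.2.2 e)) := by
  have h0 : 0 ≤ ρ := by linarith
  have h := (prod_real (a := fun e (x : (ℕ × ℕ) × (ℤ × ℤ)) => kt (J e) (K e) x *
    (ρ ^ x.2.1.natAbs * ρ ^ x.2.2.natAbs)) (fun e => summable_kt_w (hJ e) (hK e) hρ)).1
  set φ : (E → ℕ × ℕ) × (H × H) → E → (ℕ × ℕ) × (ℤ × ℤ) := fun y e =>
    (y.1 e, (D y.2.1 e + D y.2.2 e, D y.2.1 e - D y.2.2 e)) with hφ
  have hinj : Function.Injective φ := by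
    rintro ⟨i, a, b⟩ ⟨j, c, d⟩ hy
    have h1 : ∀ e, (i e, rt2 (D a e, D b e)) = (j e, rt2 (D c e, D d e)) := fun e => congrFun hy e
    have h2 : i = j := funext fun e => (Prod.mk.inj (h1 e)).1
    have h3 : ∀ e, (D a e, D b e) = (D c e, D d e) := fun e => rt2_inj (Prod.mk.inj (h1 e)).2
    have h4 : a = c := hD (funext fun e => (Prod.mk.inj (h3 e)).1)
    have h5 : b = d := hD (funext fun e => (Prod.mk.inj (h3 e)).2)
    rw [h2, h4, h5]
  refine (h.comp_injective hinj).congr fun y => ?_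
  simp only [Function.comp, hφ]
  rw [Finset.prod_mul_distrib, Finset.prod_mul_distrib, abs_mul, abs_mul]
  unfold tm gw
  rw [abs_of_nonneg (Finset.prod_nonneg fun e _ => pow_nonneg h0 _ :
      0 ≤ ∏ e, ρ ^ (D y.2.1 e + D y.2.2 e).natAbs),
    abs_of_nonneg (Finset.prod_nonneg fun e _ => pow_nonneg h0 _ :
      0 ≤ ∏ e, ρ ^ (D y.2.1 e - D y.2.2 e).natAbs)]

/-- the common part of the two duplication inequalities -/
theorem dup_gen {D : H →+ (E → ℤ)} (hD : Function.Injective D) {J K : E → ℝ}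
    (hJ : ∀ e, 0 ≤ J e) (hK : ∀ e, 0 ≤ K e) {g : H → ℝ} {C ρ : ℝ} (hρ : 1 ≤ ρ)
    (hg : ∀ h, |g h| ≤ C * gw ρ (D h)) (σ : ℝ) (hσ : |σ| ≤ 1) :
    0 ≤ ∑' x : H × H, (W D (J + K) x.1 * W D J x.2 + σ * (W D J x.1 * W D (J + K) x.2)) *
      (g (x.1 + x.2) * g (x.1 - x.2)) := by
  have h2 : ∀ h : H, h + h = 0 → h = 0 := by
    intro h hh
    apply hD
    rw [map_zero]
    funext e
    have := congrFun (congrArg D hh) e
    rw [map_add, map_zero] at this
    simp only [Pi.add_apply, Pi.zero_apply] at this ⊢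
    omega
  have hC : 0 ≤ C := by
    have h3 := (abs_nonneg _).trans (hg 0)
    exact nonneg_of_mul_nonneg_left h3 (gw_pos hρ _)
  have hs := tm_summable_w (D := D) hD hJ hK hρ
  have hs0 := tm_summable (D := D) hD hJ hK
  set F : (E → ℕ × ℕ) × (H × H) → ℝ := fun y =>
    (1 + σ * sg y.1) * tm D J K y.1 y.2 * (g (y.2.1 + y.2.2) * g (y.2.1 - y.2.2)) with hF
  have hsg : ∀ i : E → ℕ × ℕ, |σ * sg i| ≤ 1 := fun i => by
    rw [abs_mul, abs_sg, mul_one]; exact hσ
  have hFs : Summable F := by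
    refine Summable.of_norm_bounded (hs.mul_left (2 * (C * C))) fun y => ?_
    simp only [hF]
    rw [Real.norm_eq_abs, abs_mul, abs_mul, abs_mul]
    have h3 : |1 + σ * sg y.1| ≤ 2 := by
      have := abs_le.1 (hsg y.1)
      rw [abs_le]
      constructor <;> linarith
    have h4 := hg (y.2.1 + y.2.2)
    have h5 := hg (y.2.1 - y.2.2)
    rw [map_add] at h4
    rw [map_sub] at h5
    have h6 : |1 + σ * sg y.1| * |tm D J K y.1 y.2| ≤ 2 * |tm D J K y.1 y.2| :=
      mul_le_mul_of_nonneg_right h3 (abs_nonneg _)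
    have h7 : |g (y.2.1 + y.2.2)| * |g (y.2.1 - y.2.2)| ≤
        (C * gw ρ (D y.2.1 + D y.2.2)) * (C * gw ρ (D y.2.1 - D y.2.2)) :=
      mul_le_mul h4 h5 (abs_nonneg _) (mul_nonneg hC (gw_pos hρ _).le)
    have h8 := mul_le_mul h6 h7 (mul_nonneg (abs_nonneg _) (abs_nonneg _))
      (mul_nonneg zero_le_two (abs_nonneg _))
    refine h8.trans (le_of_eq ?_)
    have e1 : D y.2.1 + D y.2.2 = fun e => D y.2.1 e + D y.2.2 e := rfl
    have e2 : D y.2.1 - D y.2.2 = fun e => D y.2.1 e - D y.2.2 e := rfl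
    rw [e1, e2]
    ring
  have e1 : ∀ x : H × H, ∑' i : E → ℕ × ℕ, F (i, x) =
      (W D (J + K) x.1 * W D J x.2 + σ * (W D J x.1 * W D (J + K) x.2)) *
      (g (x.1 + x.2) * g (x.1 - x.2)) := by
    intro x
    simp only [hF]
    rw [tsum_mul_right]
    congr 1
    have hsx : Summable fun i : E → ℕ × ℕ => tm D J K i x := by
      have h4 : Summable fun z : (H × H) × (E → ℕ × ℕ) => |tm D J K z.2 z.1| := hs0.prod_symm
      exact Summable.of_abs (h4.prod_factor x)
    have hsx' : Summable fun i : E → ℕ × ℕ => sg i * tm D J K i x := by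
      refine Summable.of_norm_bounded hsx.abs fun i => ?_
      rw [Real.norm_eq_abs, abs_mul, abs_sg, one_mul]
    rw [← tm_sum D hJ hK x, ← tm_sum_swap D hJ hK x, ← tsum_mul_left,
      ← hsx.tsum_add (hsx'.mul_left σ)]
    exact tsum_congr fun i => by ring
  have e2 : ∑' x : H × H, (W D (J + K) x.1 * W D J x.2 + σ * (W D J x.1 * W D (J + K) x.2)) *
      (g (x.1 + x.2) * g (x.1 - x.2)) = ∑' i : E → ℕ × ℕ, ∑' x : H × H, F (i, x) := by
    rw [← tsum_congr e1]
    exact Summable.tsum_comm (f := fun i x => F (i, x)) hFs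
  rw [e2]
  refine tsum_nonneg fun i => ?_
  set f : H → ℝ := fun h => (∏ e, phi (i e).2 (i e).1 (D h e)) * g h with hf
  have hfs : Summable fun h => |f h| := by
    have h3 := (prod_real (a := fun e n => phi (i e).2 (i e).1 n * ρ ^ n.natAbs)
      (fun e => ((phi_abs_w hρ (i e).2 (i e).1).1).congr fun n => by
        rw [abs_mul, abs_pow, abs_of_pos (by linarith : 0 < ρ)])).1
    have h4 := (h3.comp_injective hD).mul_right C
    refine Summable.of_nonneg_of_le (fun _ => abs_nonneg _) (fun h => ?_) h4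
    simp only [hf, Function.comp]
    rw [abs_mul, Finset.prod_mul_distrib, abs_mul, mul_assoc]
    refine mul_le_mul_of_nonneg_left ?_ (abs_nonneg _)
    refine (hg h).trans (le_of_eq ?_)
    rw [mul_comm]
    congr 1
    exact (abs_of_pos (gw_pos hρ (D h))).symm
  have e3 : ∀ x : H × H, F (i, x) = ((1 + σ * sg i) * ∏ e, cc (J e) (K e) (i e)) *
      (f (x.1 + x.2) * f (x.1 - x.2)) := by
    intro x
    simp only [hF, hf]
    unfold tm kt
    simp only
    rw [Finset.prod_mul_distrib, Finset.prod_mul_distrib, map_add, map_sub]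
    simp only [Pi.add_apply, Pi.sub_apply]
    ring
  rw [tsum_congr e3, tsum_mul_left]
  refine mul_nonneg (mul_nonneg ?_ (Finset.prod_nonneg fun e _ => cc_nonneg (hJ e) (hK e) _))
    (sum_square h2 hfs)
  have := abs_le.1 (hsg i)
  linarith

end dupw

section lin

variable {H : Type} [AddCommGroup H] {E : Type} [Fintype E]

/-- linear functional of the gradient -/
noncomputable def ln (D : H →+ (E → ℤ)) (a : E → ℝ) (h : H) : ℝ := ∑ e, a e * (D h e : ℝ)

lemma ln_add (D : H →+ (E → ℤ)) (a : E → ℝ) (h k : H) : ln D a (h + k) = ln D a h + ln D a k := by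
  unfold ln
  rw [← Finset.sum_add_distrib]
  refine Finset.sum_congr rfl fun e _ => ?_
  rw [map_add, Pi.add_apply]
  push_cast
  ring

lemma ln_neg (D : H →+ (E → ℤ)) (a : E → ℝ) (h : H) : ln D a (-h) = -ln D a h := by
  unfold ln
  rw [← Finset.sum_neg_distrib]
  refine Finset.sum_congr rfl fun e _ => ?_
  rw [map_neg, Pi.neg_apply]
  push_cast
  ring

lemma ln_sub (D : H →+ (E → ℤ)) (a : E → ℝ) (h k : H) : ln D a (h - k) = ln D a h - ln D a k := by
  rw [sub_eq_add_neg, ln_add, ln_neg]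
  ring

lemma ln_smul (D : H →+ (E → ℤ)) (a : E → ℝ) (c : ℝ) (h : H) :
    ln D (fun e => c * a e) h = c * ln D a h := by
  unfold ln
  rw [Finset.mul_sum]
  exact Finset.sum_congr rfl fun e _ => by ring

/-- growth of the linear functional -/
lemma exp_ln_le (D : H →+ (E → ℤ)) (a : E → ℝ) (h : H) :
    Real.exp |ln D a h| ≤ gw (Real.exp (∑ e, |a e|)) (D h) := by
  have h1 : gw (Real.exp (∑ e, |a e|)) (D h) =
      Real.exp (∑ e' : E, ((D h e').natAbs : ℝ) * ∑ e, |a e|) := by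
    have h2 := Real.exp_sum Finset.univ (fun e' : E => ((D h e').natAbs : ℝ) * ∑ e, |a e|)
    rw [h2]
    exact Finset.prod_congr rfl fun e _ => (Real.exp_nat_mul _ _).symm
  rw [h1]
  apply Real.exp_le_exp.2
  unfold ln
  refine (Finset.abs_sum_le_sum_abs _ _).trans (Finset.sum_le_sum fun e _ => ?_)
  rw [abs_mul, Nat.cast_natAbs, Int.cast_abs, mul_comm]
  exact mul_le_mul_of_nonneg_left
    (Finset.single_le_sum (f := fun e => |a e|) (fun _ _ => abs_nonneg _) (Finset.mem_univ e))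
    (abs_nonneg _)

lemma one_le_rho (a : E → ℝ) : 1 ≤ Real.exp (∑ e, |a e|) :=
  Real.one_le_exp (Finset.sum_nonneg fun _ _ => abs_nonneg _)

/-- functions of exponential growth are summable -/
lemma summable_growth {D : H →+ (E → ℤ)} (hD : Function.Injective D) {J : E → ℝ}
    (hJ : ∀ e, 0 ≤ J e) (a : E → ℝ) {f : H → ℝ} {C : ℝ}
    (hf : ∀ h, |f h| ≤ C * Real.exp |ln D a h|) : Summable fun h => |W D J h * f h| := by
  have hC : 0 ≤ C := by
    have h3 := (abs_nonneg _).trans (hf 0)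
    exact nonneg_of_mul_nonneg_left h3 (Real.exp_pos _)
  refine Summable.of_nonneg_of_le (fun _ => abs_nonneg _) (fun h => ?_)
    ((W_summable_w (D := D) hD hJ (one_le_rho a)).mul_left C)
  rw [abs_mul, abs_of_nonneg (W_nonneg hJ h)]
  calc W D J h * |f h| ≤ W D J h * (C * gw (Real.exp (∑ e, |a e|)) (D h)) :=
        mul_le_mul_of_nonneg_left ((hf h).trans (mul_le_mul_of_nonneg_left
          (exp_ln_le D a h) hC)) (W_nonneg hJ h)
    _ = _ := by ring

lemma growth {D : H →+ (E → ℤ)} {a : E → ℝ} {f : H → ℝ} {C : ℝ} (hC : 0 ≤ C)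
    (hf : ∀ h, |f h| ≤ C * Real.exp |ln D a h|) (h : H) :
    |f h| ≤ C * gw (Real.exp (∑ e, |a e|)) (D h) :=
  (hf h).trans (mul_le_mul_of_nonneg_left (exp_ln_le D a h) hC)

/-- **Exponential moments increase with the couplings.** -/
theorem mono_cosh {D : H →+ (E → ℤ)} (hD : Function.Injective D) {J K : E → ℝ}
    (hJ : ∀ e, 0 ≤ J e) (hK : ∀ e, 0 ≤ K e) (a : E → ℝ) :
    (∑' h, W D J h * Real.cosh (ln D a h)) * (∑' h, W D (J + K) h) ≤
      (∑' h, W D (J + K) h * Real.cosh (ln D a h)) * ∑' h, W D J h := by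
  have hJK : ∀ e, 0 ≤ (J + K) e := fun e => add_nonneg (hJ e) (hK e)
  have cb : ∀ h : H, |Real.cosh (ln D a h)| ≤ 1 * Real.exp |ln D a h| := fun h => by
    rw [abs_of_pos (Real.cosh_pos _), one_mul, ← Real.cosh_abs]
    rw [Real.cosh_eq]
    have : Real.exp (-|ln D a h|) ≤ Real.exp |ln D a h| :=
      Real.exp_le_exp.2 (by linarith [abs_nonneg (ln D a h)])
    linarith
  have aA : Summable fun h => |W D (J + K) h| := (W_summable (D := D) hD hJK).abs
  have aB : Summable fun h => |W D J h| := (W_summable (D := D) hD hJ).abs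
  have aAc := summable_growth (D := D) hD hJK a cb
  have aBc := summable_growth (D := D) hD hJ a cb
  have sb : ∀ h : H, |Real.sinh (ln D a h / 2)| ≤ 1 * Real.exp |ln D a h| := fun h => by
    rw [one_mul, Real.sinh_eq]
    have h1 : Real.exp (ln D a h / 2) ≤ Real.exp |ln D a h| := by
      apply Real.exp_le_exp.2
      linarith [abs_nonneg (ln D a h), le_abs_self (ln D a h)]
    have h2 : Real.exp (-(ln D a h / 2)) ≤ Real.exp |ln D a h| := by
      apply Real.exp_le_exp.2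
      linarith [abs_nonneg (ln D a h), neg_le_abs (ln D a h)]
    have h3 := Real.exp_pos (ln D a h / 2)
    have h4 := Real.exp_pos (-(ln D a h / 2))
    rw [abs_le]
    constructor <;> linarith
  have h0 := dup_gen (D := D) hD hJ hK (g := fun h => Real.sinh (ln D a h / 2)) (C := 1)
    (one_le_rho a) (growth zero_le_one sb) (-1) (by simp)
  have h1 := (((hasSum_mul_pair aAc aB).sub (hasSum_mul_pair aA aBc)).sub
    (hasSum_mul_pair aBc aA)).add (hasSum_mul_pair aB aAc)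
  have h2 := h1.mul_left (1 / 2)
  have e : ∀ x : H × H, (W D (J + K) x.1 * W D J x.2 + -1 * (W D J x.1 * W D (J + K) x.2)) *
      (Real.sinh (ln D a (x.1 + x.2) / 2) * Real.sinh (ln D a (x.1 - x.2) / 2)) =
      1 / 2 * (W D (J + K) x.1 * Real.cosh (ln D a x.1) * W D J x.2 -
        W D (J + K) x.1 * (W D J x.2 * Real.cosh (ln D a x.2)) -
        W D J x.1 * Real.cosh (ln D a x.1) * W D (J + K) x.2 +
        W D J x.1 * (W D (J + K) x.2 * Real.cosh (ln D a x.2))) := by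
    intro x
    have h3 : Real.sinh (ln D a (x.1 + x.2) / 2) * Real.sinh (ln D a (x.1 - x.2) / 2) =
        (Real.cosh (ln D a x.1) - Real.cosh (ln D a x.2)) / 2 := by
      rw [ln_add, ln_sub]
      have e1 := Real.cosh_add ((ln D a x.1 + ln D a x.2) / 2) ((ln D a x.1 - ln D a x.2) / 2)
      have e2 := Real.cosh_sub ((ln D a x.1 + ln D a x.2) / 2) ((ln D a x.1 - ln D a x.2) / 2)
      rw [show (ln D a x.1 + ln D a x.2) / 2 + (ln D a x.1 - ln D a x.2) / 2 = ln D a x.1 by ring]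
        at e1
      rw [show (ln D a x.1 + ln D a x.2) / 2 - (ln D a x.1 - ln D a x.2) / 2 = ln D a x.2 by ring]
        at e2
      linarith
    rw [h3]
    ring
  rw [tsum_congr e, h2.tsum_eq] at h0
  nlinarith [h0]

lemma W_neg (D : H →+ (E → ℤ)) (J : E → ℝ) (h : H) : W D J (-h) = W D J h := by
  unfold W
  refine Finset.prod_congr rfl fun e _ => ?_
  rw [map_neg, Pi.neg_apply, wI_neg]

lemma tsum_neg_arg (f : H → ℝ) : ∑' h, f (-h) = ∑' h, f h := (Equiv.neg H).tsum_eq f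

/-- the four replica inequality for exponential moments -/
theorem four_exp {D : H →+ (E → ℤ)} (hD : Function.Injective D) {J : E → ℝ}
    (hJ : ∀ e, 0 ≤ J e) (a : E → ℝ) :
    (∑' h, W D J h * Real.exp (ln D a h)) ^ 4 ≤
      (∑' h, W D J h) ^ 3 * ∑' h, W D J h * Real.exp (2 * ln D a h) := by
  have hW := W_summable (D := D) hD hJ
  have a0 : Summable fun h => |W D J h| := hW.abs
  set Z := ∑' h, W D J h with hZ
  set Z1 := ∑' h, W D J h * Real.exp (ln D a h) with hZ1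
  set Z2 := ∑' h, W D J h * Real.exp (2 * ln D a h) with hZ2
  have b1 : ∀ h : H, |Real.exp (ln D a h)| ≤ 1 * Real.exp |ln D a h| := fun h => by
    rw [abs_of_pos (Real.exp_pos _), one_mul]
    exact Real.exp_le_exp.2 (le_abs_self _)
  have b1' : ∀ h : H, |Real.exp (-ln D a h)| ≤ 1 * Real.exp |ln D a h| := fun h => by
    rw [abs_of_pos (Real.exp_pos _), one_mul]
    exact Real.exp_le_exp.2 (neg_le_abs _)
  have b2 : ∀ h : H, |Real.exp (2 * ln D a h)| ≤
      1 * Real.exp |ln D (fun e => 2 * a e) h| := fun h => by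
    rw [abs_of_pos (Real.exp_pos _), one_mul, ln_smul]
    exact Real.exp_le_exp.2 (le_abs_self _)
  have a1 := summable_growth (D := D) hD hJ a b1
  have a1' := summable_growth (D := D) hD hJ a b1'
  have a2 := summable_growth (D := D) hD hJ _ b2
  have hZ1' : ∑' h, W D J h * Real.exp (-ln D a h) = Z1 := by
    rw [hZ1, ← tsum_neg_arg]
    refine tsum_congr fun h => ?_
    rw [W_neg, ln_neg, neg_neg]
  -- the quadratic form
  have quad : ∀ α β : ℝ, 0 ≤ α ^ 2 * Z ^ 2 + 2 * α * β * Z1 ^ 2 + β ^ 2 * (Z2 * Z) := by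
    intro α β
    have gb : ∀ h : H, |α + β * Real.exp (ln D a h)| ≤ (|α| + |β|) * Real.exp |ln D a h| := by
      intro h
      have h1 : 1 ≤ Real.exp |ln D a h| := Real.one_le_exp (abs_nonneg _)
      have h2 := b1 h
      rw [one_mul] at h2
      calc |α + β * Real.exp (ln D a h)| ≤ |α| + |β| * |Real.exp (ln D a h)| := by
            rw [← abs_mul]; exact abs_add_le _ _
        _ ≤ |α| * Real.exp |ln D a h| + |β| * Real.exp |ln D a h| :=
            add_le_add (le_mul_of_one_le_right (abs_nonneg _) h1)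
              (mul_le_mul_of_nonneg_left h2 (abs_nonneg _))
        _ = _ := by ring
    have h0 := dup_gen (D := D) hD hJ (K := 0) (fun _ => le_rfl)
      (g := fun h => α + β * Real.exp (ln D a h)) (C := |α| + |β|)
      (one_le_rho a) (growth (add_nonneg (abs_nonneg _) (abs_nonneg _)) gb) 0 (by simp)
    rw [add_zero] at h0
    have h1 := (((hasSum_mul_pair a0 a0).mul_left (α ^ 2)).add
      (((hasSum_mul_pair a1 a1).add (hasSum_mul_pair a1 a1')).mul_left (α * β))).add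
      ((hasSum_mul_pair a2 a0).mul_left (β ^ 2))
    rw [hZ1'] at h1
    have e : ∀ x : H × H, (W D J x.1 * W D J x.2 + 0 * (W D J x.1 * W D J x.2)) *
        ((α + β * Real.exp (ln D a (x.1 + x.2))) * (α + β * Real.exp (ln D a (x.1 - x.2)))) =
        α ^ 2 * (W D J x.1 * W D J x.2) +
        α * β * (W D J x.1 * Real.exp (ln D a x.1) * (W D J x.2 * Real.exp (ln D a x.2)) +
          W D J x.1 * Real.exp (ln D a x.1) * (W D J x.2 * Real.exp (-ln D a x.2))) +
        β ^ 2 * (W D J x.1 * Real.exp (2 * ln D a x.1) * W D J x.2) := by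
      intro x
      rw [ln_add, ln_sub, Real.exp_add, sub_eq_add_neg, Real.exp_add,
        show 2 * ln D a x.1 = ln D a x.1 + ln D a x.1 by ring, Real.exp_add]
      have h3 : Real.exp (ln D a x.2) * Real.exp (-ln D a x.2) = 1 := by
        rw [← Real.exp_add, add_neg_cancel, Real.exp_zero]
      linear_combination (W D J x.1 * W D J x.2 * β ^ 2 * Real.exp (ln D a x.1) *
        Real.exp (ln D a x.1)) * h3
    rw [tsum_congr e, h1.tsum_eq] at h0
    rw [← hZ, ← hZ1, ← hZ2] at h0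
    nlinarith [h0]
  have hZpos : 0 < Z := by
    have h1 : W D J 0 ≤ Z := hW.le_tsum 0 fun h _ => W_nonneg hJ h
    have h2 : 0 < W D J (0 : H) := by
      unfold W
      rw [map_zero]
      exact Finset.prod_pos fun e _ => wI_zero_pos (hJ e)
    linarith
  have h1 := quad (Z1 ^ 2) (-Z ^ 2)
  have h2 : 0 ≤ Z ^ 2 * (Z ^ 3 * Z2 - Z1 ^ 4) := by nlinarith [h1]
  have h3 := nonneg_of_mul_nonneg_right h2 (by positivity)
  linarith

end lin

end Vale.Agent.P159.T1.H934
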