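import Vale.Agent.P159.T1.H934.CoverDefs

/-!
Charts of the quarter planes: the function in the chart, its Dirichlet energy, its samples.
-/

open Filter Topology MeasureTheory

namespace Vale.Agent.P159.T1.H934.Chart

open Vale.Agent.P159 Vale.Agent.P159.T1.D

/-- sign -/
def sg (x : Bool) : ℝ := if x then 1 else -1

lemma sg_sq (x : Bool) : sg x * sg x = 1 := by cases x <;> simp [sg]

/-- linear part of the chart -/
noncomputable def lin (x y z : Bool) : ℝ × ℝ →L[ℝ] ℝ × ℝ :=
  if z then (sg x • ContinuousLinearMap.snd ℝ ℝ ℝ).prod (sg y • ContinuousLinearMap.fst ℝ ℝ ℝ)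
  else (sg x • ContinuousLinearMap.fst ℝ ℝ ℝ).prod (sg y • ContinuousLinearMap.snd ℝ ℝ ℝ)

lemma lin_t (x y : Bool) (p : ℝ × ℝ) : lin x y true p = (sg x * p.2, sg y * p.1) := by
  simp [lin]

lemma lin_f (x y : Bool) (p : ℝ × ℝ) : lin x y false p = (sg x * p.1, sg y * p.2) := by
  simp [lin]

lemma isoR_eq (v : ℝ × ℝ) (x y z : Bool) (p : ℝ × ℝ) : isoR v x y z p = v + lin x y z p := by
  cases z <;> cases x <;> cases y <;> simp [isoR, lin_t, lin_f, sg, Prod.ext_iff]

/-- the inverse chart -/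
noncomputable def inv (v : ℝ × ℝ) (x y z : Bool) (p : ℝ × ℝ) : ℝ × ℝ :=
  if z then (sg y * (p.2 - v.2), sg x * (p.1 - v.1)) else (sg x * (p.1 - v.1), sg y * (p.2 - v.2))

lemma isoR_inv (v : ℝ × ℝ) (x y z : Bool) (p : ℝ × ℝ) : isoR v x y z (inv v x y z p) = p := by
  rw [isoR_eq]
  cases z <;> cases x <;> cases y <;> simp [inv, lin_t, lin_f, sg, Prod.ext_iff]

lemma inv_isoR (v : ℝ × ℝ) (x y z : Bool) (p : ℝ × ℝ) : inv v x y z (isoR v x y z p) = p := by
  rw [isoR_eq]
  cases z <;> cases x <;> cases y <;> simp [inv, lin_t, lin_f, sg, Prod.ext_iff]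

lemma isoR_inj (v : ℝ × ℝ) (x y z : Bool) : Function.Injective (isoR v x y z) :=
  Function.LeftInverse.injective (inv_isoR v x y z)

lemma isoR_cont (v : ℝ × ℝ) (x y z : Bool) : Continuous (isoR v x y z) := by
  have h : isoR v x y z = fun p => v + lin x y z p := funext (isoR_eq v x y z)
  rw [h]
  exact continuous_const.add (lin x y z).continuous

lemma inv_cont (v : ℝ × ℝ) (x y z : Bool) : Continuous (inv v x y z) := by
  unfold inv
  cases z
  · simp only [Bool.false_eq_true, if_false]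
    fun_prop
  · simp only [if_true]
    fun_prop

/-- the chart as a homeomorphism -/
noncomputable def isoH (v : ℝ × ℝ) (x y z : Bool) : ℝ × ℝ ≃ₜ ℝ × ℝ where
  toFun := isoR v x y z
  invFun := inv v x y z
  left_inv := inv_isoR v x y z
  right_inv := isoR_inv v x y z
  continuous_toFun := isoR_cont v x y z
  continuous_invFun := inv_cont v x y z

lemma mp_one (c : ℝ) (x : Bool) : MeasurePreserving (fun r : ℝ => c + sg x * r) volume volume := by
  cases x
  · have h1 : MeasurePreserving (fun r : ℝ => -r) volume volume := Measure.measurePreserving_neg _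
    have h2 : MeasurePreserving (fun r : ℝ => c + r) volume volume :=
      measurePreserving_add_left volume c
    have h3 := h2.comp h1
    have e : ((fun r : ℝ => c + r) ∘ fun r : ℝ => -r) = fun r : ℝ => c + sg false * r := by
      funext r
      simp [sg]
    rwa [e] at h3
  · have h2 : MeasurePreserving (fun r : ℝ => c + r) volume volume :=
      measurePreserving_add_left volume c
    have e : (fun r : ℝ => c + r) = fun r : ℝ => c + sg true * r := by
      funext r
      simp [sg]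
    rwa [e] at h2

lemma mp_two (v : ℝ × ℝ) (x y : Bool) :
    MeasurePreserving (fun p : ℝ × ℝ => (v.1 + sg x * p.1, v.2 + sg y * p.2)) volume volume := by
  have h := (mp_one v.1 x).prod (mp_one v.2 y)
  exact h

lemma isoR_mp (v : ℝ × ℝ) (x y z : Bool) : MeasurePreserving (isoR v x y z) volume volume := by
  cases z
  · have h := mp_two v x y
    have e : (fun p : ℝ × ℝ => (v.1 + sg x * p.1, v.2 + sg y * p.2)) = isoR v x y false := by
      funext p
      rw [isoR_eq, lin_f]
      rfl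
    rwa [e] at h
  · have h := (mp_two v x y).comp (Measure.measurePreserving_swap (μ := (volume : Measure ℝ))
      (ν := (volume : Measure ℝ)))
    have e : ((fun p : ℝ × ℝ => (v.1 + sg x * p.1, v.2 + sg y * p.2)) ∘ Prod.swap) =
        isoR v x y true := by
      funext p
      rw [isoR_eq, lin_t]
      rfl
    rw [e] at h
    exact h

section chart

variable {ψ : ℝ × ℝ → ℝ} (v : ℝ × ℝ) (x y z : Bool)

lemma comp_contDiff (h : ContDiff ℝ 2 ψ) : ContDiff ℝ 2 (ψ ∘ isoR v x y z) := by
  have e : isoR v x y z = fun p => v + lin x y z p := funext (isoR_eq v x y z)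
  rw [e]
  exact h.comp (contDiff_const.add (lin x y z).contDiff)

lemma comp_compact (h : HasCompactSupport ψ) : HasCompactSupport (ψ ∘ isoR v x y z) :=
  h.comp_homeomorph (isoH v x y z)

lemma tsupport_comp {q : ℝ × ℝ} (hq : q ∈ tsupport (ψ ∘ isoR v x y z)) :
    isoR v x y z q ∈ tsupport ψ :=
  tsupport_comp_subset_preimage ψ (isoR_cont v x y z) hq

/-- the Dirichlet energy is invariant -/
lemma Dir_comp (h : ContDiff ℝ 2 ψ) : Dir (ψ ∘ isoR v x y z) = Dir ψ := by
  have hd : ∀ q, fderiv ℝ (ψ ∘ isoR v x y z) q = (fderiv ℝ ψ (isoR v x y z q)).comp (lin x y z) := by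
    intro q
    have h1 : HasFDerivAt ψ (fderiv ℝ ψ (isoR v x y z q)) (isoR v x y z q) :=
      ((h.differentiable (by norm_num)) _).hasFDerivAt
    have h2 : HasFDerivAt (isoR v x y z) (lin x y z) q := by
      have e : isoR v x y z = fun p => v + lin x y z p := funext (isoR_eq v x y z)
      rw [e]
      exact ((lin x y z).hasFDerivAt).const_add v
    exact (h1.comp q h2).fderiv
  set F : ℝ × ℝ → ℝ := fun p => (fderiv ℝ ψ p (1, 0)) ^ 2 + (fderiv ℝ ψ p (0, 1)) ^ 2 with hF
  have key : ∀ q, (fderiv ℝ (ψ ∘ isoR v x y z) q (1, 0)) ^ 2 +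
      (fderiv ℝ (ψ ∘ isoR v x y z) q (0, 1)) ^ 2 = F (isoR v x y z q) := by
    intro q
    rw [hd q]
    simp only [ContinuousLinearMap.comp_apply, hF]
    have a1 : ((1, 0) : ℝ × ℝ) = (1, 0) := rfl
    have l1 : ∀ (c : ℝ), fderiv ℝ ψ (isoR v x y z q) (c, 0) =
        c * fderiv ℝ ψ (isoR v x y z q) (1, 0) := by
      intro c
      rw [show ((c, 0) : ℝ × ℝ) = c • (1, 0) by simp, map_smul, smul_eq_mul]
    have l2 : ∀ (c : ℝ), fderiv ℝ ψ (isoR v x y z q) (0, c) =
        c * fderiv ℝ ψ (isoR v x y z q) (0, 1) := by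
      intro c
      rw [show ((0, c) : ℝ × ℝ) = c • (0, 1) by simp, map_smul, smul_eq_mul]
    have hx := sg_sq x
    have hy := sg_sq y
    cases z
    · rw [lin_f, lin_f]
      simp only [mul_one, mul_zero]
      rw [l1, l2]
      linear_combination (fderiv ℝ ψ (isoR v x y false q) (1, 0)) ^ 2 * hx +
        (fderiv ℝ ψ (isoR v x y false q) (0, 1)) ^ 2 * hy
    · rw [lin_t, lin_t]
      simp only [mul_one, mul_zero]
      rw [l1, l2]
      linear_combination (fderiv ℝ ψ (isoR v x y true q) (1, 0)) ^ 2 * hx +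
        (fderiv ℝ ψ (isoR v x y true q) (0, 1)) ^ 2 * hy
  unfold Dir
  simp only [key]
  exact (isoR_mp v x y z).integral_comp (isoH v x y z).measurableEmbedding F

end chart

/-! ### faces -/

/-- inverse of `iso` -/
def isoI (u : Z2) (x y z : Bool) (f : Z2) : Z2 :=
  let g : Z2 := ((if x then f.1 - u.1 else -1 - (f.1 - u.1)),
    (if y then f.2 - u.2 else -1 - (f.2 - u.2)))
  if z then (g.2, g.1) else g

lemma iso_isoI (u : Z2) (x y z : Bool) (f : Z2) : iso u x y z (isoI u x y z f) = f := by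
  cases x <;> cases y <;> cases z <;> simp [iso, isoI, Prod.ext_iff]

/-- shift of the sample in the chart -/
noncomputable def shf (u : Z2) (v : ℝ × ℝ) (x y : Bool) (n : ℕ) : ℝ × ℝ :=
  ((n : ℝ) * v.1 - u.1 + (if x then 0 else 1), (n : ℝ) * v.2 - u.2 + (if y then 0 else 1))

lemma shf_le {u : Z2} {v : ℝ × ℝ} {n : ℕ} {T : ℝ} (x y : Bool)
    (h : |(u.1 : ℝ) - n * v.1| ≤ T ∧ |(u.2 : ℝ) - n * v.2| ≤ T) :
    |(shf u v x y n).1| ≤ T + 1 ∧ |(shf u v x y n).2| ≤ T + 1 := by
  obtain ⟨h1, h2⟩ := h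
  rw [abs_le] at h1 h2
  unfold shf
  constructor <;> rw [abs_le] <;> constructor <;> simp only <;> split_ifs <;> linarith

/-- the sample in the chart -/
lemma smp_iso (ψ : ℝ × ℝ → ℝ) (u : Z2) (v : ℝ × ℝ) (x y z : Bool) {n : ℕ} (hn : 0 < n) (f : Z2) :
    smp ψ n (shf u v x y n) (iso u x y z f) =
      (ψ ∘ isoR v x y z) ((f.1 : ℝ) / n, (f.2 : ℝ) / n) := by
  have hn' : (n : ℝ) ≠ 0 := by exact_mod_cast hn.ne'
  unfold smp
  show ψ _ = ψ _
  congr 1
  unfold shf iso isoR
  cases z <;> cases x <;> cases y <;> simp only [Bool.false_eq_true, if_true, if_false,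
    Prod.mk.injEq] <;> push_cast <;> constructor <;> field_simp <;> ring

end Vale.Agent.P159.T1.H934.Chart
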