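import Vale.Agent.P159.T1.H934.Kern
import Vale.Agent.P159.H353.ProdSum

/-!
Correlation inequalities for integer heights on an arbitrary finite graph, on the side of the
heights: for `0 ≤ J`, `0 ≤ K` the sum of
`(W_{J+K}(h) W_J(h') - W_J(h) W_{J+K}(h')) g(h + h') g(h - h')` is nonnegative.
-/

open MeasureTheory Filter Topology

namespace Vale.Agent.P159.T1.H934

open Vale.Agent.P159 Vale.Agent.P159.H353 Vale.Agent.P159.R2.H254

/-- product of absolutely convergent real series -/
theorem prod_real {ι E : Type} [Fintype E] {a : E → ι → ℝ} (ha : ∀ e, Summable fun n => |a e n|) :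
    (Summable fun n : E → ι => |∏ e, a e (n e)|) ∧
      ∑' n : E → ι, ∏ e, a e (n e) = ∏ e, ∑' k, a e k := by
  have h := prod_tsum_all ι E (fun e n => (a e n : ℂ)) (fun e => (ha e).congr fun n => by
    rw [Complex.norm_real, Real.norm_eq_abs])
  constructor
  · refine h.1.congr fun n => ?_
    rw [← Complex.ofReal_prod, Complex.norm_real, Real.norm_eq_abs]
  · have h2 := h.2
    have e1 : ∀ n : E → ι, ∏ e, (a e (n e) : ℂ) = ((∏ e, a e (n e) : ℝ) : ℂ) := fun n => by
      rw [Complex.ofReal_prod]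
    have e2 : ∏ e, ∑' k, (a e k : ℂ) = ((∏ e, ∑' k, a e k : ℝ) : ℂ) := by
      rw [Complex.ofReal_prod]
      refine Finset.prod_congr rfl fun e _ => ?_
      rw [Complex.ofReal_tsum]
    rw [tsum_congr e1, e2, ← Complex.ofReal_tsum] at h2
    exact_mod_cast h2

section square

variable {H : Type} [AddCommGroup H]

/-- the relation `p - q ∈ 2 H` -/
def tw : Setoid H where
  r p q := ∃ a : H, p = q + (a + a)
  iseqv :=
    { refl := fun p => ⟨0, by simp⟩
      symm := by
        rintro p q ⟨a, rfl⟩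
        exact ⟨-a, by abel⟩
      trans := by
        rintro p q r ⟨a, rfl⟩ ⟨b, rfl⟩
        exact ⟨a + b, by abel⟩ }

omit [AddCommGroup H] in
lemma sum_class_nonneg {Q : Type} [DecidableEq Q] (π : H → Q) (f : H → ℝ) (s : Finset H) :
    0 ≤ ∑ x ∈ s ×ˢ s, if π x.1 = π x.2 then f x.1 * f x.2 else 0 := by
  have h1 : ∑ x ∈ s ×ˢ s, (if π x.1 = π x.2 then f x.1 * f x.2 else 0) =
      ∑ c ∈ s.image π, (∑ p ∈ s with π p = c, f p) * (∑ p ∈ s with π p = c, f p) := by
    rw [Finset.sum_product]
    rw [← Finset.sum_fiberwise_of_maps_to (s := s) (t := s.image π) (g := π)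
      (fun x hx => Finset.mem_image_of_mem π hx)]
    refine Finset.sum_congr rfl fun c _ => ?_
    rw [Finset.sum_mul]
    refine Finset.sum_congr rfl fun p hp => ?_
    have hpc : π p = c := (Finset.mem_filter.1 hp).2
    rw [Finset.sum_filter, Finset.mul_sum]
    refine Finset.sum_congr rfl fun q _ => ?_
    simp only
    by_cases h : π q = c
    · rw [if_pos (by rw [hpc, h]), if_pos h]
    · rw [if_neg (by rw [hpc]; exact fun e => h e.symm), if_neg h, mul_zero]
  rw [h1]
  exact Finset.sum_nonneg fun c _ => mul_self_nonneg _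

/-- the change of variables `(h, h') ↦ (h + h', h - h')` -/
def rot (x : H × H) : H × H := (x.1 + x.2, x.1 - x.2)

lemma rot_inj (h2 : ∀ h : H, h + h = 0 → h = 0) : Function.Injective (rot (H := H)) := by
  rintro ⟨a, b⟩ ⟨c, d⟩ h
  simp only [rot, Prod.mk.injEq] at h
  obtain ⟨h3, h4⟩ := h
  have h5 : a = c := by
    have : (a - c) + (a - c) = 0 := by
      have e : (a - c) + (a - c) = (a + b + (a - b)) - (c + d + (c - d)) := by abel
      rw [e, h3, h4, sub_self]
    exact sub_eq_zero.1 (h2 _ this)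
  subst h5
  have h6 : b = d := add_left_cancel h3
  subst h6
  rfl

/-- square lemma -/
theorem sum_square (h2 : ∀ h : H, h + h = 0 → h = 0) {f : H → ℝ} (hf : Summable fun h => |f h|) :
    0 ≤ ∑' x : H × H, f (x.1 + x.2) * f (x.1 - x.2) := by
  classical
  set π : H → Quotient (tw (H := H)) := fun h => Quotient.mk _ h with hπ
  set G : H × H → ℝ := fun x => if π x.1 = π x.2 then f x.1 * f x.2 else 0 with hG
  have hGs : Summable G := by
    have h1 : Summable fun x : H × H => |f x.1| * |f x.2| :=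
      hf.mul_of_nonneg hf (fun _ => abs_nonneg _) (fun _ => abs_nonneg _)
    refine Summable.of_norm_bounded h1 fun x => ?_
    simp only [hG]
    split_ifs
    · rw [Real.norm_eq_abs, abs_mul]
    · rw [norm_zero]; positivity
  have e1 : ∑' x : H × H, f (x.1 + x.2) * f (x.1 - x.2) = ∑' x, G x := by
    rw [← (rot_inj h2).tsum_eq (f := G)]
    · refine tsum_congr fun x => ?_
      have : π (rot x).1 = π (rot x).2 := by
        apply Quotient.sound
        exact ⟨x.2, by simp only [rot]; abel⟩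
      simp only [hG]
      rw [if_pos this]
      rfl
    · intro x hx
      have h3 : π x.1 = π x.2 := by
        by_contra hne
        apply hx
        simp only [hG]
        rw [if_neg hne]
      obtain ⟨a, ha⟩ := Quotient.exact h3
      refine ⟨(x.2 + a, a), ?_⟩
      simp only [rot]
      ext
      · simp only
        rw [ha]
        abel
      · simp
  rw [e1]
  have hmono : Tendsto (fun s : Finset H => s ×ˢ s) atTop atTop := by
    refine tendsto_atTop_finset_of_monotone (fun s t hst => Finset.product_subset_product hst hst) ?_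
    intro x
    exact ⟨{x.1, x.2}, by simp⟩
  have h4 := hGs.hasSum.comp hmono
  exact ge_of_tendsto' h4 fun s => sum_class_nonneg π f s

end square

section dup

variable {H : Type} [AddCommGroup H] {E : Type} [Fintype E]

/-- weight of a height function -/
noncomputable def W (D : H → E → ℤ) (J : E → ℝ) (h : H) : ℝ := ∏ e, wI (J e) (D h e)

omit [AddCommGroup H] in
lemma W_nonneg {D : H → E → ℤ} {J : E → ℝ} (hJ : ∀ e, 0 ≤ J e) (h : H) : 0 ≤ W D J h :=
  Finset.prod_nonneg fun e _ => wI_nonneg (hJ e) _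

omit [AddCommGroup H] in
lemma W_summable {D : H → E → ℤ} (hD : Function.Injective D) {J : E → ℝ} (hJ : ∀ e, 0 ≤ J e) :
    Summable (W D J) := by
  have h := (prod_real (a := fun e n => wI (J e) n) (fun e => (summable_wI (hJ e)).congr
    fun n => (abs_of_nonneg (wI_nonneg (hJ e) n)).symm)).1
  have h2 := h.comp_injective hD
  refine h2.congr fun x => ?_
  simp only [Function.comp]
  exact abs_of_nonneg (Finset.prod_nonneg fun e _ => wI_nonneg (hJ e) _)

/-- one term of the expansion of the duplicated system -/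
noncomputable def tm (D : H → E → ℤ) (J K : E → ℝ) (i : E → ℕ × ℕ) (x : H × H) : ℝ :=
  ∏ e, kt (J e) (K e) (i e, (D x.1 e + D x.2 e, D x.1 e - D x.2 e))

omit [AddCommGroup H] in
lemma tm_summable {D : H → E → ℤ} (hD : Function.Injective D) {J K : E → ℝ}
    (hJ : ∀ e, 0 ≤ J e) (hK : ∀ e, 0 ≤ K e) :
    Summable fun y : (E → ℕ × ℕ) × (H × H) => |tm D J K y.1 y.2| := by
  have h := (prod_real (a := fun e n => kt (J e) (K e) n)
    (fun e => summable_kt (hJ e) (hK e))).1
  set φ : (E → ℕ × ℕ) × (H × H) → E → (ℕ × ℕ) × (ℤ × ℤ) := fun y e =>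
    (y.1 e, (D y.2.1 e + D y.2.2 e, D y.2.1 e - D y.2.2 e)) with hφ
  have hinj : Function.Injective φ := by
    rintro ⟨i, a, b⟩ ⟨j, c, d⟩ hy
    have h1 : ∀ e, (i e, rt2 (D a e, D b e)) = (j e, rt2 (D c e, D d e)) := fun e => congrFun hy e
    have h2 : i = j := funext fun e => (Prod.mk.inj (h1 e)).1
    have h3 : ∀ e, (D a e, D b e) = (D c e, D d e) := fun e => rt2_inj (Prod.mk.inj (h1 e)).2
    have h4 : a = c := hD (funext fun e => (Prod.mk.inj (h3 e)).1)
    have h5 : b = d := hD (funext fun e => (Prod.mk.inj (h3 e)).2)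
    rw [h2, h4, h5]
  exact (h.comp_injective hinj).congr fun y => rfl

omit [AddCommGroup H] in
lemma tm_sum (D : H → E → ℤ) {J K : E → ℝ} (hJ : ∀ e, 0 ≤ J e) (hK : ∀ e, 0 ≤ K e)
    (x : H × H) : ∑' i : E → ℕ × ℕ, tm D J K i x = W D (J + K) x.1 * W D J x.2 := by
  have hs : ∀ e, Summable fun i : ℕ × ℕ =>
      |kt (J e) (K e) (i, (D x.1 e + D x.2 e, D x.1 e - D x.2 e))| := fun e =>
    (kernel (hJ e) (hK e) _ _).summable.abs
  have h := (prod_real hs).2
  unfold tm
  rw [h]
  unfold W
  rw [← Finset.prod_mul_distrib]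
  exact Finset.prod_congr rfl fun e _ => (kernel (hJ e) (hK e) _ _).tsum_eq

/-- sign of a term under the exchange of the two copies -/
noncomputable def sg (i : E → ℕ × ℕ) : ℝ := ∏ e, (-1) ^ (i e).2

lemma sg_le (i : E → ℕ × ℕ) : sg i ≤ 1 := by
  have h : |sg i| = 1 := by
    unfold sg
    rw [Finset.abs_prod]
    exact Finset.prod_eq_one fun e _ => by simp
  exact (le_abs_self _).trans h.le

lemma abs_sg (i : E → ℕ × ℕ) : |sg i| = 1 := by
  unfold sg
  rw [Finset.abs_prod]
  exact Finset.prod_eq_one fun e _ => by simp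

omit [AddCommGroup H] in
lemma tm_sum_swap (D : H → E → ℤ) {J K : E → ℝ} (hJ : ∀ e, 0 ≤ J e) (hK : ∀ e, 0 ≤ K e)
    (x : H × H) : ∑' i : E → ℕ × ℕ, sg i * tm D J K i x = W D J x.1 * W D (J + K) x.2 := by
  have hs : ∀ e, Summable fun i : ℕ × ℕ =>
      |(-1) ^ i.2 * kt (J e) (K e) (i, (D x.1 e + D x.2 e, D x.1 e - D x.2 e))| := fun e =>
    (kernel_swap (hJ e) (hK e) _ _).summable.abs
  have h := (prod_real hs).2
  have e1 : ∀ i : E → ℕ × ℕ, sg i * tm D J K i x = ∏ e, ((-1) ^ (i e).2 *
      kt (J e) (K e) (i e, (D x.1 e + D x.2 e, D x.1 e - D x.2 e))) := by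
    intro i
    unfold sg tm
    rw [← Finset.prod_mul_distrib]
  rw [tsum_congr e1, h]
  unfold W
  rw [← Finset.prod_mul_distrib]
  exact Finset.prod_congr rfl fun e _ => (kernel_swap (hJ e) (hK e) _ _).tsum_eq

/-- duplication inequality -/
theorem dup {D : H →+ (E → ℤ)} (hD : Function.Injective D) {J K : E → ℝ}
    (hJ : ∀ e, 0 ≤ J e) (hK : ∀ e, 0 ≤ K e) {g : H → ℝ} {C : ℝ} (hg : ∀ h, |g h| ≤ C) :
    0 ≤ ∑' x : H × H, (W D (J + K) x.1 * W D J x.2 - W D J x.1 * W D (J + K) x.2) *
      (g (x.1 + x.2) * g (x.1 - x.2)) := by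
  have h2 : ∀ h : H, h + h = 0 → h = 0 := by
    intro h hh
    apply hD
    rw [map_zero]
    funext e
    have := congrFun (congrArg D hh) e
    rw [map_add, map_zero] at this
    simp only [Pi.add_apply, Pi.zero_apply] at this ⊢
    omega
  have hC : 0 ≤ C := (abs_nonneg _).trans (hg 0)
  have hs := tm_summable (D := D) hD hJ hK
  set F : (E → ℕ × ℕ) × (H × H) → ℝ := fun y =>
    (1 - sg y.1) * tm D J K y.1 y.2 * (g (y.2.1 + y.2.2) * g (y.2.1 - y.2.2)) with hF
  have hFs : Summable F := by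
    refine Summable.of_norm_bounded (hs.mul_left (2 * (C * C))) fun y => ?_
    simp only [hF]
    rw [Real.norm_eq_abs, abs_mul, abs_mul, abs_mul]
    have h3 : |1 - sg y.1| ≤ 2 := by
      have := abs_le.1 (abs_sg y.1).le
      rw [abs_le]
      constructor <;> linarith
    calc |1 - sg y.1| * |tm D J K y.1 y.2| * (|g (y.2.1 + y.2.2)| * |g (y.2.1 - y.2.2)|)
        ≤ 2 * |tm D J K y.1 y.2| * (C * C) := by
          refine mul_le_mul (mul_le_mul_of_nonneg_right h3 (abs_nonneg _))
            (mul_le_mul (hg _) (hg _) (abs_nonneg _) hC) (by positivity) (by positivity)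
      _ = 2 * (C * C) * |tm D J K y.1 y.2| := by ring
  have e1 : ∀ x : H × H, ∑' i : E → ℕ × ℕ, F (i, x) =
      (W D (J + K) x.1 * W D J x.2 - W D J x.1 * W D (J + K) x.2) *
      (g (x.1 + x.2) * g (x.1 - x.2)) := by
    intro x
    simp only [hF]
    rw [tsum_mul_right]
    congr 1
    have hsx : Summable fun i : E → ℕ × ℕ => tm D J K i x := by
      have h4 : Summable fun z : (H × H) × (E → ℕ × ℕ) => |tm D J K z.2 z.1| := hs.prod_symm
      exact Summable.of_abs (h4.prod_factor x)
    have hsx' : Summable fun i : E → ℕ × ℕ => sg i * tm D J K i x := by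
      refine Summable.of_norm_bounded hsx.abs fun i => ?_
      rw [Real.norm_eq_abs, abs_mul, abs_sg, one_mul]
    rw [← tm_sum D hJ hK x, ← tm_sum_swap D hJ hK x, ← hsx.tsum_sub hsx']
    exact tsum_congr fun i => by ring
  have e2 : ∑' x : H × H, (W D (J + K) x.1 * W D J x.2 - W D J x.1 * W D (J + K) x.2) *
      (g (x.1 + x.2) * g (x.1 - x.2)) = ∑' i : E → ℕ × ℕ, ∑' x : H × H, F (i, x) := by
    rw [← tsum_congr e1]
    exact Summable.tsum_comm (f := fun i x => F (i, x)) hFs
  rw [e2]
  refine tsum_nonneg fun i => ?_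
  set f : H → ℝ := fun h => (∏ e, phi (i e).2 (i e).1 (D h e)) * g h with hf
  have hfs : Summable fun h => |f h| := by
    have h3 := (prod_real (a := fun e n => phi (i e).2 (i e).1 n)
      (fun e => (phi_abs (i e).2 (i e).1).1)).1
    have h4 := (h3.comp_injective hD).mul_right C
    refine Summable.of_nonneg_of_le (fun _ => abs_nonneg _) (fun h => ?_) h4
    simp only [hf, Function.comp]
    rw [abs_mul]
    exact mul_le_mul_of_nonneg_left (hg h) (abs_nonneg _)
  have e3 : ∀ x : H × H, F (i, x) = ((1 - sg i) * ∏ e, cc (J e) (K e) (i e)) *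
      (f (x.1 + x.2) * f (x.1 - x.2)) := by
    intro x
    simp only [hF, hf]
    unfold tm kt
    simp only
    rw [Finset.prod_mul_distrib, Finset.prod_mul_distrib, map_add, map_sub]
    simp only [Pi.add_apply, Pi.sub_apply]
    ring
  rw [tsum_congr e3, tsum_mul_left]
  refine mul_nonneg (mul_nonneg ?_ (Finset.prod_nonneg fun e _ => cc_nonneg (hJ e) (hK e) _))
    (sum_square h2 hfs)
  have := sg_le i
  linarith

end dup

end Vale.Agent.P159.T1.H934
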