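import Vale.Agent.P159.T1.H934.VrQ
import Vale.Agent.P159.T1.H934.Chart

/-!
`StmtV`, `StmtUV` and `StmtLat` imply `StmtGV`: lower bound of the variance for a sum of functions,
each supported in a quarter plane box of the domain.
-/

open Filter Topology MeasureTheory

namespace Vale.Agent.P159.T1.H934

open Vale.Agent.P159 Vale.Agent.P159.H353 Vale.Agent.P159.T1.D Vale.Agent.P159.T1.H910 Chart

lemma Dir_nonneg (φ : ℝ × ℝ → ℝ) : 0 ≤ Dir φ :=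
  integral_nonneg fun z => add_nonneg (sq_nonneg _) (sq_nonneg _)

/-- `V` in one chart, for the sample shifted by `shf` -/
lemma V_chart {b C c : ℝ} {ψ : ℝ × ℝ → ℝ} (v : ℝ × ℝ) (x y z : Bool) {a R : ℕ}
    (hV : ∀ φ : ℝ × ℝ → ℝ, ContDiff ℝ 2 φ → HasCompactSupport φ →
      (∀ z ∈ tsupport φ, 0 < z.1 ∧ 0 < z.2) →
      ∀ (a R : ℕ), 1 ≤ a → a ≤ R → (∀ z ∈ tsupport φ, z.1 ≤ a ∧ z.2 ≤ a) → ∀ ε : ℝ, 0 < ε →
      ∃ n0 : ℕ, ∀ n ≥ n0, ∀ (u : Z2) (x y z : Bool) (U : Finset Z2),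
        (∀ f : Z2, 0 ≤ f.1 → f.1 < n * R → 0 ≤ f.2 → f.2 < n * R → iso u x y z f ∈ U) →
        ∀ g : Z2 → ℝ, (∀ f : Z2, 0 ≤ f.1 → 0 ≤ f.2 → g (iso u x y z f) =
          φ ((f.1 : ℝ) / n, (f.2 : ℝ) / n)) →
        (∀ f : Z2, (∀ f', 0 ≤ f'.1 → 0 ≤ f'.2 → f ≠ iso u x y z f') → g f = 0) →
        helicity b * Dir φ * (1 - C * ((a : ℝ) / R) ^ c) - ε ≤ Vr b U (dr g))
    (ha : 1 ≤ a) (haR : a ≤ R) (h1 : ContDiff ℝ 2 ψ) (h2 : HasCompactSupport ψ)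
    (h3 : ∀ p ∈ tsupport ψ, ∃ q : ℝ × ℝ, 0 < q.1 ∧ q.1 ≤ a ∧ 0 < q.2 ∧ q.2 ≤ a ∧
      isoR v x y z q = p) {ε : ℝ} (hε : 0 < ε) :
    ∃ n0 : ℕ, ∀ n ≥ n0, ∀ (u : Z2) (U : Finset Z2),
      (∀ f : Z2, 0 ≤ f.1 → f.1 < n * R → 0 ≤ f.2 → f.2 < n * R → iso u x y z f ∈ U) →
      helicity b * Dir ψ * (1 - C * ((a : ℝ) / R) ^ c) - ε ≤
        Vr b U (dr (smp ψ n (shf u v x y n))) := by
  have hs : ∀ q ∈ tsupport (ψ ∘ isoR v x y z), 0 < q.1 ∧ q.1 ≤ a ∧ 0 < q.2 ∧ q.2 ≤ a := by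
    intro q hq
    obtain ⟨q', g1, g2, g3, g4, g5⟩ := h3 _ (tsupport_comp v x y z hq)
    have := isoR_inj v x y z g5
    rw [← this]
    exact ⟨g1, g2, g3, g4⟩
  obtain ⟨n0, hn0⟩ := hV (ψ ∘ isoR v x y z) (comp_contDiff v x y z h1) (comp_compact v x y z h2)
    (fun q hq => ⟨(hs q hq).1, (hs q hq).2.2.1⟩) a R ha haR
    (fun q hq => ⟨(hs q hq).2.1, (hs q hq).2.2.2⟩) ε hε
  rw [Dir_comp v x y z h1] at hn0
  refine ⟨max n0 1, fun n hn u U hU => ?_⟩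
  have hn1 : 0 < n := lt_of_lt_of_le one_pos (le_of_max_le_right hn)
  refine hn0 n (le_of_max_le_left hn) u x y z U hU _ (fun f _ _ => smp_iso ψ u v x y z hn1 f) ?_
  intro f hf
  set f' := isoI u x y z f with hf'
  have e : f = iso u x y z f' := (iso_isoI u x y z f).symm
  rw [e, smp_iso ψ u v x y z hn1 f']
  by_contra hne
  have hmem : (((f'.1 : ℝ) / n, (f'.2 : ℝ) / n) : ℝ × ℝ) ∈ tsupport (ψ ∘ isoR v x y z) :=
    subset_tsupport _ (Function.mem_support.2 hne)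
  obtain ⟨g1, -, g3, -⟩ := hs _ hmem
  have hn' : (0 : ℝ) < n := by exact_mod_cast hn1
  have k1 : (0 : ℝ) < f'.1 := by
    have := mul_pos g1 hn'
    simpa [div_mul_cancel₀ _ hn'.ne'] using this
  have k2 : (0 : ℝ) < f'.2 := by
    have := mul_pos g3 hn'
    simpa [div_mul_cancel₀ _ hn'.ne'] using this
  have k1' : 0 < f'.1 := by exact_mod_cast k1
  have k2' : 0 < f'.2 := by exact_mod_cast k2
  exact hf f' k1'.le k2'.le e

lemma smp_sum {m : ℕ} (ψ : Fin m → ℝ × ℝ → ℝ) (n : ℕ) (t : ℝ × ℝ) :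
    dr (fun f => ∑ i, smp (ψ i) n t f) = ∑ i, dr (smp (ψ i) n t) := by
  funext e
  rw [Finset.sum_apply]
  unfold dr
  rw [← Finset.sum_sub_distrib]

/-- one piece -/
lemma piece {b : ℝ} (hb : 0 ≤ b) {η CU η' K D X : ℝ} {l : ℕ} {S : Finset Bnd} {U : Finset Z2}
    (hY : 0 ≤ helicity b) (hη0 : 0 < η) (hη1 : η ≤ 1) (hCU : 0 < CU) (hη'0 : 0 < η')
    (hD : 0 ≤ D) (hK : (helicity b + 1) * (D + 1) + 1 ≤ K)
    (hp1 : (1 + 1 / (η / K)) * ((helicity b + 1 + CU) * 4) * η' ≤ η)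
    (hp2 : (helicity b + 1 + CU) * η' ≤ η)
    (hU1 : ∀ B : Bnd → ℝ, (∀ e, e ∉ S → B e = 0) →
      Vr b U B ≤ (helicity b + η) * ∑ e ∈ S, B e ^ 2 + CU * osc l S B)
    {B B' B0 : Bnd → ℝ} (a1 : ∀ e, e ∉ S → B e = 0) (b1 : ∀ e, e ∉ S → B' e = 0)
    (a2 : |∑ e ∈ S, B e ^ 2 - D| ≤ η') (a3 : osc l S B ≤ η') (b3 : osc l S B' ≤ η')
    (a4 : ∑ e ∈ S, (B e - B0 e) ^ 2 ≤ η') (b4 : ∑ e ∈ S, (B' e - B0 e) ^ 2 ≤ η')
    (hV : helicity b * D * (1 - X) - η ≤ Vr b U B') :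
    Nf b η CU l S U B ≤ helicity b * X * D + η * (D + 4) := by
  set Y := helicity b with hYdef
  have hK0 : 0 < K := by
    have : 0 ≤ (Y + 1) * (D + 1) := by positivity
    linarith
  set μ : ℝ := η / K with hμ
  have hμ0 : 0 < μ := by positivity
  have hs0 : 0 ≤ ∑ e ∈ S, B e ^ 2 := Finset.sum_nonneg fun e _ => sq_nonneg _
  have q1 : ∑ e ∈ S, B e ^ 2 ≤ D + η' := by linarith [(abs_le.1 a2).2]
  have q3 : CU * osc l S B ≤ CU * η' := mul_le_mul_of_nonneg_left a3 hCU.le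
  have u1 := hU1 B a1
  have u2 : Vr b U B ≤ K := by
    have q2 : (Y + η) * ∑ e ∈ S, B e ^ 2 ≤ (Y + 1) * (D + η') :=
      mul_le_mul (by linarith) q1 hs0 (by linarith)
    have q4 : (Y + 1) * (D + η') + CU * η' = (Y + 1) * D + (Y + 1 + CU) * η' := by ring
    have q5 : (Y + 1) * D + 1 ≤ K := by
      have : (Y + 1) * (D + 1) = (Y + 1) * D + (Y + 1) := by ring
      linarith
    linarith
  have hsup : ∀ e, e ∉ S → (B' - B) e = 0 := fun e he => by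
    simp only [Pi.sub_apply, a1 e he, b1 e he, sub_zero]
  have u3 := hU1 (B' - B) hsup
  have u4 : Vr b U (B' - B) ≤ (Y + 1 + CU) * 4 * η' := by
    have q1 : ∑ e ∈ S, (B' - B) e ^ 2 ≤ 4 * η' := by
      have := sq_sub_le S B' B B0
      simp only [Pi.sub_apply]
      linarith
    have q2 : osc l S (B' - B) ≤ 4 * η' := by
      have := osc_sub_le l S B' B
      linarith
    have q3 : (Y + η) * ∑ e ∈ S, (B' - B) e ^ 2 ≤ (Y + 1) * (4 * η') := by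
      have h7 : 0 ≤ ∑ e ∈ S, (B' - B) e ^ 2 := Finset.sum_nonneg fun e _ => sq_nonneg _
      exact mul_le_mul (by linarith) q1 h7 (by linarith)
    have q4 : CU * osc l S (B' - B) ≤ CU * (4 * η') :=
      mul_le_mul_of_nonneg_left q2 hCU.le
    linarith
  have u5 := Vr_young hb U hμ0 B B'
  have u6 : μ * Vr b U B ≤ η := by
    calc μ * Vr b U B ≤ μ * K := mul_le_mul_of_nonneg_left u2 hμ0.le
      _ = η := by rw [hμ]; field_simp
  have u7 : (1 + 1 / μ) * Vr b U (B' - B) ≤ η := by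
    refine le_trans ?_ hp1
    have : 0 ≤ 1 + 1 / μ := by positivity
    calc (1 + 1 / μ) * Vr b U (B' - B) ≤ (1 + 1 / μ) * ((Y + 1 + CU) * 4 * η') :=
          mul_le_mul_of_nonneg_left u4 this
      _ = _ := by ring
  have u8 : Y * D * (1 - X) - 3 * η ≤ Vr b U B := by linarith
  unfold Nf
  have q2 : (Y + η) * ∑ e ∈ S, B e ^ 2 ≤ (Y + η) * (D + η') :=
    mul_le_mul_of_nonneg_left q1 (by linarith)
  have q4 : (Y + η) * η' + CU * η' ≤ η := by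
    have : η * η' ≤ 1 * η' := mul_le_mul_of_nonneg_right hη1 hη'0.le
    linarith
  have q5 : (Y + η) * (D + η') = Y * D + η * D + (Y + η) * η' := by ring
  have q6 : Y * D * (1 - X) = Y * D - Y * X * D := by ring
  rw [← hYdef]
  linarith

/-- the sum of the pieces -/
lemma pieces {b : ℝ} (hb : 0 ≤ b) {η CU η' D0 X DS ε : ℝ} {l m : ℕ} {S : Finset Bnd}
    {U : Finset Z2} (hY : 0 ≤ helicity b) (hη0 : 0 < η) (hη1 : η ≤ 1) (hCU : 0 < CU)
    (hη'0 : 0 < η') (hDS : 0 ≤ DS) (hp2 : (helicity b + 1 + CU) * η' ≤ η)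
    (hηM : η * (1 + m * (D0 + 4 * m)) ≤ ε)
    (hU1 : ∀ B : Bnd → ℝ, (∀ e, e ∉ S → B e = 0) →
      Vr b U B ≤ (helicity b + η) * ∑ e ∈ S, B e ^ 2 + CU * osc l S B)
    {B : Fin m → Bnd → ℝ} {d : Fin m → ℝ} (hd : ∑ i, d i = D0)
    (a1 : ∀ i, ∀ e, e ∉ S → B i e = 0) (c2 : |∑ e ∈ S, (∑ i, B i) e ^ 2 - DS| ≤ η')
    (one : ∀ i, Nf b η CU l S U (B i) ≤ helicity b * X * d i + η * (d i + 4)) :
    helicity b * DS - m * (helicity b * X * D0) - ε ≤ Vr b U (∑ i, B i) := by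
  have hN := (Nf_isQ hb η CU l S U).le (B := B) (fun i j => by
    have hs : ∀ e, e ∉ S → (B i - B j) e = 0 := fun e he => by
      simp only [Pi.sub_apply, a1 i e he, a1 j e he, sub_zero]
    have := hU1 (B i - B j) hs
    unfold Nf
    linarith)
  set Y := helicity b with hYdef
  have hN2 : Nf b η CU l S U (∑ i, B i) ≤ m * (Y * X * D0 + η * (D0 + 4 * m)) := by
    refine hN.trans (mul_le_mul_of_nonneg_left ?_ (Nat.cast_nonneg m))
    calc ∑ i, Nf b η CU l S U (B i)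
        ≤ ∑ i, (Y * X * d i + η * (d i + 4)) := Finset.sum_le_sum fun i _ => one i
      _ = _ := by
          rw [Finset.sum_add_distrib, ← Finset.mul_sum, ← Finset.mul_sum, Finset.sum_add_distrib]
          simp only [Finset.sum_const, Finset.card_univ, Fintype.card_fin, nsmul_eq_mul]
          rw [hd]
          ring
  unfold Nf at hN2
  rw [← hYdef] at hN2
  have k1 : DS - η' ≤ ∑ e ∈ S, (∑ i, B i) e ^ 2 := by linarith [(abs_le.1 c2).1]
  have k2 : (Y + η) * (DS - η') ≤ (Y + η) * ∑ e ∈ S, (∑ i, B i) e ^ 2 :=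
    mul_le_mul_of_nonneg_left k1 (by linarith)
  have k3 : 0 ≤ osc l S (∑ i, B i) :=
    Finset.sum_nonneg fun e _ => Finset.sum_nonneg fun w _ => sq_nonneg _
  have k4 : 0 ≤ CU * osc l S (∑ i, B i) := mul_nonneg hCU.le k3
  have k5 : 0 ≤ η * DS := mul_nonneg hη0.le hDS
  have k6 : (Y + η) * η' ≤ η := by
    have h1 : η * η' ≤ 1 * η' := mul_le_mul_of_nonneg_right hη1 hη'0.le
    have h2 : 0 ≤ CU * η' := by positivity
    linarith
  have k7 : η * (1 + m * (D0 + 4 * m)) = η + m * (η * (D0 + 4 * m)) := by ring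
  have k8 : (Y + η) * (DS - η') = Y * DS + η * DS - (Y + η) * η' := by ring
  have k9 : (m : ℝ) * (Y * X * D0 + η * (D0 + 4 * m)) =
    m * (Y * X * D0) + m * (η * (D0 + 4 * m)) := by ring
  linarith

/-- **lower bound of the variance from finitely many charts** -/
theorem gv (hpos : ∀ b, bCrit ≤ b → 0 < b ∧ 0 ≤ helicity b) (hV : StmtV) (hUV : StmtUV)
    (hLat : StmtLat) : StmtGV := by
  intro b hb
  obtain ⟨hb0, hY⟩ := hpos b hb
  obtain ⟨C, c, hC, hc, hV1⟩ := hV b hb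
  refine ⟨C, c, hC, hc, ?_⟩
  intro m ψ v x y z a R ha haR h1 h2 h3 T ε hε
  set Ψ : ℝ × ℝ → ℝ := fun p => ∑ i, ψ i p with hΨ
  set D0 : ℝ := ∑ i, Dir (ψ i) with hD0
  have hD00 : 0 ≤ D0 := Finset.sum_nonneg fun i _ => Dir_nonneg _
  have hDi : ∀ i, Dir (ψ i) ≤ D0 := fun i =>
    Finset.single_le_sum (f := fun i => Dir (ψ i)) (fun i _ => Dir_nonneg _) (Finset.mem_univ i)
  -- the small parameters
  obtain ⟨η, hη0, hη1, hηM⟩ : ∃ η : ℝ, 0 < η ∧ η ≤ 1 ∧ η * (1 + m * (D0 + 4 * m)) ≤ ε := by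
    have hM : 0 < 1 + (m : ℝ) * (D0 + 4 * m) := by positivity
    refine ⟨min 1 (ε / (1 + m * (D0 + 4 * m))), lt_min one_pos (by positivity), min_le_left _ _, ?_⟩
    calc _ ≤ ε / (1 + m * (D0 + 4 * m)) * (1 + m * (D0 + 4 * m)) :=
          mul_le_mul_of_nonneg_right (min_le_right _ _) hM.le
      _ = ε := by field_simp
  obtain ⟨l, CU, hCU, hU1⟩ := hUV b η hb0 hη0
  set K : ℝ := (helicity b + 1) * (D0 + 1) + 1 with hK
  have hK0 : 0 < K := by positivity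
  obtain ⟨η', hη'0, hp1, hp2⟩ : ∃ η' : ℝ, 0 < η' ∧
      (1 + 1 / (η / K)) * ((helicity b + 1 + CU) * 4) * η' ≤ η ∧
      (helicity b + 1 + CU) * η' ≤ η := by
    have hP1 : 0 < (1 + 1 / (η / K)) * ((helicity b + 1 + CU) * 4) := by positivity
    have hP2 : 0 < helicity b + 1 + CU := by positivity
    refine ⟨min (η / ((1 + 1 / (η / K)) * ((helicity b + 1 + CU) * 4)))
      (η / (helicity b + 1 + CU)), lt_min (by positivity) (by positivity), ?_, ?_⟩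
    · calc _ ≤ (1 + 1 / (η / K)) * ((helicity b + 1 + CU) * 4) *
            (η / ((1 + 1 / (η / K)) * ((helicity b + 1 + CU) * 4))) :=
            mul_le_mul_of_nonneg_left (min_le_left _ _) hP1.le
        _ = η := mul_div_cancel₀ _ hP1.ne'
    · calc _ ≤ (helicity b + 1 + CU) * (η / (helicity b + 1 + CU)) :=
            mul_le_mul_of_nonneg_left (min_le_right _ _) hP2.le
        _ = η := mul_div_cancel₀ _ hP2.ne'
  -- lattice samples
  have hΨ1 : ContDiff ℝ 2 Ψ := ContDiff.sum fun i _ => h1 i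
  have hΨ2 : HasCompactSupport Ψ := by
    have hc : IsCompact (⋃ i, tsupport (ψ i)) := isCompact_iUnion fun i => h2 i
    refine HasCompactSupport.intro hc fun p hp => ?_
    rw [Set.mem_iUnion] at hp
    push Not at hp
    exact Finset.sum_eq_zero fun i _ => image_eq_zero_of_notMem_tsupport (hp i)
  choose L0 hL0 using fun i => hLat (ψ i) (h1 i) (h2 i) (|T| + 1)
  obtain ⟨L1, hL1⟩ := hLat Ψ hΨ1 hΨ2 (|T| + 1)
  obtain ⟨L, hLi, hLL⟩ : ∃ L : ℕ, (∀ i, L ≥ L0 i) ∧ L ≥ L1 :=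
    ⟨L1 + ∑ i, L0 i, fun i => (Finset.single_le_sum (f := L0) (fun _ _ => Nat.zero_le _)
      (Finset.mem_univ i)).trans (Nat.le_add_left _ _), Nat.le_add_right _ _⟩
  choose n1 hn1 using fun i => hL0 i L (hLi i) l η' hη'0
  obtain ⟨n2, hn2⟩ := hL1 L hLL l η' hη'0
  choose n3 hn3 using fun i => V_chart (v i) (x i) (y i) (z i) hV1 ha haR (h1 i) (h2 i) (h3 i) hη0
  refine ⟨n2 + ∑ i, (n1 i + n3 i), fun n hn u hu U hU t ht1 ht2 => ?_⟩
  have hni : ∀ i, n ≥ n1 i + n3 i := fun i =>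
    ((Finset.single_le_sum (f := fun i => n1 i + n3 i) (fun _ _ => Nat.zero_le _)
      (Finset.mem_univ i)).trans (Nat.le_add_left _ _)).trans hn
  have hTt1 : |t.1| ≤ |T| + 1 := ht1.trans ((le_abs_self T).trans (by linarith))
  have hTt2 : |t.2| ≤ |T| + 1 := ht2.trans ((le_abs_self T).trans (by linarith))
  have F3 := hn2 n (by omega) t hTt1 hTt2
  have hUU : ∀ B : Bnd → ℝ, (∀ e, e ∉ Sb L n → B e = 0) →
      Vr b U B ≤ (helicity b + η) * ∑ e ∈ Sb L n, B e ^ 2 + CU * osc l (Sb L n) B :=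
    fun B hB => hU1 U (Sb L n) B hB
  have hsumΨ : dr (smp Ψ n t) = ∑ i, dr (smp (ψ i) n t) := by
    rw [← smp_sum]
    rfl
  rw [smp_sum]
  rw [hsumΨ] at F3
  rw [show helicity b * C * ((a : ℝ) / R) ^ c * D0 =
    helicity b * (C * ((a : ℝ) / R) ^ c) * D0 by ring]
  refine pieces hb0.le hY hη0 hη1 hCU hη'0 (Dir_nonneg Ψ) hp2 hηM hUU (d := fun i => Dir (ψ i))
    hD0.symm (fun i => (hn1 i n (by have := hni i; omega) t hTt1 hTt2).1) F3.2.1 fun i => ?_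
  have h5 := shf_le (x i) (y i) (hu i)
  obtain ⟨a1, a2, a3, a4⟩ := hn1 i n (by have := hni i; omega) t hTt1 hTt2
  obtain ⟨b1, b2, b3, b4⟩ := hn1 i n (by have := hni i; omega)
    (shf (u i) (v i) (x i) (y i) n) (h5.1.trans (by linarith [le_abs_self T]))
    (h5.2.trans (by linarith [le_abs_self T]))
  have hKi : (helicity b + 1) * (Dir (ψ i) + 1) + 1 ≤ K := by
    rw [hK]
    have := hDi i
    gcongr
  have hVi := hn3 i n (by have := hni i; omega) (u i) U (hU i)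
  exact piece hb0.le hY hη0 hη1 hCU hη'0 (Dir_nonneg (ψ i)) hKi hp1 hp2 hUU a1 b1 a2 a3 b3 a4
    b4 hVi

end Vale.Agent.P159.T1.H934
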