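import Vale.Agent.P159.T1.H934.Pin

/-!
Pinning inequalities for integer heights.
-/

open MeasureTheory Filter Topology

namespace Vale.Agent.P159.T1.H934

open Vale.Agent.P159 Vale.Agent.P159.H353 Vale.Agent.P159.R2.H254

section mono

variable {H : Type} [AddCommGroup H] {E : Type} [Fintype E]

omit [AddCommGroup H] in
lemma hasSum_mul_pair {f g : H → ℝ} (hf : Summable fun h => |f h|) (hg : Summable fun h => |g h|) :
    HasSum (fun x : H × H => f x.1 * g x.2) ((∑' h, f h) * ∑' h, g h) := by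
  have hs : Summable fun x : H × H => |f x.1| * |g x.2| :=
    hf.mul_of_nonneg hg (fun _ => abs_nonneg _) (fun _ => abs_nonneg _)
  have hs' : Summable fun x : H × H => f x.1 * g x.2 :=
    Summable.of_norm_bounded hs fun x => by rw [Real.norm_eq_abs, abs_mul]
  rw [hf.of_abs.tsum_mul_tsum hg.of_abs hs']
  exact hs'.hasSum

/-- an expectation of a cosine decreases if couplings are added (increases if edges are pinned) -/
theorem mono_cos {D : H →+ (E → ℤ)} (hD : Function.Injective D) {J K : E → ℝ}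
    (hJ : ∀ e, 0 ≤ J e) (hK : ∀ e, 0 ≤ K e) (l : H →+ ℝ) :
    (∑' h, W D (J + K) h * Real.cos (l h)) * (∑' h, W D J h) ≤
      (∑' h, W D J h * Real.cos (l h)) * ∑' h, W D (J + K) h := by
  have hJK : ∀ e, 0 ≤ (J + K) e := fun e => add_nonneg (hJ e) (hK e)
  have hA := (W_summable (D := D) hD hJK)
  have hB := (W_summable (D := D) hD hJ)
  have aA : Summable fun h => |W D (J + K) h| := hA.abs
  have aB : Summable fun h => |W D J h| := hB.abs
  have aAc : Summable fun h => |W D (J + K) h * Real.cos (l h)| :=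
    Summable.of_nonneg_of_le (fun _ => abs_nonneg _) (fun h => by
      rw [abs_mul]; exact mul_le_of_le_one_right (abs_nonneg _) (Real.abs_cos_le_one _)) aA
  have aBc : Summable fun h => |W D J h * Real.cos (l h)| :=
    Summable.of_nonneg_of_le (fun _ => abs_nonneg _) (fun h => by
      rw [abs_mul]; exact mul_le_of_le_one_right (abs_nonneg _) (Real.abs_cos_le_one _)) aB
  have h0 := dup (D := D) hD hJ hK (g := fun h => Real.sin (l h / 2)) (C := 1)
    (fun h => Real.abs_sin_le_one _)
  have h1 := (((hasSum_mul_pair aA aBc).sub (hasSum_mul_pair aAc aB)).sub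
    (hasSum_mul_pair aB aAc)).add (hasSum_mul_pair aBc aA)
  have h2 := h1.mul_left (1 / 2)
  have e : ∀ x : H × H, (W D (J + K) x.1 * W D J x.2 - W D J x.1 * W D (J + K) x.2) *
      (Real.sin (l (x.1 + x.2) / 2) * Real.sin (l (x.1 - x.2) / 2)) =
      1 / 2 * (W D (J + K) x.1 * (W D J x.2 * Real.cos (l x.2)) -
        W D (J + K) x.1 * Real.cos (l x.1) * W D J x.2 -
        W D J x.1 * (W D (J + K) x.2 * Real.cos (l x.2)) +
        W D J x.1 * Real.cos (l x.1) * W D (J + K) x.2) := by
    intro x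
    have h3 : Real.sin (l (x.1 + x.2) / 2) * Real.sin (l (x.1 - x.2) / 2) =
        (Real.cos (l x.2) - Real.cos (l x.1)) / 2 := by
      rw [map_add, map_sub, Real.cos_sub_cos]
      have e1 : (l x.2 + l x.1) / 2 = (l x.1 + l x.2) / 2 := by ring
      have e2 : (l x.2 - l x.1) / 2 = -((l x.1 - l x.2) / 2) := by ring
      rw [e1, e2, Real.sin_neg]
      ring
    rw [h3]
    ring
  rw [tsum_congr e, h2.tsum_eq] at h0
  nlinarith [h0]

/-- the quotient of the partition functions with and without a prescribed value of a linear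
function increases with the couplings -/
theorem mono_level {D : H →+ (E → ℤ)} (hD : Function.Injective D) {J K : E → ℝ}
    (hJ : ∀ e, 0 ≤ J e) (hK : ∀ e, 0 ≤ K e) (c : H →+ ℤ) (k : ℤ) :
    (∑' h, W D J h * (if c h = k then 1 else 0)) *
        (∑' h, W D (J + K) h * (if c h = 0 then 1 else 0)) ≤
      (∑' h, W D (J + K) h * (if c h = k then 1 else 0)) *
        ∑' h, W D J h * (if c h = 0 then 1 else 0) := by
  have hJK : ∀ e, 0 ≤ (J + K) e := fun e => add_nonneg (hJ e) (hK e)
  have hA := (W_summable (D := D) hD hJK).abs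
  have hB := (W_summable (D := D) hD hJ).abs
  have ind : ∀ {f : H → ℝ} (_ : Summable fun h => |f h|) (m : ℤ),
      Summable fun h => |f h * (if c h = m then 1 else 0)| := by
    intro f hf m
    refine Summable.of_nonneg_of_le (fun _ => abs_nonneg _) (fun h => ?_) hf
    rw [abs_mul]
    exact mul_le_of_le_one_right (abs_nonneg _) (by split_ifs <;> simp)
  have h0 := dup (D := D) hD hJ hK (g := fun h => if c h = k then 1 else 0) (C := 1)
    (fun h => by split_ifs <;> simp)
  have h1 := (hasSum_mul_pair (ind hA k) (ind hB 0)).sub (hasSum_mul_pair (ind hB k) (ind hA 0))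
  have e : ∀ x : H × H, (W D (J + K) x.1 * W D J x.2 - W D J x.1 * W D (J + K) x.2) *
      ((if c (x.1 + x.2) = k then 1 else 0) * (if c (x.1 - x.2) = k then 1 else 0)) =
      W D (J + K) x.1 * (if c x.1 = k then 1 else 0) *
        (W D J x.2 * (if c x.2 = 0 then 1 else 0)) -
      W D J x.1 * (if c x.1 = k then 1 else 0) *
        (W D (J + K) x.2 * (if c x.2 = 0 then 1 else 0)) := by
    intro x
    have h3 : ((if c (x.1 + x.2) = k then 1 else 0) * (if c (x.1 - x.2) = k then 1 else 0) : ℝ) =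
        (if c x.1 = k then 1 else 0) * (if c x.2 = 0 then 1 else 0) := by
      rw [map_add, map_sub]
      by_cases h4 : c x.1 = k
      · by_cases h5 : c x.2 = 0
        · simp [h4, h5]
        · have : ¬ (c x.1 + c x.2 = k) := by omega
          simp [this, h5]
      · by_cases h5 : c x.1 + c x.2 = k
        · have : ¬ (c x.1 - c x.2 = k) := by omega
          simp [this, h4]
        · simp [h5, h4]
    rw [h3]
    ring
  rw [tsum_congr e, h1.tsum_eq] at h0
  linarith

end mono

section fejer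

/-- number of the representations `q = j - k` with `j, k ≤ M`, divided by `M + 1` -/
noncomputable def cF (M : ℕ) (q : ℤ) : ℝ :=
  (((Finset.range (M + 1) ×ˢ Finset.range (M + 1)).filter
    (fun p : ℕ × ℕ => (p.1 : ℤ) - p.2 = q)).card : ℝ) / (M + 1)

lemma cF_nonneg (M : ℕ) (q : ℤ) : 0 ≤ cF M q := by unfold cF; positivity

lemma cF_le (M : ℕ) (q : ℤ) : cF M q ≤ 1 := by
  unfold cF
  rw [div_le_one (by positivity)]
  have h : ((Finset.range (M + 1) ×ˢ Finset.range (M + 1)).filter
      (fun p : ℕ × ℕ => (p.1 : ℤ) - p.2 = q)).card ≤ (Finset.range (M + 1)).card := by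
    refine Finset.card_le_card_of_injOn (fun p => p.2) ?_ ?_
    · intro p hp
      simp only [Finset.coe_filter, Finset.mem_product, Set.mem_ofPred_eq] at hp
      exact hp.1.2
    · intro p hp p' hp' hpp
      simp only [Finset.coe_filter, Finset.mem_product, Set.mem_ofPred_eq] at hp hp'
      simp only at hpp
      have h1 := hp.2
      have h2 := hp'.2
      ext
      · omega
      · exact hpp
  rw [Finset.card_range] at h
  exact_mod_cast h

lemma cF_ge (M : ℕ) (q : ℤ) : 1 - (q.natAbs : ℝ) / (M + 1) ≤ cF M q := by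
  unfold cF
  have hM : (0 : ℝ) < M + 1 := by positivity
  rw [← sub_nonneg]
  have h : M + 1 - q.natAbs ≤ ((Finset.range (M + 1) ×ˢ Finset.range (M + 1)).filter
      (fun p : ℕ × ℕ => (p.1 : ℤ) - p.2 = q)).card := by
    rw [← Finset.card_range (M + 1 - q.natAbs)]
    refine Finset.card_le_card_of_injOn
      (fun i => (i + q.toNat, i + (-q).toNat)) ?_ ?_
    · intro i hi
      simp only [Finset.coe_range, Set.mem_Iio] at hi
      simp only [Finset.coe_filter, Finset.mem_product, Set.mem_ofPred_eq, Finset.mem_range]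
      push_cast
      omega
    · intro i _ j _ hij
      simp only [Prod.mk.injEq] at hij
      omega
  have h2 : (M : ℝ) + 1 - q.natAbs ≤ (((Finset.range (M + 1) ×ˢ Finset.range (M + 1)).filter
      (fun p : ℕ × ℕ => (p.1 : ℤ) - p.2 = q)).card : ℝ) := by
    have h3 : M + 1 ≤ ((Finset.range (M + 1) ×ˢ Finset.range (M + 1)).filter
      (fun p : ℕ × ℕ => (p.1 : ℤ) - p.2 = q)).card + q.natAbs := by omega
    have h4 : ((M : ℝ) + 1) ≤ (((Finset.range (M + 1) ×ˢ Finset.range (M + 1)).filter
      (fun p : ℕ × ℕ => (p.1 : ℤ) - p.2 = q)).card : ℝ) + (q.natAbs : ℝ) := by exact_mod_cast h3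
    linarith
  have e : ∀ c : ℝ, c / ((M : ℝ) + 1) - (1 - (q.natAbs : ℝ) / (M + 1)) =
      (c - ((M : ℝ) + 1 - q.natAbs)) / (M + 1) := by
    intro c
    field_simp
  rw [e]
  exact div_nonneg (by linarith) hM.le

lemma cF_tendsto (q : ℤ) : Tendsto (fun M : ℕ => cF M q) atTop (𝓝 1) := by
  have h1 : Tendsto (fun M : ℕ => 1 - (q.natAbs : ℝ) / ((M : ℝ) + 1)) atTop (𝓝 (1 - 0)) :=
    tendsto_const_nhds.sub
      (tendsto_const_nhds.div_atTop
        (tendsto_atTop_add_const_right _ _ tendsto_natCast_atTop_atTop))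
  rw [sub_zero] at h1
  exact tendsto_of_tendsto_of_tendsto_of_le_of_le h1 tendsto_const_nhds (fun M => cF_ge M q)
    (fun M => cF_le M q)

lemma cF_sum (M : ℕ) (f : ℤ → ℝ) :
    ∑' q : ℤ, cF M q * f q =
      (∑ j ∈ Finset.range (M + 1), ∑ k ∈ Finset.range (M + 1), f ((j : ℤ) - k)) / (M + 1) := by
  rw [← Finset.sum_product (s := Finset.range (M + 1)) (t := Finset.range (M + 1))
    (f := fun p : ℕ × ℕ => f ((p.1 : ℤ) - p.2))]
  set s := Finset.range (M + 1) ×ˢ Finset.range (M + 1) with hs
  set t : Finset ℤ := s.image (fun p : ℕ × ℕ => (p.1 : ℤ) - p.2) with ht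
  rw [tsum_eq_sum (s := t)]
  · rw [← Finset.sum_fiberwise_of_maps_to (s := s) (t := t)
      (g := fun p : ℕ × ℕ => (p.1 : ℤ) - p.2) (fun x hx => Finset.mem_image_of_mem _ hx),
      Finset.sum_div]
    refine Finset.sum_congr rfl fun q _ => ?_
    have h1 : ∑ p ∈ s with (p.1 : ℤ) - p.2 = q, f ((p.1 : ℤ) - p.2) =
        ∑ p ∈ s with (p.1 : ℤ) - p.2 = q, f q :=
      Finset.sum_congr rfl fun p hp => by rw [(Finset.mem_filter.1 hp).2]
    rw [h1, Finset.sum_const, nsmul_eq_mul]
    unfold cF
    rw [← hs]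
    ring
  · intro q hq
    have h1 : s.filter (fun p : ℕ × ℕ => (p.1 : ℤ) - p.2 = q) = ∅ := by
      rw [Finset.filter_eq_empty_iff]
      intro p hp hpq
      exact hq (Finset.mem_image.2 ⟨p, hp, hpq⟩)
    unfold cF
    rw [← hs, h1]
    simp

end fejer

section mix

variable {H : Type} [AddCommGroup H] {E R : Type} [Fintype E] [Fintype R]

/-- weight of the edges between the faces `y ∈ R` and an additional face of height `q` -/
noncomputable def Psi (ρ : H → R → ℤ) (b : R → ℝ) (h : H) (q : ℤ) : ℝ :=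
  ∏ y, wI (b y) (ρ h y - q)

omit [AddCommGroup H] in
lemma Psi_nonneg {ρ : H → R → ℤ} {b : R → ℝ} (hb : ∀ y, 0 ≤ b y) (h : H) (q : ℤ) :
    0 ≤ Psi ρ b h q := Finset.prod_nonneg fun y _ => wI_nonneg (hb y) _

/-- the measure on the torus of the phases -/
noncomputable abbrev muR (R : Type) [Fintype R] : Measure (R → T) :=
  Measure.pi fun _ => AddCircle.haarAddCircle

/-- density of the phases -/
noncomputable def gG (b : R → ℝ) (x : R → T) : ℝ := ∏ y, gS (b y) (x y)

lemma gG_nonneg (b : R → ℝ) (x : R → T) : 0 ≤ gG b x :=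
  Finset.prod_nonneg fun _ _ => (Real.exp_pos _).le

lemma gG_cont (b : R → ℝ) : Continuous (gG b) :=
  continuous_finsetProd _ fun y _ => (gS_cont (b y)).comp (continuous_apply y)

/-- total phase -/
noncomputable def z1 (x : R → T) : ℂ := ∏ y, (fourier 1 (x y) : ℂ)

lemma z1_cont : Continuous (z1 (R := R)) :=
  continuous_finsetProd _ fun y _ => (fourier 1).continuous.comp (continuous_apply y)

lemma z1_norm (x : R → T) : ‖z1 x‖ = 1 := by
  unfold z1
  rw [norm_prod]
  exact Finset.prod_eq_one fun y _ => fourier_norm_one 1 _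

/-- character of the phases given by the heights -/
noncomputable def uu (ρ : H → R → ℤ) (h : H) (x : R → T) : ℂ :=
  ∏ y, (fourier (-(ρ h y)) (x y) : ℂ)

omit [AddCommGroup H] in
lemma uu_cont (ρ : H → R → ℤ) (h : H) : Continuous (uu ρ h) :=
  continuous_finsetProd _ fun y _ => (fourier _).continuous.comp (continuous_apply y)

omit [AddCommGroup H] in
lemma uu_norm (ρ : H → R → ℤ) (h : H) (x : R → T) : ‖uu ρ h x‖ = 1 := by
  unfold uu
  rw [norm_prod]
  exact Finset.prod_eq_one fun y _ => fourier_norm_one _ _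

lemma integral_gS_fourier' {b : ℝ} (hb : 0 ≤ b) (m : ℤ) :
    ∫ x : T, (fourier (-m) x : ℂ) * (gS b x : ℂ) ∂AddCircle.haarAddCircle = (wI b m : ℂ) := by
  have hs := hasSum_integral_of_summable_integral_norm
    (μ := (AddCircle.haarAddCircle : Measure T))
    (F := fun (n : ℤ) (x : T) => (fourier (-m) x : ℂ) * ((wI b n : ℂ) * (fourier n x : ℂ)))
    (fun n => ((by fun_prop : Continuous fun x : T =>
      (fourier (-m) x : ℂ) * ((wI b n : ℂ) * (fourier n x : ℂ))).integrable_of_hasCompactSupport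
        (HasCompactSupport.of_compactSpace _))) (by
      refine (summable_wI hb).congr fun n => ?_
      have : ∀ x : T, ‖(fourier (-m) x : ℂ) * ((wI b n : ℂ) * (fourier n x : ℂ))‖ = wI b n := by
        intro x
        rw [norm_mul, norm_mul, fourier_norm_one, fourier_norm_one, one_mul, mul_one,
          Complex.norm_real, Real.norm_eq_abs, abs_of_nonneg (wI_nonneg hb n)]
      simp only [this]
      simp)
  have e1 : ∀ x : T, ∑' n : ℤ, (fourier (-m) x : ℂ) * ((wI b n : ℂ) * (fourier n x : ℂ)) =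
      (fourier (-m) x : ℂ) * (gS b x : ℂ) := by
    intro x
    rw [tsum_mul_left, (hasSum_gS hb x).tsum_eq]
  have e2 : ∀ n : ℤ, ∫ x : T, (fourier (-m) x : ℂ) * ((wI b n : ℂ) * (fourier n x : ℂ))
      ∂AddCircle.haarAddCircle = if n = m then (wI b n : ℂ) else 0 := by
    intro n
    have : ∀ x : T, (fourier (-m) x : ℂ) * ((wI b n : ℂ) * (fourier n x : ℂ)) =
        (wI b n : ℂ) * (fourier (-m + n) x : ℂ) := by
      intro x
      rw [fourier_add]
      ring
    simp only [this]
    rw [integral_const_mul, integral_fourier]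
    by_cases h : n = m
    · simp [h]
    · have : ¬ (-m + n = 0) := by omega
      simp [h, this]
  simp only [e1, e2] at hs
  have h3 : HasSum (fun n : ℤ => if n = m then (wI b n : ℂ) else 0) (wI b m : ℂ) :=
    hs_congr (hasSum_ite_eq m (wI b m : ℂ)) fun n => by by_cases h : n = m <;> simp [h]
  exact hs.unique h3

omit [Fintype R] in
lemma zpow_cont {f : (R → T) → ℂ} (hf : Continuous f) (h0 : ∀ x, f x ≠ 0) (q : ℤ) :
    Continuous fun x => f x ^ q := hf.zpow₀ q fun x => Or.inl (h0 x)

lemma z1_ne (x : R → T) : z1 x ≠ 0 := norm_ne (z1_norm x)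

omit [AddCommGroup H] in
lemma Psi_integral (ρ : H → R → ℤ) {b : R → ℝ} (hb : ∀ y, 0 ≤ b y) (h : H) (q : ℤ) :
    (Psi ρ b h q : ℂ) = ∫ x : R → T, (gG b x : ℂ) * (z1 x ^ q * uu ρ h x) ∂muR R := by
  have h1 := integral_fintype_prod_eq_prod (𝕜 := ℂ) (μ := fun _ : R => AddCircle.haarAddCircle)
    (fun (y : R) (t : T) => (fourier (-(ρ h y - q)) t : ℂ) * (gS (b y) t : ℂ))
  have h2 : ∀ x : R → T, (gG b x : ℂ) * (z1 x ^ q * uu ρ h x) =
      ∏ y, ((fourier (-(ρ h y - q)) (x y) : ℂ) * (gS (b y) (x y) : ℂ)) := by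
    intro x
    rw [Finset.prod_mul_distrib, mul_comm]
    unfold gG z1 uu
    rw [Complex.ofReal_prod, ← Finset.prod_zpow, ← Finset.prod_mul_distrib]
    congr 1
    refine Finset.prod_congr rfl fun y _ => ?_
    rw [← fourier_zpow, ← fourier_add]
    congr 1
    ring_nf
  simp only [h2]
  unfold muR
  rw [h1]
  unfold Psi
  rw [Complex.ofReal_prod]
  exact Finset.prod_congr rfl fun y _ => (integral_gS_fourier' (hb y) _).symm

/-- the Fejér kernel of the total phase -/
noncomputable def FM (M : ℕ) (x : R → T) : ℝ :=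
  Complex.normSq (∑ j ∈ Finset.range (M + 1), z1 x ^ j)

lemma FM_cont (M : ℕ) : Continuous (FM (R := R) M) :=
  Complex.continuous_normSq.comp (continuous_finsetSum _ fun j _ => z1_cont.pow j)

lemma FM_eq (M : ℕ) (x : R → T) : (FM M x : ℂ) =
    ∑ j ∈ Finset.range (M + 1), ∑ k ∈ Finset.range (M + 1), z1 x ^ ((j : ℤ) - k) := by
  unfold FM
  rw [← Complex.mul_conj, map_sum, Finset.sum_mul_sum]
  refine Finset.sum_congr rfl fun j _ => Finset.sum_congr rfl fun k _ => ?_
  have h1 : (starRingEnd ℂ) (z1 x) = (z1 x)⁻¹ := by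
    rw [Complex.inv_def, Complex.normSq_eq_norm_sq, z1_norm]
    simp
  rw [map_pow, h1, zpow_sub₀ (z1_ne x), zpow_natCast, zpow_natCast, inv_pow]
  rfl

omit [AddCommGroup H] in
lemma Psi_fejer (ρ : H → R → ℤ) {b : R → ℝ} (hb : ∀ y, 0 ≤ b y) (h : H) (M : ℕ) :
    ∑ j ∈ Finset.range (M + 1), ∑ k ∈ Finset.range (M + 1), Psi ρ b h ((j : ℤ) - k) =
      ∫ x : R → T, gG b x * FM M x * (uu ρ h x).re ∂muR R := by
  have hc : ∀ q : ℤ, Continuous fun x : R → T => (gG b x : ℂ) * (z1 x ^ q * uu ρ h x) := fun q =>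
    (Complex.continuous_ofReal.comp (gG_cont b)).mul ((zpow_cont z1_cont z1_ne q).mul (uu_cont ρ h))
  have hi : ∀ q : ℤ, Integrable (fun x : R → T => (gG b x : ℂ) * (z1 x ^ q * uu ρ h x)) (muR R) :=
    fun q => (hc q).integrable_of_hasCompactSupport (HasCompactSupport.of_compactSpace _)
  have h1 : ((∑ j ∈ Finset.range (M + 1), ∑ k ∈ Finset.range (M + 1),
      Psi ρ b h ((j : ℤ) - k) : ℝ) : ℂ) =
      ∫ x : R → T, ((gG b x : ℝ) : ℂ) * ((FM M x : ℝ) : ℂ) * uu ρ h x ∂muR R := by
    have h2 : ∀ x : R → T, ((gG b x : ℝ) : ℂ) * ((FM M x : ℝ) : ℂ) * uu ρ h x =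
        ∑ j ∈ Finset.range (M + 1), ∑ k ∈ Finset.range (M + 1),
          (gG b x : ℂ) * (z1 x ^ ((j : ℤ) - k) * uu ρ h x) := by
      intro x
      rw [FM_eq, mul_assoc, Finset.sum_mul, Finset.mul_sum]
      refine Finset.sum_congr rfl fun j _ => ?_
      rw [Finset.sum_mul, Finset.mul_sum]
    simp only [h2]
    rw [integral_finsetSum _ fun j _ => integrable_finsetSum _ fun k _ => hi _]
    push_cast
    refine Finset.sum_congr rfl fun j _ => ?_
    rw [integral_finsetSum _ fun k _ => hi _]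
    exact Finset.sum_congr rfl fun k _ => Psi_integral ρ hb h _
  have h3 := congrArg Complex.re h1
  rw [Complex.ofReal_re] at h3
  rw [h3]
  have hi2 : Integrable (fun x : R → T => ((gG b x : ℝ) : ℂ) * ((FM M x : ℝ) : ℂ) * uu ρ h x)
      (muR R) := by
    have : Continuous fun x : R → T => ((gG b x : ℝ) : ℂ) * ((FM M x : ℝ) : ℂ) * uu ρ h x :=
      ((Complex.continuous_ofReal.comp (gG_cont b)).mul
        (Complex.continuous_ofReal.comp (FM_cont M))).mul (uu_cont ρ h)
    exact this.integrable_of_hasCompactSupport (HasCompactSupport.of_compactSpace _)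
  have h4 := integral_re hi2
  simp only [RCLike.re_eq_complex_re] at h4
  rw [← h4]
  refine integral_congr_ae (Eventually.of_forall fun x => ?_)
  simp only
  rw [← Complex.ofReal_mul, Complex.re_ofReal_mul]

lemma uu_cos (ρ : H →+ (R → ℤ)) (x : R → T) :
    ∃ l : H →+ ℝ, ∀ h, (uu ρ h x).re = Real.cos (l h) := by
  have hx : ∀ y, ∃ r : ℝ, ((r : ℝ) : T) = x y := fun y => QuotientAddGroup.mk_surjective (x y)
  choose r hr using hx
  refine ⟨{ toFun := fun h => ∑ y, (ρ h y : ℝ) * r y
            map_zero' := by simp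
            map_add' := fun a b => by
              rw [← Finset.sum_add_distrib]
              refine Finset.sum_congr rfl fun y _ => ?_
              rw [map_add, Pi.add_apply]
              push_cast
              ring }, fun h => ?_⟩
  have h1 : uu ρ h x = Complex.exp (((-∑ y, (ρ h y : ℝ) * r y : ℝ) : ℂ) * Complex.I) := by
    unfold uu
    rw [← Finset.sum_neg_distrib, Complex.ofReal_sum, Finset.sum_mul, Complex.exp_sum]
    refine Finset.prod_congr rfl fun y _ => ?_
    rw [← hr y, fourier_coe]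
    congr 2
    push_cast
    ring
  rw [h1, Complex.exp_ofReal_mul_I_re, Real.cos_neg]
  rfl

/-- the sums with the Fejér weights as integrals over the phases -/
lemma fejer_integral [Countable H] (ρ : H →+ (R → ℤ)) {b : R → ℝ} (hb : ∀ y, 0 ≤ b y) {A : H → ℝ}
    (hA : Summable fun h => |A h|) (M : ℕ) :
    ∑' h, A h * (∑ j ∈ Finset.range (M + 1), ∑ k ∈ Finset.range (M + 1),
      Psi ρ b h ((j : ℤ) - k)) =
      ∫ x : R → T, gG b x * FM M x * (∑' h, A h * (uu ρ h x).re) ∂muR R := by
  have hc : Continuous fun x : R → T => gG b x * FM M x := (gG_cont b).mul (FM_cont M)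
  obtain ⟨C, hC⟩ : ∃ C : ℝ, ∀ x : R → T, |gG b x * FM M x| ≤ C := by
    obtain ⟨C, hC⟩ := isCompact_univ.exists_bound_of_continuousOn (hc.continuousOn (s := Set.univ))
    exact ⟨C, fun x => by simpa using hC x (Set.mem_univ x)⟩
  have hre : ∀ h, Continuous fun x : R → T => (uu ρ h x).re := fun h =>
    Complex.continuous_re.comp (uu_cont ρ h)
  have hcont : ∀ h, Continuous fun x : R → T => A h * (gG b x * FM M x * (uu ρ h x).re) := fun h =>
    continuous_const.mul (hc.mul (hre h))
  have hint : ∀ h, Integrable (fun x : R → T => A h * (gG b x * FM M x * (uu ρ h x).re)) (muR R) :=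
    fun h => (hcont h).integrable_of_hasCompactSupport (HasCompactSupport.of_compactSpace _)
  have hbd : ∀ h (x : R → T), ‖A h * (gG b x * FM M x * (uu ρ h x).re)‖ ≤ |A h| * C := by
    intro h x
    rw [Real.norm_eq_abs, abs_mul, abs_mul (gG b x * FM M x)]
    refine mul_le_mul_of_nonneg_left ?_ (abs_nonneg _)
    have h1 : |(uu ρ h x).re| ≤ 1 := by
      have := Complex.abs_re_le_norm (uu ρ h x)
      rwa [uu_norm] at this
    calc |gG b x * FM M x| * |(uu ρ h x).re| ≤ |gG b x * FM M x| * 1 :=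
          mul_le_mul_of_nonneg_left h1 (abs_nonneg _)
      _ ≤ C := by rw [mul_one]; exact hC x
  have hsum : Summable fun h => ∫ x : R → T, ‖A h * (gG b x * FM M x * (uu ρ h x).re)‖ ∂muR R := by
    refine Summable.of_nonneg_of_le (fun h => integral_nonneg fun x => norm_nonneg _) (fun h => ?_)
      (hA.mul_right C)
    calc ∫ x : R → T, ‖A h * (gG b x * FM M x * (uu ρ h x).re)‖ ∂muR R
        ≤ ∫ _ : R → T, |A h| * C ∂muR R := by
          refine integral_mono_ae (hint h).norm (integrable_const _)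
            (Eventually.of_forall fun x => hbd h x)
      _ = |A h| * C := by simp
  have h1 := integral_tsum_of_summable_integral_norm hint hsum
  have h2 : ∀ x : R → T, gG b x * FM M x * (∑' h, A h * (uu ρ h x).re) =
      ∑' h, A h * (gG b x * FM M x * (uu ρ h x).re) := by
    intro x
    rw [← tsum_mul_left]
    exact tsum_congr fun h => by ring
  simp only [h2]
  rw [← h1]
  refine tsum_congr fun h => ?_
  rw [integral_const_mul, Psi_fejer ρ hb h M]

/-- **Pinning inequality.** The expectation of `∑ q, Psi h q` decreases if couplings are added. -/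
theorem mono_Psi {D : H →+ (E → ℤ)} (hD : Function.Injective D) {J K : E → ℝ}
    (hJ : ∀ e, 0 ≤ J e) (hK : ∀ e, 0 ≤ K e) (ρ : H →+ (R → ℤ)) {b : R → ℝ} (hb : ∀ y, 0 ≤ b y)
    (hR : Nonempty R) :
    (∑' x : H × ℤ, W D (J + K) x.1 * Psi ρ b x.1 x.2) * (∑' h, W D J h) ≤
      (∑' x : H × ℤ, W D J x.1 * Psi ρ b x.1 x.2) * ∑' h, W D (J + K) h := by
  have hJK : ∀ e, 0 ≤ (J + K) e := fun e => add_nonneg (hJ e) (hK e)
  haveI : Countable H := hD.countable
  -- summability with the additional face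
  have key : ∀ {J' : E → ℝ} (_ : ∀ e, 0 ≤ J' e),
      Summable fun x : H × ℤ => W D J' x.1 * Psi ρ b x.1 x.2 := by
    intro J' hJ'
    set D' : H × ℤ → E ⊕ R → ℤ := fun x => Sum.elim (D x.1) (fun y => ρ x.1 y - x.2) with hD'
    have hinj : Function.Injective D' := by
      rintro ⟨h, q⟩ ⟨h', q'⟩ hx
      have h1 : D h = D h' := funext fun e => congrFun hx (Sum.inl e)
      have h2 : h = h' := hD h1
      subst h2
      obtain ⟨y⟩ := hR
      have h3 : ρ h y - q = ρ h y - q' := congrFun hx (Sum.inr y)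
      have h4 : q = q' := by omega
      rw [h4]
    have h1 := W_summable (D := D') hinj (J := Sum.elim J' b) (by rintro (e | y) <;> simp [hJ', hb])
    refine h1.congr fun x => ?_
    unfold W Psi
    rw [Fintype.prod_sum_type]
    rfl
  have lim : ∀ {J' : E → ℝ} (_ : ∀ e, 0 ≤ J' e),
      Tendsto (fun M : ℕ => (∑' h, W D J' h * (∑ j ∈ Finset.range (M + 1),
        ∑ k ∈ Finset.range (M + 1), Psi ρ b h ((j : ℤ) - k))) / ((M : ℝ) + 1)) atTop
        (𝓝 (∑' x : H × ℤ, W D J' x.1 * Psi ρ b x.1 x.2)) := by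
    intro J' hJ'
    have hs := key hJ'
    have h1 : ∀ M : ℕ, (∑' h, W D J' h * (∑ j ∈ Finset.range (M + 1),
        ∑ k ∈ Finset.range (M + 1), Psi ρ b h ((j : ℤ) - k))) / ((M : ℝ) + 1) =
        ∑' x : H × ℤ, cF M x.2 * (W D J' x.1 * Psi ρ b x.1 x.2) := by
      intro M
      have hsM : Summable fun x : H × ℤ => cF M x.2 * (W D J' x.1 * Psi ρ b x.1 x.2) := by
        refine Summable.of_nonneg_of_le (fun x => mul_nonneg (cF_nonneg _ _)
          (mul_nonneg (W_nonneg hJ' _) (Psi_nonneg hb _ _))) (fun x => ?_) hs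
        exact mul_le_of_le_one_left (mul_nonneg (W_nonneg hJ' _) (Psi_nonneg hb _ _)) (cF_le _ _)
      rw [hsM.tsum_prod, ← tsum_div_const]
      refine tsum_congr fun h => ?_
      have h2 := cF_sum M (fun q => Psi ρ b h q)
      rw [mul_div_assoc, ← h2, ← tsum_mul_left]
      exact tsum_congr fun q => by ring
    simp only [h1]
    refine tendsto_tsum_of_dominated_convergence hs (fun x => ?_) (Eventually.of_forall fun M x => ?_)
    · have := (cF_tendsto x.2).mul_const (W D J' x.1 * Psi ρ b x.1 x.2)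
      rwa [one_mul] at this
    · rw [Real.norm_eq_abs, abs_mul, abs_of_nonneg (cF_nonneg M x.2), abs_of_nonneg
        (mul_nonneg (W_nonneg hJ' _) (Psi_nonneg hb _ _))]
      exact mul_le_of_le_one_left (mul_nonneg (W_nonneg hJ' _) (Psi_nonneg hb _ _)) (cF_le _ _)
  have hA := (W_summable (D := D) hD hJK).abs
  have hB := (W_summable (D := D) hD hJ).abs
  refine le_of_tendsto_of_tendsto' ((lim hJK).mul_const (∑' h, W D J h))
    ((lim hJ).mul_const (∑' h, W D (J + K) h)) fun M => ?_
  rw [fejer_integral ρ hb hA M, fejer_integral ρ hb hB M, div_mul_eq_mul_div, div_mul_eq_mul_div]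
  refine div_le_div_of_nonneg_right ?_ (by positivity)
  rw [← integral_mul_const, ← integral_mul_const]
  have hcA : ∀ {A : H → ℝ} (_ : Summable fun h => |A h|),
      Continuous fun x : R → T => ∑' h, A h * (uu ρ h x).re := by
    intro A hA
    refine continuous_tsum (fun h => continuous_const.mul
      (Complex.continuous_re.comp (uu_cont ρ h))) hA fun h x => ?_
    rw [Real.norm_eq_abs, abs_mul]
    refine mul_le_of_le_one_right (abs_nonneg _) ?_
    have := Complex.abs_re_le_norm (uu ρ h x)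
    rwa [uu_norm] at this
  have hI : ∀ {A : H → ℝ} (_ : Summable fun h => |A h|) (c : ℝ), Integrable
      (fun x : R → T => gG b x * FM M x * (∑' h, A h * (uu ρ h x).re) * c) (muR R) := fun hA c =>
    ((((gG_cont b).mul (FM_cont M)).mul (hcA hA)).mul
      continuous_const).integrable_of_hasCompactSupport (HasCompactSupport.of_compactSpace _)
  refine integral_mono (hI hA _) (hI hB _) fun x => ?_
  obtain ⟨l, hl⟩ := uu_cos ρ x
  have h0 : 0 ≤ gG b x * FM M x := mul_nonneg (gG_nonneg b x) (Complex.normSq_nonneg _)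
  have h1 := mul_le_mul_of_nonneg_left (mono_cos hD hJ hK l) h0
  simp only [hl]
  rw [mul_assoc, mul_assoc (gG b x * FM M x)]
  exact h1

end mix

end Vale.Agent.P159.T1.H934
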