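import Vale.Agent.P159.T1.H934.Markov
import Vale.Agent.P159.T1.H532.Flux

/-!
Bound of the quotient `Z_LL * Z_RR / (Z_LR * Z_RL)` of partition functions of integer heights on a
finite graph with left and right outer faces.
-/

open MeasureTheory Filter Topology

namespace Vale.Agent.P159.T1.H934

open Vale.Agent.P159 Vale.Agent.P159.H353 Vale.Agent.P159.R2.H254 Vale.Agent.P159.R2.H729

section rho

variable {V E A B : Type} [Fintype V] [Fintype E] [Fintype A] [Fintype B]
  {s t : E → V} {l : A → V} {r : B → V}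

omit [Fintype V] [Fintype E] in
lemma grd_shift (h : V → ℤ) (c : ℤ) : grd s t (fun v => h v - c) = grd s t h := by
  funext e
  show h (t e) - c - (h (s e) - c) = h (t e) - h (s e)
  ring

omit [Fintype V] in
lemma W_shift (J : E → ℝ) (h : V → ℤ) (c : ℤ) :
    W (grd s t) J (fun v => h v - c) = W (grd s t) J h := by
  unfold W
  rw [grd_shift]

omit [Fintype V] [Fintype E] [Fintype A] [Fintype B] in
lemma Sp_shift (h : V → ℤ) (k : ℤ) : Sp s t l r 0 (fun v => h v - k) ↔ Sp s t l r k h := by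
  unfold Sp
  have : {v | h v - k ≠ 0} = {v | h v ≠ k} := by
    ext v
    simp only [Set.mem_ofPred_eq, ne_eq, sub_eq_zero]
  rw [this]

open Classical in
omit [Fintype V] [Fintype A] [Fintype B] in
/-- the mean number of separating levels is at least the probability that there is one -/
lemma n1_ge {J : E → ℝ} (hJ : ∀ e, 0 ≤ J e) (v0 : V) {n1 : ℝ}
    (h1 : HasSum (fun h : V → ℤ => if Sp s t l r 0 h then W (grd s t) J h else 0) n1) :
    ∑' h : {h : V → ℤ // h v0 = 0}, (if ∃ k, Sp s t l r k h.1 then W (grd s t) J h.1 else 0) ≤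
      n1 := by
  set F : (V → ℤ) → ℝ := fun h => if Sp s t l r 0 h then W (grd s t) J h else 0 with hF
  have hF0 : ∀ h, 0 ≤ F h := fun h => by
    simp only [hF]
    split_ifs
    · exact W_nonneg hJ _
    · exact le_rfl
  set kk : (V → ℤ) → ℤ := fun h => if H : ∃ k, Sp s t l r k h then H.choose else 0 with hkk
  set j : {h : V → ℤ // h v0 = 0} → (V → ℤ) := fun h v => h.1 v - kk h.1 with hj
  have hinj : Function.Injective j := by
    intro a b hab
    have h2 : ∀ v, a.1 v - kk a.1 = b.1 v - kk b.1 := fun v => congrFun hab v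
    have h3 := h2 v0
    rw [a.2, b.2] at h3
    apply Subtype.ext
    funext v
    have := h2 v
    omega
  have hle : ∀ h : {h : V → ℤ // h v0 = 0},
      (if ∃ k, Sp s t l r k h.1 then W (grd s t) J h.1 else 0) ≤ F (j h) := by
    intro h
    split_ifs with H
    · have h2 : Sp s t l r (kk h.1) h.1 := by
        simp only [hkk, dif_pos H]
        exact H.choose_spec
      have h3 : Sp s t l r 0 (j h) := (Sp_shift h.1 (kk h.1)).2 h2
      simp only [hF]
      rw [if_pos h3]
      exact (W_shift J h.1 (kk h.1)).ge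
    · exact hF0 _
  have hsj : Summable fun h => F (j h) := h1.summable.comp_injective hinj
  have hsg : Summable fun h : {h : V → ℤ // h v0 = 0} =>
      (if ∃ k, Sp s t l r k h.1 then W (grd s t) J h.1 else 0) := by
    refine Summable.of_nonneg_of_le (fun h => ?_) hle hsj
    split_ifs
    · exact W_nonneg hJ _
    · exact le_rfl
  rw [← h1.tsum_eq]
  exact hsg.tsum_le_tsum_of_inj j hinj (fun c _ => hF0 c) hle h1.summable

/-- the change of variables of the levels -/
def shE : ℤ × (V → ℤ) ≃ (V → ℤ) × ℤ where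
  toFun x := (fun v => x.2 v - x.1, -x.1)
  invFun y := (-y.2, fun v => y.1 v - y.2)
  left_inv x := by
    ext
    · simp
    · simp
  right_inv y := by
    ext
    · simp
    · simp

open Classical in
omit [Fintype V] [Fintype A] in
/-- the mean number of separating levels as a sum over the levels -/
lemma n2_levels {J : E → ℝ} {b : B → ℝ} {n2 : ℝ}
    (h2 : HasSum (fun x : (V → ℤ) × ℤ => if Sp s t l r 0 x.1 then
        W (grd s t) J x.1 * Psi (vals r) b x.1 x.2 else 0) n2) :
    (Summable fun k : ℤ => ∑' h : V → ℤ, if Sp s t l r k h then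
      W (grd s t) J h * Psi (vals r) b h 0 else 0) ∧
    (∀ k : ℤ, Summable fun h : V → ℤ => if Sp s t l r k h then
      W (grd s t) J h * Psi (vals r) b h 0 else 0) ∧
    n2 = ∑' k : ℤ, ∑' h : V → ℤ, if Sp s t l r k h then
      W (grd s t) J h * Psi (vals r) b h 0 else 0 := by
  have h3 := shE.hasSum_iff.2 h2
  have e : ((fun x : (V → ℤ) × ℤ => if Sp s t l r 0 x.1 then
        W (grd s t) J x.1 * Psi (vals r) b x.1 x.2 else 0) ∘ shE) =
      fun x : ℤ × (V → ℤ) => if Sp s t l r x.1 x.2 then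
        W (grd s t) J x.2 * Psi (vals r) b x.2 0 else 0 := by
    funext x
    show (if Sp s t l r 0 (fun v => x.2 v - x.1) then
      W (grd s t) J (fun v => x.2 v - x.1) * Psi (vals r) b (fun v => x.2 v - x.1) (-x.1) else 0) = _
    rw [W_shift]
    have h4 : Psi (vals r) b (fun v => x.2 v - x.1) (-x.1) = Psi (vals r) b x.2 0 := by
      unfold Psi vals
      refine Finset.prod_congr rfl fun y _ => ?_
      simp only [AddMonoidHom.coe_mk, ZeroHom.coe_mk]
      congr 1
      ring
    rw [h4]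
    exact if_congr (Sp_shift x.2 x.1) rfl rfl
  rw [e] at h3
  refine ⟨h3.summable.prod, fun k => h3.summable.prod_factor k, ?_⟩
  rw [← h3.tsum_eq, h3.summable.tsum_prod]

/-- source of the edges with the right outer face added -/
def sR (s : E → V) : E ⊕ B → Option V := Sum.elim (fun e => some (s e)) (fun _ => none)

/-- target of the edges with the right outer face added -/
def tR (t : E → V) (r : B → V) : E ⊕ B → Option V :=
  Sum.elim (fun e => some (t e)) (fun y => some (r y))

/-- heights with the outer face pinned -/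
def hsE : H532.Hs ({none} : Set (Option V)) ≃ (V → ℤ) where
  toFun h := fun v => h.1 (some v)
  invFun g := ⟨fun x => x.elim 0 g, by rintro v rfl; rfl⟩
  left_inv h := by
    apply Subtype.ext
    funext x
    rcases x with _ | v
    · exact (h.2 none rfl).symm
    · rfl
  right_inv g := rfl

omit [Fintype V] in
lemma Wt_R (J : E → ℝ) (b : B → ℝ) (h : H532.Hs ({none} : Set (Option V))) :
    H532.Wt (sR s) (tR t r) (Sum.elim J b) h.1 =
      W (grd s t) J (hsE h) * Psi (vals r) b (hsE h) 0 := by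
  unfold H532.Wt W Psi
  rw [Fintype.prod_sum_type]
  congr 1
  refine Finset.prod_congr rfl fun y _ => ?_
  show wI (b y) (h.1 (some (r y)) - h.1 none) = wI (b y) (h.1 (some (r y)) - 0)
  rw [h.2 none rfl]

omit [Fintype V] [Fintype E] [Fintype A] [Fintype B] in
lemma Sep_of_Sp {k : ℤ} {h : H532.Hs ({none} : Set (Option V))}
    (hS : Sp s t l r k (hsE h)) :
    H532.Sep (sR s) (tR t r) (some '' Set.range l) {none} k h.1 := by
  rintro ⟨x, ⟨hx, v, ⟨y, rfl⟩, rfl⟩, z, ⟨hz, rfl⟩, h1⟩
  apply hS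
  -- the chain inside `V` up to the first visit of the outer face
  have key : ∀ z : Option V, Relation.ReflTransGen
      (fun a b => H532.adjE (sR s) (tR t r) a b ∧ a ∈ {v | h.1 v ≠ k} ∧ b ∈ {v | h.1 v ≠ k})
      (some (l y)) z →
      (∃ w : V, z = some w ∧ Relation.ReflTransGen
        (fun a b => adjG s t a b ∧ a ∈ {v | hsE h v ≠ k} ∧ b ∈ {v | hsE h v ≠ k}) (l y) w) ∨
      ∃ y' : B, hsE h (r y') ≠ k ∧ Relation.ReflTransGen
        (fun a b => adjG s t a b ∧ a ∈ {v | hsE h v ≠ k} ∧ b ∈ {v | hsE h v ≠ k})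
          (l y) (r y') := by
    intro z hz
    induction hz with
    | refl => exact Or.inl ⟨l y, rfl, .refl⟩
    | @tail a b _ hab ih =>
      rcases ih with ⟨w, rfl, hw⟩ | h2
      · obtain ⟨⟨e, he⟩, ha, hb⟩ := hab
        rcases e with e | y'
        · left
          rcases he with ⟨h3, h4⟩ | ⟨h3, h4⟩
          · have h5 : s e = w := Option.some.inj h3
            subst h5
            subst h4
            exact ⟨t e, rfl, hw.tail ⟨⟨e, Or.inl ⟨rfl, rfl⟩⟩, ha, hb⟩⟩
          · have h5 : t e = w := Option.some.inj h4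
            subst h5
            subst h3
            exact ⟨s e, rfl, hw.tail ⟨⟨e, Or.inr ⟨rfl, rfl⟩⟩, ha, hb⟩⟩
        · right
          rcases he with ⟨h3, h4⟩ | ⟨h3, h4⟩
          · exact absurd h3 (by simp [sR])
          · have h5 : r y' = w := Option.some.inj h4
            subst h5
            exact ⟨y', ha, hw⟩
      · exact Or.inr h2
  rcases key none h1 with ⟨w, hw, -⟩ | ⟨y', h2, h3⟩
  · exact absurd hw (by simp)
  · exact ⟨l y, ⟨hx, y, rfl⟩, r y', ⟨h2, y', rfl⟩, h3⟩

omit [Fintype E] [Fintype A] [Fintype B] [Fintype V] in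
lemma conn_R (hc : Conn s t) (hB : Nonempty B) :
    H532.Conn (sR s) (tR t r) ({none} : Set (Option V)) := by
  obtain ⟨y⟩ := hB
  intro x
  refine ⟨none, rfl, ?_⟩
  rcases x with _ | v
  · exact .refl
  · have h0 : H532.adjE (sR s) (tR t r) none (some (r y)) := ⟨Sum.inr y, Or.inl ⟨rfl, rfl⟩⟩
    refine Relation.ReflTransGen.head h0 ?_
    have h1 := hc (r y) v
    induction h1 with
    | refl => exact .refl
    | @tail a b _ hab ih =>
      refine ih.tail ?_
      obtain ⟨e, ⟨rfl, rfl⟩ | ⟨rfl, rfl⟩⟩ := hab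
      · exact ⟨Sum.inl e, Or.inl ⟨rfl, rfl⟩⟩
      · exact ⟨Sum.inl e, Or.inr ⟨rfl, rfl⟩⟩

open Classical in
/-- **Bound of the quotient of the partition functions.**
`p * Z_LL * Z_RR ≤ (1 + 4 ∑ J η²) * Z_RL * Z_LR` -/
theorem rho_le (hc : Conn s t) (hA : Nonempty A) (hB : Nonempty B) {J : E → ℝ} {a : A → ℝ}
    {b : B → ℝ} (hJ : ∀ e, 0 ≤ J e) (ha : ∀ y, 0 ≤ a y) (hb : ∀ y, 0 ≤ b y) (v0 : V) {p : ℝ}
    (hp : p * ∑' h : {h : V → ℤ // h v0 = 0}, W (grd s t) J h.1 ≤
      ∑' h : {h : V → ℤ // h v0 = 0}, (if ∃ k, Sp s t l r k h.1 then W (grd s t) J h.1 else 0))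
    (w : A → ℝ) (hw : ∑ y, w y = 1) (η : E ⊕ B → ℝ)
    (hη : ∀ h : V → ℤ, ∑ e, η (Sum.inl e) * ((h (t e) - h (s e) : ℤ) : ℝ) +
      ∑ y, η (Sum.inr y) * (h (r y) : ℝ) = ∑ y, w y * (h (l y) : ℝ)) :
    p * (∑' h : {h : V → ℤ // h v0 = 0}, W (grd s t) J h.1) *
      (∑' x : (V → ℤ) × ℤ, W (grd s t) J x.1 * Psi (vals l) a x.1 0 *
        Psi (vals r) b x.1 x.2) ≤
    (1 + 4 * (∑ e, J e * η (Sum.inl e) ^ 2 + ∑ y, b y * η (Sum.inr y) ^ 2)) *
      (∑' h : V → ℤ, W (grd s t) J h * Psi (vals l) a h 0) *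
      ∑' h : V → ℤ, W (grd s t) J h * Psi (vals r) b h 0 := by
  obtain ⟨n1, n2, h1, h2, h3⟩ := sep_zero_le (l := l) (r := r) hc hA hB hJ ha hb
  have h4 := n1_ge hJ v0 h1
  obtain ⟨h5, h6, h7⟩ := n2_levels h2
  have hJb : ∀ e : E ⊕ B, 0 ≤ Sum.elim J b e := by rintro (e | y) <;> simp [hJ, hb]
  -- weights on the left vertices
  set L : Finset (Option V) := Finset.univ.image (fun y => some (l y)) with hL
  set w' : Option V → ℝ := fun x => ∑ y, if some (l y) = x then w y else 0 with hw'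
  have hsumL : ∀ f : Option V → ℝ, ∑ x ∈ L, w' x * f x = ∑ y, w y * f (some (l y)) := by
    intro f
    simp only [hw', Finset.sum_mul]
    rw [Finset.sum_comm]
    refine Finset.sum_congr rfl fun y _ => ?_
    rw [Finset.sum_eq_single (some (l y))]
    · rw [if_pos rfl]
    · intro x _ hx
      rw [if_neg (Ne.symm hx), zero_mul]
    · intro hx
      exact absurd (Finset.mem_image_of_mem _ (Finset.mem_univ y)) hx
  have hLset : (L : Set (Option V)) = some '' Set.range l := by
    ext x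
    simp only [hL, Finset.coe_image, Finset.coe_univ, Set.image_univ, Set.mem_range, Set.mem_image,
      exists_exists_eq_and]
  obtain ⟨h8, h9⟩ := H532.sum_sep_le (s := sR s) (t := tR t r) (P := {none}) (J := Sum.elim J b)
    (conn_R hc hB) hJb L w' η (by
      have := hsumL (fun _ => 1)
      simp only [mul_one] at this
      rw [this, hw])
    (by
      intro h hh
      have h0 : h none = 0 := hh none rfl
      rw [hsumL (fun x => (h x : ℝ)), ← hη (fun v => h (some v))]
      unfold H532.Xh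
      rw [Fintype.sum_sum_type]
      congr 1
      refine Finset.sum_congr rfl fun y _ => ?_
      show η (Sum.inr y) * ((h (some (r y)) - h none : ℤ) : ℝ) = _
      rw [h0, sub_zero])
  have e1 : ∑' h : H532.Hs ({none} : Set (Option V)), H532.Wt (sR s) (tR t r) (Sum.elim J b) h.1 =
      ∑' h : V → ℤ, W (grd s t) J h * Psi (vals r) b h 0 := by
    rw [← hsE.tsum_eq (fun h : V → ℤ => W (grd s t) J h * Psi (vals r) b h 0)]
    exact tsum_congr fun h => Wt_R J b h
  have e2 : ∑ e : E ⊕ B, Sum.elim J b e * η e ^ 2 =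
      ∑ e, J e * η (Sum.inl e) ^ 2 + ∑ y, b y * η (Sum.inr y) ^ 2 := by
    rw [Fintype.sum_sum_type]
    rfl
  rw [e1, e2] at h9
  have h10 : n2 ≤ (1 + 4 * (∑ e, J e * η (Sum.inl e) ^ 2 + ∑ y, b y * η (Sum.inr y) ^ 2)) *
      ∑' h : V → ℤ, W (grd s t) J h * Psi (vals r) b h 0 := by
    refine le_trans ?_ h9
    rw [h7]
    refine h5.tsum_le_tsum (fun k => ?_) h8
    rw [← hsE.tsum_eq (fun h : V → ℤ => if Sp s t l r k h then
      W (grd s t) J h * Psi (vals r) b h 0 else 0)]
    refine Summable.tsum_le_tsum (fun h => ?_) (hsE.summable_iff.2 (h6 k))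
      (H532.summable_Ws (conn_R hc hB) hJb _ k)
    unfold H532.Ws
    split_ifs with hS
    · have h11 : h.1 ∈ {h | H532.Sep (sR s) (tR t r) (L : Set (Option V)) {none} k h} := by
        rw [hLset]
        exact Sep_of_Sp hS
      rw [Set.indicator_of_mem h11, Wt_R]
    · exact Set.indicator_nonneg (fun h _ => H532.Wt_nonneg hJb h) _
  have z1 : 0 ≤ ∑' x : (V → ℤ) × ℤ, W (grd s t) J x.1 * Psi (vals l) a x.1 0 *
        Psi (vals r) b x.1 x.2 := tsum_nonneg fun x =>
    mul_nonneg (mul_nonneg (W_nonneg hJ _) (Psi_nonneg ha _ _)) (Psi_nonneg hb _ _)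
  have z2 : 0 ≤ ∑' h : V → ℤ, W (grd s t) J h * Psi (vals l) a h 0 := tsum_nonneg fun h =>
    mul_nonneg (W_nonneg hJ _) (Psi_nonneg ha _ _)
  calc p * (∑' h : {h : V → ℤ // h v0 = 0}, W (grd s t) J h.1) *
      (∑' x : (V → ℤ) × ℤ, W (grd s t) J x.1 * Psi (vals l) a x.1 0 *
        Psi (vals r) b x.1 x.2) ≤ n1 * (∑' x : (V → ℤ) × ℤ, W (grd s t) J x.1 *
          Psi (vals l) a x.1 0 * Psi (vals r) b x.1 x.2) :=
        mul_le_mul_of_nonneg_right (hp.trans h4) z1
    _ ≤ (∑' h : V → ℤ, W (grd s t) J h * Psi (vals l) a h 0) * n2 := by rw [mul_comm]; exact h3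
    _ ≤ (∑' h : V → ℤ, W (grd s t) J h * Psi (vals l) a h 0) *
        ((1 + 4 * (∑ e, J e * η (Sum.inl e) ^ 2 + ∑ y, b y * η (Sum.inr y) ^ 2)) *
      ∑' h : V → ℤ, W (grd s t) J h * Psi (vals r) b h 0) := mul_le_mul_of_nonneg_left h10 z2
    _ = _ := by ring

end rho

end Vale.Agent.P159.T1.H934
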