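import Vale.Agent.P159.T1.H910.DKit
import Vale.Agent.P159.T1.H934.CoverDefs

/-!
The variance `Vr b U` is a quadratic form; parallelogram identity for finite families.
-/

open Filter Topology MeasureTheory

namespace Vale.Agent.P159.T1.H934

open Vale.Agent.P159 Vale.Agent.P159.H353 Vale.Agent.P159.T1.D Vale.Agent.P159.T1.H910

/-- quadratic forms on fields -/
def IsQ (Q : (Bnd → ℝ) → ℝ) : Prop :=
  ∀ (m : ℕ) (B : Fin m → Bnd → ℝ), m * ∑ i, Q (B i) - Q (∑ i, B i) =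
    1 / 2 * ∑ i, ∑ j, Q (B i - B j)

lemma par_real (m : ℕ) (x : Fin m → ℝ) : (m : ℝ) * ∑ i, x i ^ 2 - (∑ i, x i) ^ 2 =
    1 / 2 * ∑ i, ∑ j, (x i - x j) ^ 2 := by
  have h1 : ∑ i, ∑ j, (x i - x j) ^ 2 =
      ∑ i, ((m : ℝ) * x i ^ 2 - 2 * x i * ∑ j, x j + ∑ j, x j ^ 2) := by
    refine Finset.sum_congr rfl fun i _ => ?_
    have h2 : ∀ j, (x i - x j) ^ 2 = x i ^ 2 - 2 * x i * x j + x j ^ 2 := fun j => by ring
    simp only [h2]
    rw [Finset.sum_add_distrib, Finset.sum_sub_distrib, ← Finset.mul_sum]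
    simp
  rw [h1, Finset.sum_add_distrib, Finset.sum_sub_distrib, ← Finset.mul_sum, ← Finset.sum_mul,
    ← Finset.mul_sum]
  simp only [Finset.sum_const, Finset.card_univ, Fintype.card_fin, nsmul_eq_mul]
  ring

/-- squares of linear functionals -/
lemma IsQ.sq (L : (Bnd → ℝ) →+ ℝ) : IsQ fun B => L B ^ 2 := by
  intro m B
  simp only [map_sum, map_sub]
  exact par_real m fun i => L (B i)

lemma IsQ.add {Q R : (Bnd → ℝ) → ℝ} (hQ : IsQ Q) (hR : IsQ R) : IsQ fun B => Q B + R B := by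
  intro m B
  have h1 := hQ m B
  have h2 := hR m B
  simp only [Finset.sum_add_distrib]
  linear_combination h1 + h2

lemma IsQ.smul {Q : (Bnd → ℝ) → ℝ} (c : ℝ) (hQ : IsQ Q) : IsQ fun B => c * Q B := by
  intro m B
  have h1 := hQ m B
  simp only [← Finset.mul_sum]
  linear_combination c * h1

lemma IsQ.zero : IsQ fun _ => 0 := by
  intro m B
  simp

lemma IsQ.sum {ι : Type} (s : Finset ι) {Q : ι → (Bnd → ℝ) → ℝ} (hQ : ∀ i ∈ s, IsQ (Q i)) :
    IsQ fun B => ∑ i ∈ s, Q i B := by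
  classical
  induction s using Finset.induction_on with
  | empty => simpa using IsQ.zero
  | insert a s ha ih =>
    have h1 := (hQ a (Finset.mem_insert_self a s)).add
      (ih fun i hi => hQ i (Finset.mem_insert_of_mem hi))
    simpa only [Finset.sum_insert ha] using h1

lemma IsQ.tsum {ι : Type} {Q : ι → (Bnd → ℝ) → ℝ} (hQ : ∀ i, IsQ (Q i))
    (hs : ∀ B, Summable fun i => Q i B) : IsQ fun B => ∑' i, Q i B := by
  intro m B
  have h1 : ∑ k : Fin m, ∑' i, Q i (B k) = ∑' i, ∑ k : Fin m, Q i (B k) :=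
    (Summable.tsum_finsetSum fun k _ => hs (B k)).symm
  have h2 : ∀ k : Fin m, ∑ j : Fin m, ∑' i, Q i (B k - B j) =
      ∑' i, ∑ j : Fin m, Q i (B k - B j) := fun k =>
    (Summable.tsum_finsetSum fun j _ => hs (B k - B j)).symm
  have h3 : ∀ k : Fin m, Summable fun i => ∑ j : Fin m, Q i (B k - B j) := fun k =>
    summable_sum fun j _ => hs (B k - B j)
  have h4 : ∑ k : Fin m, ∑' i, ∑ j : Fin m, Q i (B k - B j) =
      ∑' i, ∑ k : Fin m, ∑ j : Fin m, Q i (B k - B j) :=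
    (Summable.tsum_finsetSum fun k _ => h3 k).symm
  have h5 : Summable fun i => ∑ k : Fin m, Q i (B k) := summable_sum fun k _ => hs (B k)
  show (m : ℝ) * ∑ k, ∑' i, Q i (B k) - ∑' i, Q i (∑ k, B k) =
    1 / 2 * ∑ k, ∑ j, ∑' i, Q i (B k - B j)
  rw [h1]
  simp only [h2]
  rw [h4, ← tsum_mul_left, ← tsum_mul_left, ← (h5.mul_left (m : ℝ)).tsum_sub (hs _)]
  exact tsum_congr fun i => hQ i m B

/-- a nonnegative quadratic form of a sum -/
lemma IsQ.le {Q : (Bnd → ℝ) → ℝ} (hQ : IsQ Q) {m : ℕ} {B : Fin m → Bnd → ℝ}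
    (h0 : ∀ i j, 0 ≤ Q (B i - B j)) : Q (∑ i, B i) ≤ m * ∑ i, Q (B i) := by
  have h1 := hQ m B
  have h2 : 0 ≤ ∑ i, ∑ j, Q (B i - B j) :=
    Finset.sum_nonneg fun i _ => Finset.sum_nonneg fun j _ => h0 i j
  linarith

/-- the pairing as a linear functional of the field -/
noncomputable def prL (U : Finset Z2) (h : Z2 → ℤ) : (Bnd → ℝ) →+ ℝ where
  toFun B := pr U B 0 h
  map_zero' := by simp [pr]
  map_add' B B' := by
    unfold pr
    rw [← Finset.sum_add_distrib]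
    exact Finset.sum_congr rfl fun e _ => by simp only [Pi.add_apply]; ring

lemma wt_nonneg {b : ℝ} (hb : 0 ≤ b) (U : Finset Z2) (m : Bnd → ℤ) (h : Z2 → ℤ) :
    0 ≤ wt b U m h := Finset.prod_nonneg fun _ _ => wI_nonneg hb _

lemma sq_le_exp (x : ℝ) : x ^ 2 ≤ 2 * Real.exp |x| := by
  have h := Real.quadratic_le_exp_of_nonneg (abs_nonneg x)
  have h2 : |x| ^ 2 = x ^ 2 := sq_abs x
  have h3 := abs_nonneg x
  nlinarith

lemma summable_pr2 {b : ℝ} (hb : 0 ≤ b) (U : Finset Z2) (B : Bnd → ℝ) :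
    Summable fun h : Ht U => wt b U 0 h.1 * pr U B 0 h.1 ^ 2 :=
  summ_pr hb B (F := fun h => pr U B 0 h ^ 2) (C := 2) fun h => by
    rw [abs_of_nonneg (sq_nonneg _)]
    exact sq_le_exp _

/-- the variance is a quadratic form -/
theorem Vr_isQ {b : ℝ} (hb : 0 ≤ b) (U : Finset Z2) : IsQ (Vr b U) := by
  have h1 : IsQ fun B => ∑' h : Ht U, wt b U 0 h.1 * pr U B 0 h.1 ^ 2 :=
    IsQ.tsum (fun h => (IsQ.sq (prL U h.1)).smul (wt b U 0 h.1)) fun B => summable_pr2 hb U B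
  have h2 := h1.smul (Z b U)⁻¹
  intro m B
  have h3 := h2 m B
  have h4 : ∀ B, Vr b U B = (Z b U)⁻¹ * ∑' h : Ht U, wt b U 0 h.1 * pr U B 0 h.1 ^ 2 := fun B => by
    unfold Vr D.E
    rw [div_eq_inv_mul]
  simp only [h4]
  exact h3

lemma sq_isQ (S : Finset Bnd) : IsQ fun B => ∑ e ∈ S, B e ^ 2 :=
  IsQ.sum S fun e _ => IsQ.sq ⟨⟨fun B => B e, rfl⟩, fun _ _ => rfl⟩

lemma osc_isQ (l : ℕ) (S : Finset Bnd) : IsQ (osc l S) := by
  refine IsQ.sum S fun e _ => IsQ.sum _ fun u _ => ?_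
  exact IsQ.sq ⟨⟨fun B => B (sh u e) - B e, by simp⟩, fun B B' => by
    simp only [Pi.add_apply]; ring⟩

/-- the defect form -/
noncomputable def Nf (b ε C : ℝ) (l : ℕ) (S : Finset Bnd) (U : Finset Z2) (B : Bnd → ℝ) : ℝ :=
  (helicity b + ε) * ∑ e ∈ S, B e ^ 2 + C * osc l S B + (-1) * Vr b U B

lemma Nf_isQ {b : ℝ} (hb : 0 ≤ b) (ε C : ℝ) (l : ℕ) (S : Finset Bnd) (U : Finset Z2) :
    IsQ (Nf b ε C l S U) :=
  (((sq_isQ S).smul _).add ((osc_isQ l S).smul C)).add ((Vr_isQ hb U).smul (-1))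

/-- `Q (B') ≤ (1+μ) Q (B) + (1+1/μ) Q (B'-B)` -/
lemma Vr_young {b : ℝ} (hb : 0 ≤ b) (U : Finset Z2) {μ : ℝ} (hμ : 0 < μ) (B B' : Bnd → ℝ) :
    Vr b U B' ≤ (1 + μ) * Vr b U B + (1 + 1 / μ) * Vr b U (B' - B) := by
  have hZ := Z_pos hb U
  unfold Vr D.E
  rw [← mul_div_assoc, ← mul_div_assoc, ← add_div]
  refine div_le_div_of_nonneg_right ?_ hZ.le
  have s1 := (summable_pr2 hb U B).mul_left (1 + μ)
  have s2 := (summable_pr2 hb U (B' - B)).mul_left (1 + 1 / μ)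
  rw [← tsum_mul_left, ← tsum_mul_left, ← s1.tsum_add s2]
  refine (summable_pr2 hb U B').tsum_le_tsum (fun h => ?_) (s1.add s2)
  have e1 : pr U (B' - B) 0 h.1 = pr U B' 0 h.1 - pr U B 0 h.1 := map_sub (prL U h.1) B' B
  rw [e1]
  have hw := wt_nonneg hb U 0 h.1
  have key : ∀ x y : ℝ, y ^ 2 ≤ (1 + μ) * x ^ 2 + (1 + 1 / μ) * (y - x) ^ 2 := by
    intro x y
    have h1 : (1 + μ) * x ^ 2 + (1 + 1 / μ) * (y - x) ^ 2 - y ^ 2 =
        (μ * x - (y - x)) ^ 2 / μ := by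
      field_simp
      ring
    have h2 : 0 ≤ (μ * x - (y - x)) ^ 2 / μ := by positivity
    linarith
  have h1 := mul_le_mul_of_nonneg_left (key (pr U B 0 h.1) (pr U B' 0 h.1)) hw
  linarith

lemma osc_sub_le (l : ℕ) (S : Finset Bnd) (B B' : Bnd → ℝ) :
    osc l S (B - B') ≤ 2 * osc l S B + 2 * osc l S B' := by
  unfold osc
  rw [Finset.mul_sum, Finset.mul_sum, ← Finset.sum_add_distrib]
  refine Finset.sum_le_sum fun e _ => ?_
  rw [Finset.mul_sum, Finset.mul_sum, ← Finset.sum_add_distrib]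
  refine Finset.sum_le_sum fun u _ => ?_
  simp only [Pi.sub_apply]
  nlinarith [sq_nonneg ((B (sh u e) - B e) + (B' (sh u e) - B' e))]

lemma sq_sub_le (S : Finset Bnd) (A B C : Bnd → ℝ) :
    ∑ e ∈ S, (A e - B e) ^ 2 ≤ 2 * ∑ e ∈ S, (A e - C e) ^ 2 + 2 * ∑ e ∈ S, (B e - C e) ^ 2 := by
  rw [Finset.mul_sum, Finset.mul_sum, ← Finset.sum_add_distrib]
  refine Finset.sum_le_sum fun e _ => ?_
  nlinarith [sq_nonneg ((A e - C e) + (B e - C e))]

end Vale.Agent.P159.T1.H934
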